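import Crest.Agent.R34.BsgG

/-!
# Row 34: Balog–Szemerédi–Gowers

Apply `bsg_graph` with `δ = 1 / L³` (`#A #B ≤ L² n²`); `#A #B ≥ #Γ ≥ n²/L`, so `#A, #B ≥ n / L²`.  With `Z` the partial sumset,
for `s = x + y ∈ A' + B'` (fix one representation) the map `z ↦ (x + z.2, z.1 + z.2, z.1 + y) ∈ Z³` is injective on the paths and
`z1 - z2 + z3 = s`; so `#(A' + B') · n² / (3072 L^16) ≤ L³ n³`, `3072 ≤ 2^12 ≤ L^12`.
-/

set_option autoImplicit false
open Classical Finset Pointwise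

namespace Crest.Agent.R34

theorem bsg {G : Type} [AddCommGroup G] [DecidableEq G] (n L : ℝ) (hn : 0 < n) (hL : 2 ≤ L)
    (A B : Finset G) (Γ : Finset (G × G)) (hΓ : Γ ⊆ A ×ˢ B) (hA : (#A : ℝ) ≤ L * n)
    (hB : (#B : ℝ) ≤ L * n) (hd : n ^ 2 / L ≤ #Γ)
    (hZ : (#(Γ.image fun z => z.1 + z.2) : ℝ) ≤ L * n) :
    ∃ A' ⊆ A, ∃ B' ⊆ B, n / L ^ 31 ≤ #A' ∧ n / L ^ 31 ≤ #B' ∧ (#(A' + B') : ℝ) ≤ L ^ 31 * n := by
  have hL0 : 0 < L := by linarith
  have hL1 : 1 ≤ L := by linarith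
  have hAB : n ^ 2 / L ≤ (#A : ℝ) * #B := by
    refine hd.trans ?_
    have := card_le_card hΓ
    rw [card_product] at this
    exact_mod_cast this
  have hpos : 0 < n ^ 2 / L := by positivity
  have hA0 : (0 : ℝ) ≤ #A := Nat.cast_nonneg _
  have hB0 : (0 : ℝ) ≤ #B := Nat.cast_nonneg _
  have hA1 : n / L ^ 2 ≤ #A := by
    have h1 : n ^ 2 / L ≤ #A * (L * n) := hAB.trans (mul_le_mul_of_nonneg_left hB hA0)
    rw [div_le_iff₀ hL0] at h1
    rw [div_le_iff₀ (by positivity)]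
    refine le_of_mul_le_mul_right ?_ hn
    nlinarith
  have hB1 : n / L ^ 2 ≤ #B := by
    have h1 : n ^ 2 / L ≤ (L * n) * #B := hAB.trans (mul_le_mul_of_nonneg_right hA hB0)
    rw [div_le_iff₀ hL0] at h1
    rw [div_le_iff₀ (by positivity)]
    refine le_of_mul_le_mul_right ?_ hn
    nlinarith
  have hnL : 0 < n / L ^ 2 := by positivity
  have hAne : A.Nonempty := card_pos.1 (by exact_mod_cast hnL.trans_le hA1)
  have hBne : B.Nonempty := card_pos.1 (by exact_mod_cast hnL.trans_le hB1)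
  have hδ : 0 < 1 / L ^ 3 := by positivity
  obtain ⟨A', hA', B', hB', h1, h2, h3⟩ := bsg_graph A B Γ hΓ (1 / L ^ 3) hδ hAne hBne (by
    refine le_trans ?_ hd
    have : (#A : ℝ) * #B ≤ (L * n) * (L * n) := mul_le_mul hA hB hB0 (by positivity)
    calc 1 / L ^ 3 * #A * #B = 1 / L ^ 3 * (#A * #B) := by ring
      _ ≤ 1 / L ^ 3 * ((L * n) * (L * n)) := mul_le_mul_of_nonneg_left this hδ.le
      _ = n ^ 2 / L := by field_simp)
  have hpow : ∀ k : ℕ, (2 : ℝ) ^ k ≤ L ^ k := fun k => pow_le_pow_left₀ (by norm_num) hL k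
  have hsmall : n / L ^ 31 ≤ 1 / L ^ 3 * (n / L ^ 2) / 6 := by
    have e : 1 / L ^ 3 * (n / L ^ 2) / 6 = n / (6 * L ^ 5) := by field_simp
    rw [e]
    refine div_le_div_of_nonneg_left hn.le (by positivity) ?_
    have : (6 : ℝ) ≤ L ^ 26 := le_trans (by norm_num) (hpow 26)
    calc 6 * L ^ 5 ≤ L ^ 26 * L ^ 5 := mul_le_mul_of_nonneg_right this (by positivity)
      _ = L ^ 31 := by ring
  refine ⟨A', hA', B', hB', ?_, ?_, ?_⟩
  · refine hsmall.trans (le_trans ?_ h1)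
    gcongr
  · refine hsmall.trans (le_trans ?_ h2)
    have : 1 / L ^ 3 * (n / L ^ 2) ≤ 1 / L ^ 3 * #B := mul_le_mul_of_nonneg_left hB1 hδ.le
    have : 0 ≤ 1 / L ^ 3 * (n / L ^ 2) := by positivity
    linarith
  · set Z := Γ.image fun z => z.1 + z.2 with hZdef
    let T : Finset (G × G × G) := Z ×ˢ Z ×ˢ Z
    let g : G × G × G → G := fun t => t.1 - t.2.1 + t.2.2
    have hfib : ∀ s ∈ A' + B', (1 / L ^ 3) ^ 5 * (n ^ 2 / L) / 3072 ≤ (#{t ∈ T | g t = s} : ℝ) := by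
      intro s hs
      obtain ⟨x, hx, y, hy, rfl⟩ := mem_add.1 hs
      refine le_trans ?_ ((h3 x hx y hy).trans ?_)
      · rw [mul_assoc]
        gcongr
      · refine Nat.cast_le.2 (card_le_card_of_injOn
          (fun z : G × G => (x + z.2, z.1 + z.2, z.1 + y)) ?_ ?_)
        · intro z hz
          simp only [coe_filter, Set.mem_ofPred_eq] at hz ⊢
          obtain ⟨-, e1, e2, e3⟩ := hz
          refine ⟨mem_product.2 ⟨mem_image.2 ⟨_, e1, rfl⟩, mem_product.2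
            ⟨mem_image.2 ⟨_, e2, rfl⟩, mem_image.2 ⟨_, e3, rfl⟩⟩⟩, ?_⟩
          simp only [g]
          abel
        · intro z _ z' _ H
          simp only [Prod.mk.injEq, add_right_inj, add_left_inj] at H
          exact Prod.ext H.2.2 H.1
    have hsum : ∑ s ∈ A' + B', #{t ∈ T | g t = s} ≤ #T := by
      rw [← card_biUnion]
      · exact card_le_card (biUnion_subset.2 fun _ _ => filter_subset _ _)
      · intro s _ s' _ hss
        rw [Function.onFun, disjoint_left]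
        intro t ht ht'
        exact hss ((mem_filter.1 ht).2.symm.trans (mem_filter.1 ht').2)
    have hT : (#T : ℝ) ≤ (L * n) ^ 3 := by
      have : (#T : ℝ) = (#Z : ℝ) ^ 3 := by
        simp only [T, card_product]
        push_cast
        ring
      rw [this]
      exact pow_le_pow_left₀ (Nat.cast_nonneg _) hZ 3
    have h4 : (#(A' + B') : ℝ) * ((1 / L ^ 3) ^ 5 * (n ^ 2 / L) / 3072) ≤ (L * n) ^ 3 := by
      refine le_trans ?_ (le_trans (Nat.cast_le.2 hsum) hT)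
      rw [Nat.cast_sum, ← nsmul_eq_mul]
      exact card_nsmul_le_sum _ _ _ hfib
    have e : (1 / L ^ 3) ^ 5 * (n ^ 2 / L) / 3072 = n ^ 2 / (3072 * L ^ 16) := by field_simp
    rw [e, ← mul_div_assoc, div_le_iff₀ (by positivity)] at h4
    have h5 : (3072 : ℝ) ≤ L ^ 12 := le_trans (by norm_num) (hpow 12)
    refine le_of_mul_le_mul_right (h4.trans ?_) (by positivity : 0 < n ^ 2)
    calc (L * n) ^ 3 * (3072 * L ^ 16) ≤ (L * n) ^ 3 * (L ^ 12 * L ^ 16) := by gcongr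
      _ = L ^ 31 * n * n ^ 2 := by ring

end Crest.Agent.R34
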