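import Mathlib

/-!
# Row 34: paths of length three in a dense bipartite graph (graph lemma of Balog–Szemerédi–Gowers)

Plan (`a = #A`, `b = #B`, `N x = {y ∈ B | (x,y) ∈ Γ}`).  `A1 = {x ∈ A | δ b / 2 ≤ #(N x)}` still carries `≥ δ a b / 2` edges.
Call `(x,x') ∈ A1²` bad if `#(N x ∩ N x') < η b`, `η = δ³/128`, `ε = δ/16`.  For `y ∈ B` let `A_y = {x ∈ A1 | (x,y) ∈ Γ}`.
`∑_y #A_y ≥ δ a b / 2`, so `∑_y (#A_y)² ≥ δ² a² b / 4` (Cauchy–Schwarz), `∑_y #(bad pairs in A_y²) ≤ η a² b`; hence some `y` has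
`(#A_y)² - bad_y / ε ≥ δ² a² / 8`.  `A2 = A_y`: `#A2 ≥ δ a / 3`, `bad ≤ ε (#A2)²`.
`A' = {x ∈ A2 | #{x' ∈ A2 | bad} ≤ 2 ε #A2}` has `≥ #A2 / 2` elements (Markov), `B' = {y ∈ B | δ #A2 / 4 ≤ #{x ∈ A2 | (x,y) ∈ Γ}}`
has `≥ δ b / 4` elements (edges between `A2` and `B` are `≥ δ #A2 b / 2`).  For `x ∈ A'`, `y ∈ B'` there are
`≥ δ #A2 / 8` good `x' ∈ A2` adjacent to `y`, each with `≥ η b` common neighbours: `≥ δ^5 a b / 3072` paths.
-/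

set_option autoImplicit false
open Classical Finset

namespace Crest.Agent.R34

private theorem bsgG_dc {α β : Type} (S : Finset α) (T : Finset β) (r : α → β → Prop)
    [∀ x y, Decidable (r x y)] :
    ∑ x ∈ S, (#{y ∈ T | r x y} : ℝ) = ∑ y ∈ T, (#{x ∈ S | r x y} : ℝ) := by
  simp only [card_filter, Nat.cast_sum]
  exact sum_comm

private theorem bsgG_prod {α β : Type} (S : Finset α) (T : Finset β) (r : α × β → Prop)
    [DecidablePred r] :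
    (#{z ∈ S ×ˢ T | r z} : ℝ) = ∑ x ∈ S, (#{y ∈ T | r (x, y)} : ℝ) := by
  simp only [card_filter, Nat.cast_sum]
  rw [sum_product]

/-- splitting a sum at a threshold -/
private theorem bsgG_thr {α : Type} (S : Finset α) (f : α → ℝ) (t : ℝ) (ht : 0 ≤ t) :
    ∑ x ∈ S, f x ≤ ∑ x ∈ S with t ≤ f x, f x + #S * t := by
  rw [← sum_filter_add_sum_filter_not S (fun x => t ≤ f x)]
  gcongr
  calc ∑ x ∈ S with ¬ t ≤ f x, f x ≤ ∑ x ∈ S with ¬ t ≤ f x, t := by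
        refine sum_le_sum fun x hx => ?_
        exact (not_le.1 (mem_filter.1 hx).2).le
    _ = #{x ∈ S | ¬ t ≤ f x} * t := by rw [sum_const, nsmul_eq_mul]
    _ ≤ #S * t := by
        gcongr
        exact filter_subset _ _

theorem bsg_graph {α β : Type} [DecidableEq α] [DecidableEq β] (A : Finset α) (B : Finset β)
    (Γ : Finset (α × β)) (hΓ : Γ ⊆ A ×ˢ B) (δ : ℝ) (hδ : 0 < δ) (hA : A.Nonempty)
    (hB : B.Nonempty) (hd : δ * #A * #B ≤ #Γ) :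
    ∃ A' ⊆ A, ∃ B' ⊆ B, δ * #A / 6 ≤ #A' ∧ δ * #B / 4 ≤ #B' ∧ ∀ x ∈ A', ∀ y ∈ B',
      δ ^ 5 * #A * #B / 3072 ≤
        (#{z ∈ A ×ˢ B | (x, z.2) ∈ Γ ∧ z ∈ Γ ∧ (z.1, y) ∈ Γ} : ℝ) := by
  obtain ⟨a, ha⟩ : ∃ a : ℝ, a = (#A : ℝ) := ⟨_, rfl⟩
  obtain ⟨b, hb⟩ : ∃ b : ℝ, b = (#B : ℝ) := ⟨_, rfl⟩
  rw [← ha, ← hb] at hd ⊢
  have ha0 : 0 < a := by rw [ha]; exact_mod_cast hA.card_pos
  have hb0 : 0 < b := by rw [hb]; exact_mod_cast hB.card_pos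
  obtain ⟨dg, hdg⟩ : ∃ dg : α → ℝ, dg = fun x => (#{y ∈ B | (x, y) ∈ Γ} : ℝ) := ⟨_, rfl⟩
  obtain ⟨co, hco⟩ : ∃ co : α → α → ℝ, co = fun x x' => (#{y ∈ B | (x, y) ∈ Γ ∧ (x', y) ∈ Γ} : ℝ) := ⟨_, rfl⟩
  obtain ⟨A1, hA1⟩ : ∃ A1 : Finset α, A1 = {x ∈ A | δ * b / 2 ≤ dg x} := ⟨_, rfl⟩
  obtain ⟨η, hη⟩ : ∃ η : ℝ, η = δ ^ 3 / 128 := ⟨_, rfl⟩
  obtain ⟨Ay, hAy⟩ : ∃ Ay : β → Finset α, Ay = fun y => {x ∈ A1 | (x, y) ∈ Γ} := ⟨_, rfl⟩
  obtain ⟨bad, hbad⟩ : ∃ bad : β → ℝ, bad = fun y => ∑ x ∈ Ay y, (#{x' ∈ Ay y | co x x' < η * b} : ℝ) := ⟨_, rfl⟩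
  have hη0 : 0 ≤ η * b := by rw [hη]; positivity
  have h1 : (#Γ : ℝ) = ∑ x ∈ A, dg x := by
    have : Γ = {z ∈ A ×ˢ B | z ∈ Γ} := by
      ext z; simp only [mem_filter]
      exact ⟨fun h => ⟨hΓ h, h⟩, fun h => h.2⟩
    rw [hdg]
    conv_lhs => rw [this]
    rw [bsgG_prod]
  have h2 : δ * a * b / 2 ≤ ∑ x ∈ A1, dg x := by
    have := bsgG_thr A dg (δ * b / 2) (by positivity)
    rw [← h1, ← hA1, ← ha] at this
    nlinarith
  have h3 : ∑ x ∈ A1, dg x = ∑ y ∈ B, (#(Ay y) : ℝ) := by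
    rw [hdg, hAy]; exact bsgG_dc A1 B (fun x y => (x, y) ∈ Γ)
  have h4 : δ ^ 2 * a ^ 2 * b / 4 ≤ ∑ y ∈ B, (#(Ay y) : ℝ) ^ 2 := by
    have hcs : (∑ y ∈ B, (#(Ay y) : ℝ)) ^ 2 ≤ #B * ∑ y ∈ B, (#(Ay y) : ℝ) ^ 2 :=
      sq_sum_le_card_mul_sum_sq
    rw [← h3, ← hb] at hcs
    have h5 : (δ * a * b / 2) ^ 2 ≤ (∑ x ∈ A1, dg x) ^ 2 := by gcongr
    have h6 : b * (δ ^ 2 * a ^ 2 * b / 4) ≤ b * ∑ y ∈ B, (#(Ay y) : ℝ) ^ 2 := by nlinarith
    exact le_of_mul_le_mul_left h6 hb0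
  have hA1a : (#A1 : ℝ) ≤ a := by
    rw [ha, hA1]; exact_mod_cast card_le_card (filter_subset _ _)
  have h5 : ∑ y ∈ B, bad y ≤ a ^ 2 * (η * b) := by
    obtain ⟨P, hP⟩ : ∃ P : Finset (α × α), P = {p ∈ A1 ×ˢ A1 | co p.1 p.2 < η * b} := ⟨_, rfl⟩
    have e1 : ∀ y, bad y = (#{p ∈ P | (p.1, y) ∈ Γ ∧ (p.2, y) ∈ Γ} : ℝ) := by
      intro y
      rw [hbad]
      simp only
      rw [← bsgG_prod (Ay y) (Ay y) (fun p => co p.1 p.2 < η * b)]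
      congr 2
      ext p
      simp only [hP, hAy, mem_filter, mem_product]
      tauto
    simp only [e1]
    rw [← bsgG_dc P B (fun p y => (p.1, y) ∈ Γ ∧ (p.2, y) ∈ Γ)]
    calc ∑ p ∈ P, (#{y ∈ B | (p.1, y) ∈ Γ ∧ (p.2, y) ∈ Γ} : ℝ) ≤ ∑ p ∈ P, η * b := by
          refine sum_le_sum fun p hp => ?_
          rw [hP] at hp
          have := (mem_filter.1 hp).2.le
          rw [hco] at this
          exact this
      _ = #P * (η * b) := by rw [sum_const, nsmul_eq_mul]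
      _ ≤ a ^ 2 * (η * b) := by
          gcongr
          calc (#P : ℝ) ≤ #(A1 ×ˢ A1) := by
                rw [hP]; exact_mod_cast card_le_card (filter_subset _ _)
            _ = #A1 * #A1 := by rw [card_product]; push_cast; ring
            _ ≤ a * a := by gcongr
            _ = a ^ 2 := by ring
  obtain ⟨y0, hy0B, hy0⟩ : ∃ y ∈ B, δ ^ 2 * a ^ 2 / 8 ≤ (#(Ay y) : ℝ) ^ 2 - bad y * (16 / δ) := by
    apply exists_le_of_sum_le hB
    rw [sum_const, nsmul_eq_mul, ← hb, sum_sub_distrib, ← sum_mul]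
    have : (∑ y ∈ B, bad y) * (16 / δ) ≤ a ^ 2 * (η * b) * (16 / δ) := by gcongr
    have e : a ^ 2 * (η * b) * (16 / δ) = δ ^ 2 * a ^ 2 * b / 8 := by
      rw [hη]; field_simp; ring
    nlinarith
  obtain ⟨A2, hA2⟩ : ∃ A2, A2 = Ay y0 := ⟨_, rfl⟩
  obtain ⟨c, hc⟩ : ∃ c : ℝ, c = (#A2 : ℝ) := ⟨_, rfl⟩
  rw [← hA2, ← hc] at hy0
  have hc0 : 0 ≤ c := by rw [hc]; positivity
  have hbad0 : 0 ≤ bad y0 := by
    rw [hbad]; exact sum_nonneg fun x _ => Nat.cast_nonneg _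
  have hq0 : 0 ≤ bad y0 * (16 / δ) := by positivity
  have hcge : δ * a / 3 ≤ c := by
    have : (δ * a / 3) ^ 2 ≤ c ^ 2 := by nlinarith [sq_nonneg (δ * a)]
    exact (pow_le_pow_iff_left₀ (by positivity) hc0 two_ne_zero).1 this
  have hcpos : 0 < c := lt_of_lt_of_le (by positivity) hcge
  have hbadle : bad y0 ≤ δ / 16 * c ^ 2 := by
    have h7 : bad y0 * (16 / δ) ≤ c ^ 2 := by nlinarith [sq_nonneg (δ * a)]
    have : bad y0 = bad y0 * (16 / δ) * (δ / 16) := by field_simp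
    rw [this]
    nlinarith
  obtain ⟨bd, hbd⟩ : ∃ bd : α → ℝ, bd = fun x => (#{x' ∈ A2 | co x x' < η * b} : ℝ) := ⟨_, rfl⟩
  have hA2A1 : A2 ⊆ A1 := by rw [hA2, hAy]; exact filter_subset _ _
  have hA2A : A2 ⊆ A := hA2A1.trans (by rw [hA1]; exact filter_subset _ _)
  refine ⟨{x ∈ A2 | bd x ≤ δ / 8 * c}, (filter_subset _ _).trans hA2A,
    {y ∈ B | δ * c / 4 ≤ (#{x ∈ A2 | (x, y) ∈ Γ} : ℝ)}, filter_subset _ _, ?_, ?_, ?_⟩
  · -- Markov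
    have hs : (#{x ∈ A2 | bd x ≤ δ / 8 * c} : ℝ) + #{x ∈ A2 | ¬ bd x ≤ δ / 8 * c} = c := by
      have := card_filter_add_card_filter_not (s := A2) (fun x => bd x ≤ δ / 8 * c)
      conv_rhs => rw [hc]
      exact_mod_cast this
    have hm : (#{x ∈ A2 | ¬ bd x ≤ δ / 8 * c} : ℝ) * (δ / 8 * c) ≤ bad y0 := by
      calc (#{x ∈ A2 | ¬ bd x ≤ δ / 8 * c} : ℝ) * (δ / 8 * c)
          = ∑ x ∈ A2 with ¬ bd x ≤ δ / 8 * c, δ / 8 * c := by rw [sum_const, nsmul_eq_mul]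
        _ ≤ ∑ x ∈ A2 with ¬ bd x ≤ δ / 8 * c, bd x := by
            refine sum_le_sum fun x hx => ?_
            exact (not_le.1 (mem_filter.1 hx).2).le
        _ ≤ ∑ x ∈ A2, bd x := by
            refine sum_le_sum_of_subset_of_nonneg (filter_subset _ _) fun x _ _ => ?_
            rw [hbd]; positivity
        _ = bad y0 := by rw [hbad, hbd, hA2]
    have hm2 : (#{x ∈ A2 | ¬ bd x ≤ δ / 8 * c} : ℝ) ≤ c / 2 := by
      have hp : 0 < δ / 8 * c := by positivity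
      apply le_of_mul_le_mul_right _ hp
      nlinarith
    linarith
  · obtain ⟨f, hf⟩ : ∃ f : β → ℝ, f = fun y => (#{x ∈ A2 | (x, y) ∈ Γ} : ℝ) := ⟨_, rfl⟩
    have e1 : ∑ x ∈ A2, dg x = ∑ y ∈ B, f y := by
      rw [hdg, hf]; exact bsgG_dc A2 B (fun x y => (x, y) ∈ Γ)
    have e2 : c * (δ * b / 2) ≤ ∑ x ∈ A2, dg x := by
      calc c * (δ * b / 2) = ∑ x ∈ A2, δ * b / 2 := by rw [sum_const, nsmul_eq_mul, hc]
        _ ≤ _ := sum_le_sum fun x hx => by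
            have := hA2A1 hx
            rw [hA1] at this
            exact (mem_filter.1 this).2
    have e3 := bsgG_thr B f (δ * c / 4) (by positivity)
    have e4 : ∑ y ∈ B with δ * c / 4 ≤ f y, f y ≤ #{y ∈ B | δ * c / 4 ≤ f y} * c := by
      rw [← nsmul_eq_mul, ← sum_const]
      refine sum_le_sum fun y _ => ?_
      rw [hf, hc]
      beta_reduce
      exact_mod_cast card_le_card (filter_subset _ _)
    rw [← hb] at e3
    have e5 : δ * b / 4 * c ≤ #{y ∈ B | δ * c / 4 ≤ f y} * c := by nlinarith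
    have e6 := le_of_mul_le_mul_right e5 hcpos
    rw [hf] at e6
    exact e6
  · intro x hx y hy
    have hx2 := (mem_filter.1 hx).2
    have hy2 := (mem_filter.1 hy).2
    obtain ⟨G, hG⟩ : ∃ G : Finset α, G = {x' ∈ A2 | (x', y) ∈ Γ ∧ ¬ co x x' < η * b} := ⟨_, rfl⟩
    have hGc : δ * c / 8 ≤ #G := by
      have : {x' ∈ A2 | (x', y) ∈ Γ} ⊆ G ∪ {x' ∈ A2 | co x x' < η * b} := by
        intro x' hx'
        simp only [hG, mem_union, mem_filter] at hx' ⊢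
        tauto
      have h8 : (#{x' ∈ A2 | (x', y) ∈ Γ} : ℝ) ≤ #G + bd x := by
        rw [hbd]
        beta_reduce
        exact_mod_cast (card_le_card this).trans (card_union_le _ _)
      linarith
    rw [bsgG_prod]
    calc δ ^ 5 * a * b / 3072 = δ * (δ * a / 3) / 8 * (η * b) := by rw [hη]; ring
      _ ≤ δ * c / 8 * (η * b) := by gcongr
      _ ≤ #G * (η * b) := by gcongr
      _ = ∑ x' ∈ G, η * b := by rw [sum_const, nsmul_eq_mul]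
      _ ≤ ∑ x' ∈ G, (#{y' ∈ B | (x, y') ∈ Γ ∧ (x', y') ∈ Γ ∧ (x', y) ∈ Γ} : ℝ) := by
          refine sum_le_sum fun x' hx' => ?_
          rw [hG] at hx'
          obtain ⟨_, h9, h10⟩ := mem_filter.1 hx'
          refine (not_lt.1 h10).trans (le_of_eq ?_)
          rw [hco]
          simp only [h9, and_true]
      _ ≤ _ := by
          refine sum_le_sum_of_subset_of_nonneg ?_ fun x _ _ => Nat.cast_nonneg _
          rw [hG]
          exact (filter_subset _ _).trans hA2A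

end Crest.Agent.R34
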