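import Crest.Agent.R34.Defs

/-!
# Row 34: conversion to the form of the statements; small subfields

* `conv`: `N = card (ι × κ)`, `e = Fintype.equivFin (ι × κ)`, `part v = eι (e.symm v).1` with `eι : ι ≃ Fin (q+1)`; the edge of `f` is
  `univ.image fun i => e (i, f i)`; a cover `S` gives `X = S.image e.symm`.
* `hsub_of_not_isSquare`: `card F = (card L)^r`, `r = finrank L F` (`Module.card_eq_pow_finrank`); `r ≠ 0`, `r ≠ 1` (`L ≠ ⊤`), `r ≠ 2`.
-/

set_option autoImplicit false
open Classical Finset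

namespace Crest.Agent.R34

theorem conv {ι κ : Type} [Fintype ι] [Fintype κ] (q : ℕ) (hι : Fintype.card ι = q + 1)
    (hκ : Fintype.card κ = q + 1) (𝓔 : Finset (ι → κ)) (hne : 𝓔.Nonempty)
    (hint : ∀ e ∈ 𝓔, ∀ f ∈ 𝓔, ∃ i, e i = f i) (hall : ∀ i c, ∃ e ∈ 𝓔, e i = c)
    (hcov : ∀ X : Finset (ι × κ), (∀ e ∈ 𝓔, ∃ i, (i, e i) ∈ X) → q + 1 ≤ #X) :
    ∃ (N : ℕ) (part : Fin N → Fin (q + 1)) (E : Finset (Finset (Fin N))),
      E.Nonempty ∧
      (∀ e ∈ E, ∀ i : Fin (q + 1), (e.filter (fun v => part v = i)).card = 1) ∧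
      (∀ e ∈ E, ∀ f ∈ E, (e ∩ f).Nonempty) ∧
      (∀ i : Fin (q + 1), (Finset.univ.filter (fun v => part v = i)).card = q + 1) ∧
      (∀ v : Fin N, ∃ e ∈ E, v ∈ e) ∧
      (∀ S : Finset (Fin N), (∀ e ∈ E, (e ∩ S).Nonempty) → q + 1 ≤ S.card) := by
  let e := Fintype.equivFin (ι × κ)
  let eι : ι ≃ Fin (q + 1) := Fintype.equivFinOfCardEq hι
  let ed : (ι → κ) → Finset (Fin (Fintype.card (ι × κ))) := fun f =>
    univ.image fun i => e (i, f i)
  have hed : ∀ f v, v ∈ ed f ↔ f (e.symm v).1 = (e.symm v).2 := by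
    intro f v
    simp only [ed, mem_image, mem_univ, true_and]
    constructor
    · rintro ⟨i, rfl⟩
      simp
    · intro H
      exact ⟨(e.symm v).1, by rw [H]; simp⟩
  refine ⟨Fintype.card (ι × κ), fun v => eι (e.symm v).1, 𝓔.image ed, hne.image _, ?_, ?_, ?_,
    ?_, ?_⟩
  · intro x hx i
    obtain ⟨f, -, rfl⟩ := mem_image.1 hx
    rw [card_eq_one]
    refine ⟨e (eι.symm i, f (eι.symm i)), ?_⟩
    ext v
    simp only [mem_filter, hed, mem_singleton]
    constructor
    · rintro ⟨h1, rfl⟩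
      simp [h1]
    · rintro rfl
      simp
  · intro x hx y hy
    obtain ⟨f, hf, rfl⟩ := mem_image.1 hx
    obtain ⟨g, hg, rfl⟩ := mem_image.1 hy
    obtain ⟨i, hi⟩ := hint f hf g hg
    exact ⟨e (i, f i), by simp [hed, hi]⟩
  · intro i
    have : (univ.filter fun v => eι (e.symm v).1 = i) =
        univ.map ⟨fun c : κ => e (eι.symm i, c), fun c c' H => by simpa using H⟩ := by
      ext v
      simp only [mem_filter, mem_univ, true_and, mem_map, Function.Embedding.coeFn_mk]
      constructor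
      · rintro rfl
        exact ⟨(e.symm v).2, by simp⟩
      · rintro ⟨c, rfl⟩
        simp
    rw [this, card_map, card_univ, hκ]
  · intro v
    obtain ⟨f, hf, hfv⟩ := hall (e.symm v).1 (e.symm v).2
    exact ⟨ed f, mem_image_of_mem _ hf, (hed f v).2 hfv⟩
  · intro S hS
    have := hcov (S.map e.symm.toEmbedding) fun f hf => by
      obtain ⟨v, hv⟩ := hS _ (mem_image_of_mem ed hf)
      rw [mem_inter, hed] at hv
      refine ⟨(e.symm v).1, mem_map.2 ⟨v, hv.2, ?_⟩⟩
      rw [hv.1]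
      rfl
    rwa [card_map] at this

theorem hsub_of_not_isSquare (F : Type) [Field F] [Fintype F] (hF : ¬ IsSquare (Fintype.card F)) :
    HSub F := by
  intro L hL
  have h1 : Fintype.card F = Fintype.card L ^ Module.finrank L F := Module.card_eq_pow_finrank
  have h0 : 0 < Module.finrank L F := Module.finrank_pos
  have h2 : Module.finrank L F ≠ 1 := by
    intro H
    rw [H, pow_one] at h1
    apply hL
    have hb := (Fintype.bijective_iff_injective_and_card (Subtype.val : L → F)).2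
      ⟨Subtype.val_injective, h1.symm⟩
    rw [eq_top_iff]
    intro x _
    obtain ⟨y, rfl⟩ := hb.2 x
    exact y.2
  have h3 : Module.finrank L F ≠ 2 := by
    intro H
    exact hF ⟨Fintype.card L, by rw [h1, H, sq]⟩
  rw [Nat.card_eq_fintype_card, h1]
  exact Nat.pow_le_pow_right Fintype.card_pos (by omega)

theorem not_isSquare_prime_pow {s n : ℕ} (hs : s.Prime) (hn : Odd n) : ¬ IsSquare (s ^ n) := by
  rintro ⟨r, hr⟩
  have hr0 : r ≠ 0 := by
    rintro rfl
    exact pow_ne_zero n hs.ne_zero hr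
  have h1 := congrArg (fun m => m.factorization s) hr
  simp only [Nat.factorization_mul hr0 hr0, hs.factorization_pow, Finsupp.single_eq_same,
    Finsupp.add_apply] at h1
  exact (Nat.not_even_iff_odd.2 hn) ⟨_, h1⟩

end Crest.Agent.R34
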