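import Crest.Agent.R34.Geo

/-! # Row 34: the encoding and the colour vertices -/

set_option autoImplicit false
open Classical Finset

namespace Crest.Agent.R34

variable {F : Type} [Field F] {h : Lab → F} {G : Finset F} {ω : F → F × Typ} {w : F → F}

omit [Field F] in
theorem cov_enc_eq {i : Option F} {y y' : F} (H : enc h ω i y = enc h ω i y') (hne : y ≠ y') :
    ∃ t, i = some t ∧ act (ω t).2 ∧ ((y = h (ω t).2.1 ∧ y' = h (ω t).2.2.1) ∨
      (y = h (ω t).2.2.1 ∧ y' = h (ω t).2.1)) := by
  rcases i with _ | t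
  · exact absurd (by simpa using H) hne
  · rw [enc_some, enc_some] at H
    split_ifs at H with h1 h2 h2
    · exact absurd (h1.2.trans h2.2.symm) hne
    · exact ⟨t, rfl, h1.1, Or.inr ⟨h1.2, (Option.some.inj H).symm⟩⟩
    · exact ⟨t, rfl, h2.1, Or.inl ⟨Option.some.inj H, h2.2⟩⟩
    · exact absurd (Option.some.inj H) hne

omit [Field F] in
theorem cov_enc_first (t : F) : enc h ω (some t) (h (ω t).2.1) = some (h (ω t).2.1) := by
  rw [enc_some]
  split_ifs <;> rfl

theorem cov_gE_self (i : Option F) (k : Lab) : gE h ω w i k i = col h ω i k.1 := by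
  simp [gE]

theorem cov_gE_ne {i j : Option F} (hij : j ≠ i) (k : Lab) :
    gE h ω w i k j = enc h ω j (ph j (gL h ω w i k)) := by
  simp [gE, hij, e0]

theorem cov_col0 (i : Option F) : col h ω i 0 = some (cen ω i) := by simp [col]
theorem cov_col1 (i : Option F) : col h ω i 1 = none := by simp [col]
theorem cov_col2 (t : F) : col h ω (some t) 2 = if act (ω t).2 then some (h (ω t).2.2.1) else none := by
  simp [col]
theorem cov_col2' : col h ω none 2 = none := by simp [col]

theorem cov_col_rem {i : Option F} {c : Fin 3} {y : F} (H : col h ω i c = some y) : rem h ω (i, y) := by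
  fin_cases c
  · have : cen ω i = y := Option.some.inj ((cov_col0 i).symm.trans H)
    rw [← this]
    exact rem_cen h ω i
  · exact absurd ((cov_col1 i).symm.trans H) (by simp)
  · rcases i with _ | t
    · exact absurd (cov_col2'.symm.trans H) (by simp)
    · have H' := (cov_col2 t).symm.trans H
      split_ifs at H' with h1
      exact Or.inr ⟨h1, Or.inr (Option.some.inj H').symm⟩

variable [Fintype F]

theorem cov_enc_card (i c : Option F) : #{y : F | enc h ω i y = c} ≤ 2 := by
  rcases (({y : F | enc h ω i y = c} : Finset F)).eq_empty_or_nonempty with e | ⟨y₀, hy₀⟩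
  · simp [e]
  by_cases H : ∀ y, enc h ω i y = c → y = y₀
  · refine le_trans (card_le_one.2 fun a ha b hb => ?_) one_le_two
    rw [H a (by simpa using ha), H b (by simpa using hb)]
  push Not at H
  obtain ⟨y₁, hy₁, hne⟩ := H
  have hy₀' : enc h ω i y₀ = c := by simpa using hy₀
  obtain ⟨t, rfl, -, ht⟩ := cov_enc_eq (hy₁.trans hy₀'.symm) hne
  refine le_trans (card_le_card (t := {h (ω t).2.1, h (ω t).2.2.1}) fun y hy => ?_) card_le_two
  have hy' : enc h ω (some t) y = c := by simpa using hy
  by_cases e : y = y₀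
  · rcases ht with ht | ht <;> simp [e, ht.2]
  · obtain ⟨t', ht', -, ht''⟩ := cov_enc_eq (hy'.trans hy₀'.symm) e
    obtain rfl := Option.some.inj ht'
    rcases ht'' with ht'' | ht'' <;> simp [ht''.1]

theorem cov_enc_ne_col (hG : GOK h G) (hm : ∀ t, (ω t).1 ∈ G) {i : Option F} {y : F} (hy : y ≠ cen ω i)
    (c : Fin 3) : enc h ω i y ≠ col h ω i c := by
  intro H
  rcases i with _ | t
  · fin_cases c
    · exact hy (Option.some.inj (H.trans (cov_col0 none)))
    · exact absurd (H.trans (cov_col1 none)) (by simp)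
    · exact absurd (H.trans cov_col2') (by simp)
  · rw [enc_some] at H
    fin_cases c
    · have H' := H.trans (cov_col0 (some t))
      split_ifs at H'
      · exact hG.ne _ (hm t) _ (Option.some.inj H')
      · exact hy (Option.some.inj H')
    · have H' := H.trans (cov_col1 (some t))
      split_ifs at H'
    · have H' := H.trans (cov_col2 t)
      split_ifs at H' with h1 h2 h2
      · have := hG.inj (Option.some.inj H')
        have h3 := h2.2
        rw [this] at h3
        exact lt_irrefl _ h3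
      · exact h1 ⟨h2, Option.some.inj H'⟩

omit [Fintype F] in
theorem cov_col_card (i c : Option F) : #{k : Lab | col h ω i k.1 = c} ≤ 8 := by
  rcases c with _ | y
  · refine le_trans (card_le_card (t := ({k | k.1 ≠ 0} : Finset Lab)) fun k hk => ?_) (by decide)
    simp only [mem_filter, mem_univ, true_and] at hk ⊢
    intro e
    rw [e, cov_col0] at hk
    simp at hk
  · refine le_trans (card_le_card (t := ({k | k.1 ≠ 1} : Finset Lab)) fun k hk => ?_) (by decide)
    simp only [mem_filter, mem_univ, true_and] at hk ⊢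
    intro e
    rw [e, cov_col1] at hk
    simp at hk

theorem cov_col_card_act (hG : GOK h G) (hm : ∀ t, (ω t).1 ∈ G) {t : F} (ht : act (ω t).2) (c : Option F) :
    #{k : Lab | col h ω (some t) k.1 = c} ≤ 4 := by
  have hinj : Function.Injective (col h ω (some t)) := by
    have h1 := hG.ne _ (hm t) (ω t).2.2.1
    intro a b H
    fin_cases a <;> fin_cases b <;>
      simp_all [cov_col0, cov_col1, cov_col2, eq_comm]
  rcases (({k : Lab | col h ω (some t) k.1 = c} : Finset Lab)).eq_empty_or_nonempty with e | ⟨k₀, hk₀⟩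
  · simp [e]
  have h4 : ∀ a : Fin 3, #{k : Lab | k.1 = a} ≤ 4 := by decide
  refine le_trans (card_le_card fun k hk => ?_) (h4 k₀.1)
  simp only [mem_filter, mem_univ, true_and] at hk hk₀ ⊢
  exact hinj (hk.trans hk₀.symm)

theorem cov_other_card (hG : GOK h G) (hw : ∀ t, good h ω t (ω t).1 (w t)) {i j : Option F} (hij : j ≠ i)
    (c : Option F) : #{k : Lab | gE h ω w i k j = c} ≤ 2 := by
  refine le_trans (card_le_card_of_injOn (fun k => ph j (gL h ω w i k)) (fun k hk => ?_)
    fun k _ l _ e => gL_ph_inj hG hw hij e) (cov_enc_card (h := h) (ω := ω) j c)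
  simpa [cov_gE_ne hij] using hk

/-- lines of `DD` through a non-central point give edges -/
theorem cov_DD_edge (w : F → F) {p : V F} (hp : p.2 ≠ cen ω p.1) {μ : F × F} (hμ : μ ∈ DD h ω p) :
    e0 h ω μ ∈ EE h ω w ∧ ph p.1 μ = p.2 ∧ ∀ j, j ≠ p.1 → e0 h ω μ j = some (ph j μ) := by
  have hp' : p ≠ (none, 0) := by
    rintro rfl
    exact hp rfl
  obtain ⟨h1, h2⟩ := (mem_DD hp').1 hμ
  refine ⟨e0_mem_EE w fun j => ?_, h1, fun j hj => enc_true (h2 j hj)⟩
  by_cases hj : j = p.1
  · rw [hj, h1]
    exact hp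
  · intro e
    exact h2 j hj (e ▸ rem_cen h ω j)

/-- if the vertex of a non-central point `p` is missing from a cover, the lines of `DD p` are covered by different vertices -/
theorem cov_DD_le {p : V F} (hp : p.2 ≠ cen ω p.1) {X : Finset (Option F × Option F)}
    (hcov : ∀ e ∈ EE h ω w, ∃ j, (j, e j) ∈ X) (hX : (p.1, enc h ω p.1 p.2) ∉ X) (D : Finset (F × F))
    (hD : D ⊆ DD h ω p) (Y : Finset (Option F × Option F))
    (hY : ∀ μ ∈ D, ∀ j, j ≠ p.1 → (j, some (ph j μ)) ∈ X → (j, some (ph j μ)) ∈ Y) : #D ≤ #Y := by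
  have H : ∀ μ ∈ D, ∃ j, j ≠ p.1 ∧ (j, some (ph j μ)) ∈ Y := by
    intro μ hμ
    obtain ⟨h1, h2, h3⟩ := cov_DD_edge w hp (hD hμ)
    obtain ⟨j, hj⟩ := hcov _ h1
    have hjp : j ≠ p.1 := by
      rintro rfl
      apply hX
      rwa [e0, h2] at hj
    rw [h3 j hjp] at hj
    exact ⟨j, hjp, hY μ hμ j hjp hj⟩
  choose! g hg using H
  refine card_le_card_of_injOn (fun μ => (g μ, some (ph (g μ) μ))) (fun μ hμ => (hg μ hμ).2) fun μ hμ ν hν e => ?_
  simp only [Prod.mk.injEq, Option.some.injEq] at e
  refine line_ext (hg μ hμ).1 (e.2.trans (by rw [e.1])) ?_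
  rw [(cov_DD_edge w hp (hD hμ)).2.1, (cov_DD_edge w hp (hD hν)).2.1]

end Crest.Agent.R34
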