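import Crest.Agent.R34.Geo
import Crest.Agent.R34.CovAAux

/-!
# Row 34: no small cover contains all true points of a part

Let `X' = X` minus the vertices `(i, some y)`, `(i,y)` true; a part has `q - 1` true points (`i = none` or inactive column) or `q - 3`
(active column: centre, first and second height are distinct).  The 12 edges `gE h ω w i k` take colour values in the part `i`
(never `some y` with `(i,y)` true, never `some (first height)`), so they are covered by `X'`.  A vertex `(j,c)` covers at most 8 of them
if `j = i` (at most 4 if `i` is an active column) and at most 2 if `j ≠ i` (`gL_ph_inj`, `enc` is at most 2-to-1).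
Inactive: `#X' ≤ 1`, `8 < 12`.  Active `i = some t`: `#X' ≤ 3`; the vertex `(i, some (first height))` is in `X'`, otherwise the `≥ 4` lines
of `DD h ω (i, first height)` (edges `e0`, `e0_mem_EE`, `enc_true`) are covered in other parts by different vertices of `X'`;
the other two vertices cover `≤ 8 < 12` gadget edges.
-/

set_option autoImplicit false
open Classical Finset

namespace Crest.Agent.R34

variable {F : Type} [Field F] [Fintype F] {h : Lab → F} {G : Finset F} {ω : F → F × Typ} {w : F → F}

theorem cover_part (hG : GOK h G) (hm : ∀ t, (ω t).1 ∈ G) (hw : ∀ t, good h ω t (ω t).1 (w t))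
    (hD : ∀ p : V F, p ≠ (none, 0) → 4 ≤ #(DD h ω p)) (X : Finset (Option F × Option F))
    (hX : #X ≤ Fintype.card F) (hcov : ∀ e ∈ EE h ω w, ∃ j, (j, e j) ∈ X) (i : Option F)
    (hi : ∀ y, ¬ rem h ω (i, y) → (i, some y) ∈ X) : False := by
  set R : Finset F := {y | rem h ω (i, y)} with hR
  set X0 : Finset (Option F × Option F) := (univ \ R).image fun y => (i, some y) with hX0
  have hX0X : X0 ⊆ X := by
    intro x hx
    obtain ⟨y, hy, rfl⟩ := mem_image.1 hx
    exact hi y (by simpa [hR] using hy)
  have hc0 : #X0 + #R = Fintype.card F := by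
    rw [hX0, card_image_of_injective _ fun a b e => by simpa using e, card_sdiff_add_card_eq_card (subset_univ _),
      card_univ]
  have hX' : #(X \ X0) ≤ #R := by
    have := card_sdiff_add_card_eq_card hX0X
    omega
  have hne : ∀ j c, j ≠ i → (j, c) ∉ X0 := by
    intro j c hj hx
    obtain ⟨y, -, e⟩ := mem_image.1 hx
    exact hj (congrArg Prod.fst e).symm
  have hrem : ∀ y, rem h ω (i, y) → (i, some y) ∉ X0 := by
    intro y hy hx
    obtain ⟨y', hy', e⟩ := mem_image.1 hx
    obtain rfl : y' = y := by simpa using e
    simp [hR, hy] at hy'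
  have hg : (univ : Finset Lab) ⊆ (X \ X0).biUnion fun x => {k | gE h ω w i k x.1 = x.2} := by
    intro k _
    obtain ⟨j, hj⟩ := hcov _ (gE_mem_EE h ω w i k)
    refine mem_biUnion.2 ⟨(j, gE h ω w i k j), mem_sdiff.2 ⟨hj, ?_⟩, by simp⟩
    by_cases hji : j = i
    · subst hji
      intro hx
      obtain ⟨y, -, e⟩ := mem_image.1 hx
      have e' : col h ω j k.1 = some y := by
        rw [← cov_gE_self (w := w)]
        exact (congrArg Prod.snd e).symm
      rw [← e] at hx
      exact hrem y (cov_col_rem e') hx
    · exact hne _ _ hji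
  have h12 : 12 ≤ ∑ x ∈ X \ X0, #{k | gE h ω w i k x.1 = x.2} :=
    le_trans (le_of_eq (by simp)) ((card_le_card hg).trans card_biUnion_le)
  by_cases hact : ∃ t, i = some t ∧ act (ω t).2
  · obtain ⟨t, rfl, ht⟩ := hact
    have hR3 : #R ≤ 3 := by
      refine le_trans (card_le_card (t := {(ω t).1, h (ω t).2.1, h (ω t).2.2.1}) fun y hy => ?_) card_le_three
      have : remc h (ω t) y := by simpa [hR] using hy
      rcases this with e | ⟨-, e | e⟩ <;> simp [e]
    have hv : (some t, some (h (ω t).2.1)) ∈ X := by
      by_contra hv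
      have h1 := cov_DD_le (h := h) (w := w) (p := (some t, h (ω t).2.1)) (hG.ne _ (hm t) _) hcov
        (by rwa [cov_enc_first]) _ subset_rfl (X \ X0) fun μ _ j hj hjX => mem_sdiff.2 ⟨hjX, hne _ _ hj⟩
      have h2 := hD (some t, h (ω t).2.1) (by simp)
      omega
    have hv' : (some t, some (h (ω t).2.1)) ∈ X \ X0 :=
      mem_sdiff.2 ⟨hv, hrem _ (Or.inr ⟨ht, Or.inl rfl⟩)⟩
    rw [← add_sum_erase _ _ hv'] at h12
    have h1 : #{k | gE h ω w (some t) k (some t) = some (h (ω t).2.1)} = 0 := by
      rw [card_eq_zero, filter_eq_empty_iff]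
      intro k _
      rw [cov_gE_self, ← cov_enc_first]
      exact (cov_enc_ne_col hG hm (hG.ne _ (hm t) _) _).symm
    have h2 : ∑ x ∈ (X \ X0).erase (some t, some (h (ω t).2.1)), #{k | gE h ω w (some t) k x.1 = x.2} ≤
        #((X \ X0).erase (some t, some (h (ω t).2.1))) • 4 := by
      refine sum_le_card_nsmul _ _ _ fun x _ => ?_
      by_cases hx : x.1 = some t
      · simp only [hx, cov_gE_self]
        exact cov_col_card_act hG hm ht _
      · exact (cov_other_card hG hw hx _).trans (by norm_num)
    rw [card_erase_of_mem hv', smul_eq_mul] at h2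
    simp only at h12
    omega
  · have hR1 : #R ≤ 1 := by
      refine le_trans (card_le_card (t := {cen ω i}) fun y hy => ?_) (by simp)
      have h1 : rem h ω (i, y) := by simpa [hR] using hy
      rcases i with _ | t
      · simpa using h1
      · rcases h1 with e | ⟨e, -⟩
        · simpa using e
        · exact absurd ⟨t, rfl, e⟩ hact
    have h2 : ∑ x ∈ X \ X0, #{k | gE h ω w i k x.1 = x.2} ≤ #(X \ X0) • 8 := by
      refine sum_le_card_nsmul _ _ _ fun x _ => ?_
      by_cases hx : x.1 = i
      · simp only [hx, cov_gE_self]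
        exact cov_col_card _ _
      · exact (cov_other_card hG hw hx _).trans (by norm_num)
    rw [smul_eq_mul] at h2
    omega

end Crest.Agent.R34
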