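import Crest.Agent.R34.Geo
import Crest.Agent.R34.CovAAux

/-!
# Row 34: lemmas on gadget edges for the line case

* `link_lemma`: `ℓ = gL i k ≠ O` and `O` pass through the centre of `i`, so they differ in `j`; equal encodings force `j = some u` active
  of type `(k1,k2,_)` and `{ph j ℓ, ph j O} = {h k1, h k2}`.  For `i = none`: `O = (0, h l)` with `l` the other label.  For `i = some t`:
  `ℓ` has height `h m` at `u`, so `u = xc k m` (`gl_link`, `ph_some_inj`), `k.1 ≠ m.1` since `u` is active, the type of `u` is `(k,m,0)` or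
  `(m,k,0)`, so `ph j O = h k` and `O = gl m` (`line_ext`).
* `vertex_cover_le`: if some covering pair has `i = j` then `c` is a colour value (`some centre`, `none`, or `some second` of an active column),
  which no `enc h ω j y` with `y ≠ centre` takes (`gL_avoid`), so all pairs have `i = j`: at most 8 labels.  Otherwise `enc h ω j y = c` has
  `≤ 2` solutions `y`, and for each one there is `≤ 1` label per part `i` (`gL_ph_inj`), `≤ 4` finite parts (`St2.four`) and the part `none`.
-/

set_option autoImplicit false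
open Classical Finset

namespace Crest.Agent.R34

variable {F : Type} [Field F] [Fintype F] {h : Lab → F} {G : Finset F} {ω : F → F × Typ} {w : F → F}

theorem link_lemma (hG : GOK h G) (hm : ∀ t, (ω t).1 ∈ G) (hw : ∀ t, good h ω t (ω t).1 (w t))
    {O : F × F} {i j : Option F} (hO : ph i O = cen ω i) (hij : j ≠ i) {k : Lab}
    (hk : gL h ω w i k ≠ O) (H : e0 h ω (gL h ω w i k) j = e0 h ω O j) :
    ∃ l : Lab, l.1 ≠ k.1 ∧ O = gL h ω w i l := by
  have hne : ph j (gL h ω w i k) ≠ ph j O := fun e => hk (line_ext hij e (by rw [gL_center, hO]))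
  obtain ⟨u, rfl, hu, hh⟩ := cov_enc_eq H hne
  have hcl : (ω u).2.1.1 < (ω u).2.2.1.1 := hu.2
  rcases i with _ | t
  · have hO1 : O.1 = 0 := hO
    simp only [gL_none, ph_some, zero_mul, zero_add, hO1] at hh ⊢
    rcases hh with ⟨h1, h2⟩ | ⟨h1, h2⟩
    · refine ⟨(ω u).2.2.1, ?_, Prod.ext hO1 h2⟩
      rw [hG.inj h1]
      exact hcl.ne'
    · refine ⟨(ω u).2.1, ?_, Prod.ext hO1 h2⟩
      rw [hG.inj h1]
      exact hcl.ne
  · obtain ⟨hw0, hg1, hg2, -⟩ := hw t
    have hη := hG.ne _ (hm t)
    have key : ∀ m : Lab, ph (some u) (gl h t (ω t).1 (w t) k) = h m → u = xc h t (ω t).1 (w t) k m :=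
      fun m hm' => ph_some_inj (gl_slope (hη k) hw0) (hm'.trans (gl_link m (hη k) hw0).symm)
    have fin : ∀ m : Lab, u = xc h t (ω t).1 (w t) k m → ph (some u) O = h k →
        ∃ l : Lab, l.1 ≠ k.1 ∧ O = gL h ω w (some t) l := by
      intro m hm' hO'
      refine ⟨m, fun e => hg2 k m e.symm (hm' ▸ hu), line_ext hij ?_ (by rw [gL_center, hO])⟩
      rw [hO', gL_some, hm', xc_comm, gl_link k (hη m) hw0]
    have typ : ∀ m : Lab, u = xc h t (ω t).1 (w t) k m → (ω u).2 = (k, m, 0) ∨ (ω u).2 = (m, k, 0) := by
      intro m hm'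
      rcases lt_trichotomy k.1 m.1 with e | e | e
      · exact Or.inl (hm' ▸ hg1 k m e)
      · exact absurd (hm' ▸ hu) (hg2 k m e)
      · right
        rw [hm', xc_comm]
        exact hg1 m k e
    rw [gL_some] at hh
    rcases hh with ⟨h1, h2⟩ | ⟨h1, h2⟩
    · have hu' := key _ h1
      refine fin _ hu' ?_
      rcases typ _ hu' with e | e
      · have e1 : (ω u).2.2.1 = (ω u).2.1 := congrArg (fun x => x.2.1) e
        rw [e1] at hcl
        exact absurd hcl (lt_irrefl _)
      · rw [h2]
        exact congrArg (fun x => h x.2.1) e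
    · have hu' := key _ h1
      refine fin _ hu' ?_
      rcases typ _ hu' with e | e
      · rw [h2]
        exact congrArg (fun x => h x.1) e
      · have e1 : (ω u).2.1 = (ω u).2.2.1 := congrArg (fun x => x.1) e
        rw [e1] at hcl
        exact absurd hcl (lt_irrefl _)

theorem vertex_cover_le (hG : GOK h G) (hm : ∀ t, (ω t).1 ∈ G) (h2 : St2 h ω w) (O : F × F)
    (j c : Option F) :
    #{x : Option F × Lab | ph x.1 O = cen ω x.1 ∧ gE h ω w x.1 x.2 j = c} ≤ 10 := by
  set A : Finset (Option F × Lab) := {x | ph x.1 O = cen ω x.1 ∧ gE h ω w x.1 x.2 j = c} with hA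
  have hmem : ∀ x ∈ A, ph x.1 O = cen ω x.1 ∧ gE h ω w x.1 x.2 j = c := fun x hx => by simpa [hA] using hx
  by_cases H : ∃ x ∈ A, x.1 = j
  · obtain ⟨x₀, hx₀, e₀⟩ := H
    have hc : col h ω j x₀.2.1 = c := by
      have := (hmem x₀ hx₀).2
      rwa [e₀, cov_gE_self] at this
    have hall : ∀ x ∈ A, x.1 = j := by
      intro x hx
      by_contra hne
      have h1 := (hmem x hx).2
      rw [cov_gE_ne (Ne.symm hne), ← hc] at h1
      exact cov_enc_ne_col hG hm (gL_avoid hG hm h2.good (Ne.symm hne) _) _ h1
    refine le_trans (card_le_card_of_injOn Prod.snd (fun x hx => ?_) fun x hx y hy e => ?_)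
      ((cov_col_card (h := h) (ω := ω) j c).trans (by norm_num))
    · have := (hmem x hx).2
      rw [hall x hx, cov_gE_self] at this
      simpa using this
    · exact Prod.ext ((hall x hx).trans (hall y hy).symm) e
  · push Not at H
    have h1 := card_le_mul_card_image_of_maps_to (s := A) (t := ({y : F | enc h ω j y = c} : Finset F))
      (f := fun x => ph j (gL h ω w x.1 x.2)) (fun x hx => by
        have := (hmem x hx).2
        rw [cov_gE_ne (H x hx).symm] at this
        simpa using this) 5 (fun y _ => by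
        have h3 := h2.four O (j, y)
        refine le_trans (card_le_card_of_injOn Prod.fst
          (t := insert none (({t | ph (some t) O = (ω t).1 ∧ some t ≠ j ∧
            ∃ k, ph j (gl h t (ω t).1 (w t) k) = y} : Finset F).image some)) (fun x hx => ?_)
          fun x hx x' hx' e => ?_) ?_
        · obtain ⟨hx1, hx2⟩ := mem_filter.1 hx
          obtain ⟨_ | t, k⟩ := x
          · simp
          · refine mem_coe.2 (mem_insert_of_mem (mem_image_of_mem _ ?_))
            simp only [mem_filter, mem_univ, true_and]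
            exact ⟨(hmem _ hx1).1, H _ hx1, k, hx2⟩
        · obtain ⟨hx1, hx2⟩ := mem_filter.1 hx
          obtain ⟨-, hx2'⟩ := mem_filter.1 hx'
          refine Prod.ext e (gL_ph_inj hG h2.good (H x hx1).symm ?_)
          rw [hx2, ← hx2', e]
        · exact (card_insert_le _ _).trans (Nat.succ_le_succ (card_image_le.trans h3)))
    have h3 := cov_enc_card (h := h) (ω := ω) j c
    omega

end Crest.Agent.R34
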