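import Crest.Agent.R34.CovB

/-!
# Row 34: no small cover contains all true points of a line

`T = {i | ph i O = cen ω i}` (`#T ≤ K + 1`), `U = {i ∉ T | rem (i, ph i O)}` (active columns, `#U ≤ a`),
`X0 = {(i, some (ph i O)) | (i, ph i O) true} ⊆ X`, `#X0 = q + 1 - #T - #U`.  For `u ∈ U` the vertex `(u, e0 O u)` is in `X`: otherwise the lines
`μ ≠ O` of `DD h ω (u, ph u O)` (edges `e0 μ`, with `e0 μ u = e0 O u`) are covered in other parts by different vertices of `X \\ X0`, of which
there are `≤ #T + #U - 1 ≤ K + a`.  So `X1 = {(i, e0 O i) | i ∉ T} ⊆ X`, `#(X \\ X1) ≤ #T - 1`, in particular `T ≠ ∅`.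
If `O = gL i l` with `i ∈ T` then `T = {i}` (`gL_avoid`), `X ⊆ X1`, and for `k ≠ l` of the same class `gE i k` is not covered (`link_lemma`,
`gL_inj`).  Otherwise no `gE i k` (`i ∈ T`) is covered by `X1` (`link_lemma`), and `12 #T ≤ 10 (#T - 1)` (`vertex_cover_le`).
-/

set_option autoImplicit false
open Classical Finset

namespace Crest.Agent.R34

variable {F : Type} [Field F] [Fintype F] {h : Lab → F} {G : Finset F} {ω : F → F × Typ} {w : F → F}

theorem cover_line (hG : GOK h G) (hm : ∀ t, (ω t).1 ∈ G) (h2 : St2 h ω w) {K a : ℕ}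
    (hfew : FewP K ω) (ha : #{t | act (ω t).2} ≤ a)
    (hD : ∀ p : V F, p ≠ (none, 0) → K + a + 2 ≤ #(DD h ω p)) (X : Finset (Option F × Option F))
    (hX : #X ≤ Fintype.card F) (hcov : ∀ e ∈ EE h ω w, ∃ j, (j, e j) ∈ X) (O : F × F)
    (hO : ∀ i, ¬ rem h ω (i, ph i O) → (i, some (ph i O)) ∈ X) : False := by
  have hcard : Fintype.card (Option F) = Fintype.card F + 1 := Fintype.card_option
  have hsub : ∀ (S : Finset (Option F)) (g : Option F → Option F),
      (∀ i, i ∉ S → (i, g i) ∈ X) → #(X \ (univ \ S).image fun i => (i, g i)) + 1 ≤ #S := by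
    intro S g hg
    have h1 : ((univ \ S).image fun i => (i, g i)) ⊆ X := by
      intro x hx
      obtain ⟨i, hi, rfl⟩ := mem_image.1 hx
      exact hg i (mem_sdiff.1 hi).2
    have h3 := card_sdiff_add_card_eq_card h1
    rw [card_image_of_injective _ fun a b e => congrArg Prod.fst e] at h3
    have h4 := card_sdiff_add_card_eq_card (subset_univ S)
    rw [card_univ] at h4
    omega
  set T : Finset (Option F) := {i | ph i O = cen ω i} with hT
  set R : Finset (Option F) := {i | rem h ω (i, ph i O)} with hR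
  have hRc : #R ≤ K + a + 1 := by
    have h1 : R ⊆ insert none ((({t | ph (some t) O = (ω t).1} : Finset F) ∪
        ({t | act (ω t).2} : Finset F)).image some) := by
      rintro (_ | t) hi
      · simp
      · have h3 : remc h (ω t) (ph (some t) O) := (mem_filter.1 hi).2
        refine mem_insert_of_mem (mem_image_of_mem _ ?_)
        rcases h3 with e | ⟨e, -⟩
        · exact mem_union_left _ (by simpa using e)
        · exact mem_union_right _ (by simpa using e)
    refine (card_le_card h1).trans ((card_insert_le _ _).trans (Nat.succ_le_succ ?_))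
    exact card_image_le.trans ((card_union_le _ _).trans (add_le_add (hfew O) ha))
  have hX0 := hsub R (fun i => some (ph i O)) fun i hi => hO i (by simpa [hR] using hi)
  have hX1mem : ∀ i, i ∉ T → (i, e0 h ω O i) ∈ X := by
    intro u hu
    have hu' : ph u O ≠ cen ω u := by simpa [hT] using hu
    by_contra hv
    have h1 := cov_DD_le (h := h) (w := w) (p := (u, ph u O)) hu' hcov hv ((DD h ω (u, ph u O)).erase O)
      (erase_subset _ _) (X \ (univ \ R).image fun i => (i, some (ph i O))) (by
        intro μ hμ j hj hjX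
        refine mem_sdiff.2 ⟨hjX, fun hx => ?_⟩
        obtain ⟨j', -, e⟩ := mem_image.1 hx
        simp only [Prod.mk.injEq, Option.some.injEq] at e
        obtain ⟨rfl, e⟩ := e
        exact (mem_erase.1 hμ).1 (line_ext hj e.symm (cov_DD_edge w hu' (mem_erase.1 hμ).2).2.1))
    have h3 := hD (u, ph u O) (by
      intro e
      simp only [Prod.mk.injEq] at e
      obtain ⟨rfl, e⟩ := e
      exact hu' e)
    have h4 := pred_card_le_card_erase (s := DD h ω (u, ph u O)) (a := O)
    omega
  have hX1 := hsub T (e0 h ω O) hX1mem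
  set X1 := (univ \ T).image fun i => (i, e0 h ω O i) with hX1d
  have hlink : ∀ i ∈ T, ∀ k j, gL h ω w i k ≠ O → (j, gE h ω w i k j) ∈ X1 →
      ∃ l : Lab, l.1 ≠ k.1 ∧ O = gL h ω w i l := by
    intro i hi k j hk hj
    obtain ⟨j', hj', e⟩ := mem_image.1 hj
    simp only [Prod.mk.injEq] at e
    obtain ⟨rfl, e⟩ := e
    have hji : j' ≠ i := fun e => (mem_sdiff.1 hj').2 (e ▸ hi)
    rw [cov_gE_ne hji] at e
    exact link_lemma hG hm h2.good (by simpa [hT] using hi) hji hk e.symm
  by_cases H : ∃ i ∈ T, ∃ l, O = gL h ω w i l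
  · obtain ⟨i, hi, l, hl⟩ := H
    have hT1 : #T ≤ 1 := by
      refine le_trans (card_le_card (t := {i}) fun j hj => ?_) (by simp)
      rw [mem_singleton]
      by_contra hji
      exact gL_avoid hG hm h2.good hji l (by rw [← hl]; simpa [hT] using hj)
    have hXX : X ⊆ X1 := by
      rw [← sdiff_eq_empty_iff_subset, ← card_eq_zero]
      omega
    obtain ⟨k2, hk2⟩ := exists_ne l.2
    obtain ⟨j, hj⟩ := hcov _ (gE_mem_EE h ω w i (l.1, k2))
    obtain ⟨l', hl1, hl2⟩ := hlink i hi (l.1, k2) j (by
      rw [hl]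
      exact fun e => hk2 (congrArg Prod.snd (gL_inj hG h2.good i e))) (hXX hj)
    obtain rfl : l' = l := gL_inj hG h2.good i (hl2.symm.trans hl)
    exact hl1 rfl
  · push Not at H
    have h1 : T ×ˢ (univ : Finset Lab) ⊆ (X \ X1).biUnion fun v =>
        {x : Option F × Lab | ph x.1 O = cen ω x.1 ∧ gE h ω w x.1 x.2 v.1 = v.2} := by
      rintro ⟨i, k⟩ hx
      have hi : i ∈ T := (mem_product.1 hx).1
      obtain ⟨j, hj⟩ := hcov _ (gE_mem_EE h ω w i k)
      refine mem_biUnion.2 ⟨(j, gE h ω w i k j), mem_sdiff.2 ⟨hj, fun hj' => ?_⟩, by simpa [hT] using hi⟩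
      obtain ⟨l, -, hl⟩ := hlink i hi k j (H i hi k).symm hj'
      exact H i hi l hl
    have h3 := (card_le_card h1).trans (card_biUnion_le.trans
      (sum_le_card_nsmul _ _ 10 fun v _ => vertex_cover_le hG hm h2 O v.1 v.2))
    rw [card_product, card_univ, smul_eq_mul, show Fintype.card Lab = 12 from rfl] at h3
    omega

end Crest.Agent.R34
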