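import Mathlib

/-!
# Row 34 (Ryser counterexample): definitions

`F` is a finite field with `q` elements.  *Lines* are pairs `μ = (a,b) : F × F` (the line `y = a t + b`),
*parts* are `i : Option F` (column `some t`, or `none` = the slope part), *points* are `p : V F = Option F × F`,
and `μ` passes through `p` iff `ph p.1 μ = p.2`.  Two different lines agree in exactly one part.

A *configuration* `ω : F → F × Typ` gives every column `t` a centre `(ω t).1` and a type `(ω t).2`; an *active* column
of type `(k,l,0)` has the two *pure* heights `h k`, `h l`.  The centre of the part `none` is slope `0`.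
Removed points (`rem`) = centres and pure points; the other points are called *true*.
-/

set_option autoImplicit false
open Classical Finset

namespace Crest.Agent.R34

/-- labels of the 12 heights; the first component is the class. -/
abbrev Lab := Fin 3 × Fin 4
/-- column types. -/
abbrev Typ := Lab × Lab × Fin 100000
/-- active types. -/
def act (τ : Typ) : Prop := τ.2.2 = 0 ∧ τ.1.1 < τ.2.1.1
/-- points. -/
abbrev V (F : Type) := Option F × F

/-- the scale parameter `K` is large, polynomially small in `q` and large compared with `log q`. -/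
def Par (N q K : ℕ) : Prop := N ≤ K ∧ K ^ N ≤ q ∧ q ^ N ≤ 2 ^ K

/-- proper subfields are small. -/
def HSub (F : Type) [Field F] [Fintype F] : Prop :=
  ∀ L : Subfield F, L ≠ ⊤ → (Nat.card L) ^ 3 ≤ Fintype.card F

section
variable {F : Type} [Field F]

/-- value of the line `μ` in the part `i`. -/
def ph (i : Option F) (μ : F × F) : F :=
  match i with
  | some t => μ.1 * t + μ.2
  | none => μ.1

@[simp] theorem ph_some (t : F) (μ : F × F) : ph (some t) μ = μ.1 * t + μ.2 := rfl
@[simp] theorem ph_none (μ : F × F) : ph (none : Option F) μ = μ.1 := rfl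

/-- the line through two points of different parts. -/
noncomputable def join (p p' : V F) : F × F :=
  if H : ∃ μ : F × F, ph p.1 μ = p.2 ∧ ph p'.1 μ = p'.2 then H.choose else 0

/-- the height `y` is removed in a column with data `c`. -/
def remc (h : Lab → F) (c : F × Typ) (y : F) : Prop :=
  y = c.1 ∨ (act c.2 ∧ (y = h c.2.1 ∨ y = h c.2.2.1))

/-- removed points. -/
def rem (h : Lab → F) (ω : F → F × Typ) (p : V F) : Prop :=
  match p.1 with
  | some t => remc h (ω t) p.2
  | none => p.2 = 0

@[simp] theorem rem_some (h : Lab → F) (ω : F → F × Typ) (t y : F) :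
    rem h ω (some t, y) ↔ remc h (ω t) y := Iff.rfl
@[simp] theorem rem_none (h : Lab → F) (ω : F → F × Typ) (y : F) :
    rem h ω (none, y) ↔ y = 0 := Iff.rfl

/-- the centre of a part. -/
def cen (ω : F → F × Typ) (i : Option F) : F :=
  match i with
  | some t => (ω t).1
  | none => 0

@[simp] theorem cen_some (ω : F → F × Typ) (t : F) : cen ω (some t) = (ω t).1 := rfl
@[simp] theorem cen_none (ω : F → F × Typ) : cen ω none = 0 := rfl

/-- link column of the gadget lines `k`, `l` through `(t, η)` with parameter `w`. -/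
def xc (h : Lab → F) (t η w : F) (k l : Lab) : F := t + (h k - η) * (h l - η) * w

/-- gadget line number `k` through `(t, η)` with parameter `w`. -/
def gl (h : Lab → F) (t η w : F) (k : Lab) : F × F :=
  (((h k - η) * w)⁻¹, η - ((h k - η) * w)⁻¹ * t)

/-- `w` is a good gadget parameter for the centre `(t, η)`. -/
def good (h : Lab → F) (ω : F → F × Typ) (t η w : F) : Prop :=
  w ≠ 0 ∧ (∀ k l : Lab, k.1 < l.1 → (ω (xc h t η w k l)).2 = (k, l, 0)) ∧
    (∀ k l : Lab, k.1 = l.1 → ¬ act (ω (xc h t η w k l)).2) ∧
    (∀ (k : Lab) (s : F), s ≠ t → ph (some s) (gl h t η w k) ≠ (ω s).1)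

/-- gadget lines of a part. -/
def gL (h : Lab → F) (ω : F → F × Typ) (w : F → F) (i : Option F) (k : Lab) : F × F :=
  match i with
  | some t => gl h t (ω t).1 (w t) k
  | none => (0, h k)

@[simp] theorem gL_some (h : Lab → F) (ω : F → F × Typ) (w : F → F) (t : F) (k : Lab) :
    gL h ω w (some t) k = gl h t (ω t).1 (w t) k := rfl
@[simp] theorem gL_none (h : Lab → F) (ω : F → F × Typ) (w : F → F) (k : Lab) :
    gL h ω w none k = (0, h k) := rfl

/-- vertex name of the point `(i,y)`: the second pure height is merged into the first. -/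
noncomputable def enc (h : Lab → F) (ω : F → F × Typ) (i : Option F) (y : F) : Option F :=
  match i with
  | some t => if act (ω t).2 ∧ y = h (ω t).2.2.1 then some (h (ω t).2.1) else some y
  | none => some y

omit [Field F] in
theorem enc_some (h : Lab → F) (ω : F → F × Typ) (t y : F) :
    enc h ω (some t) y =
      if act (ω t).2 ∧ y = h (ω t).2.2.1 then some (h (ω t).2.1) else some y := rfl
omit [Field F] in
@[simp] theorem enc_none (h : Lab → F) (ω : F → F × Typ) (y : F) :
    enc h ω none y = some y := rfl

/-- colour vertices of a part: `A = some centre`, `B = none`, `D = some (second pure height)`. -/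
noncomputable def col (h : Lab → F) (ω : F → F × Typ) (i : Option F) (c : Fin 3) : Option F :=
  if c = 0 then some (cen ω i) else if c = 1 then none else
    match i with
    | some t => if act (ω t).2 then some (h (ω t).2.2.1) else none
    | none => none

/-- the edge of a line. -/
noncomputable def e0 (h : Lab → F) (ω : F → F × Typ) (μ : F × F) : Option F → Option F :=
  fun i => enc h ω i (ph i μ)

/-- gadget edges. -/
noncomputable def gE (h : Lab → F) (ω : F → F × Typ) (w : F → F) (i : Option F) (k : Lab) :
    Option F → Option F :=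
  Function.update (e0 h ω (gL h ω w i k)) i (col h ω i k.1)

/-- configuration attached to a sample. -/
def cf {G : Finset F} (ω : F → G × Typ) : F → F × Typ := fun t => ((ω t).1.1, (ω t).2)

variable [Fintype F]

/-- points of a line. -/
noncomputable def ln (μ : F × F) : Finset (V F) := {p | ph p.1 μ = p.2}
/-- points of a part. -/
noncomputable def pt (i : Option F) : Finset (V F) := {p | p.1 = i}
/-- blocks: parts and lines. -/
noncomputable def blk (β : Option F ⊕ F × F) : Finset (V F) := Sum.elim pt ln β

@[simp] theorem mem_ln (μ : F × F) (p : V F) : p ∈ ln μ ↔ ph p.1 μ = p.2 := by simp [ln]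
omit [Field F] in
@[simp] theorem mem_pt (i : Option F) (p : V F) : p ∈ pt i ↔ p.1 = i := by simp [pt]
@[simp] theorem blk_inl (i : Option F) : blk (Sum.inl i : Option F ⊕ F × F) = pt i := rfl
@[simp] theorem blk_inr (μ : F × F) : blk (Sum.inr μ : Option F ⊕ F × F) = ln μ := rfl

/-- admissible heights and centres. -/
structure GOK (h : Lab → F) (G : Finset F) : Prop where
  inj : Function.Injective h
  ne : ∀ η ∈ G, ∀ k, h k ≠ η
  sep : ∀ η ∈ G, ∀ k l k' l' : Lab, (h k - η) * (h l - η) = (h k' - η) * (h l' - η) →
    (k = k' ∧ l = l') ∨ (k = l' ∧ l = k')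
  big : Fintype.card F ≤ G.card + 21000

/-- non-horizontal lines avoiding all removed points. -/
noncomputable def SS (h : Lab → F) (ω : F → F × Typ) : Finset (F × F) :=
  {μ | μ.1 ≠ 0 ∧ ∀ t, ¬ remc h (ω t) (ph (some t) μ)}

/-- non-horizontal lines through `p` avoiding the removed points of the other parts. -/
noncomputable def DD (h : Lab → F) (ω : F → F × Typ) (p : V F) : Finset (F × F) :=
  {μ | μ.1 ≠ 0 ∧ ph p.1 μ = p.2 ∧ ∀ t, some t ≠ p.1 → ¬ remc h (ω t) (ph (some t) μ)}

/-- general position of two families of points. -/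
structure Gen {m j : ℕ} (p : Fin m → V F) (p' : Fin j → V F) : Prop where
  part : ∀ a b, (p a).1 ≠ (p' b).1
  slope : ∀ a b, (join (p a) (p' b)).1 ≠ 0
  inj : Function.Injective fun x : Fin m × Fin j => join (p x.1) (p' x.2)
  two : ∀ v : V F, (∀ a, v ≠ p a) → (∀ b, v ≠ p' b) →
    #{x : Fin m × Fin j | ph v.1 (join (p x.1) (p' x.2)) = v.2} ≤ 2

/-- regularity of the degrees. -/
def RegP (h : Lab → F) (c : ℝ) (K : ℕ) (ω : F → F × Typ) : Prop :=
  ∀ p : V F, p ≠ (none, 0) →
    c * Fintype.card F - K * √(Fintype.card F) ≤ (#(DD h ω p) : ℝ) ∧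
    (#(DD h ω p) : ℝ) ≤ c * Fintype.card F + K * √(Fintype.card F) +
      (if p.1 ≠ none ∧ ∃ k, p.2 = h k then (Fintype.card F : ℝ) / 100000 else 0)

/-- many good gadget parameters. -/
def GoodP (h : Lab → F) (G : Finset F) (K : ℕ) (ω : F → F × Typ) : Prop :=
  ∀ t, ∀ η ∈ G, (Fintype.card F : ℝ) / K ≤ (#{w | good h ω t η w} : ℝ)

/-- few centres on a line. -/
def FewP (K : ℕ) (ω : F → F × Typ) : Prop :=
  ∀ μ : F × F, #{t | ph (some t) μ = (ω t).1} ≤ K

/-- few active columns. -/
def ActP (ω : F → F × Typ) : Prop :=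
  (#{t | act (ω t).2} : ℝ) ≤ (Fintype.card F : ℝ) / 20

/-- samples in general position span many lines of `SS`. -/
def SampP (h : Lab → F) (K : ℕ) (ω : F → F × Typ) : Prop :=
  ∀ p p' : Fin K → V F, Gen p p' → (∀ a, ¬ rem h ω (p a)) → (∀ b, ¬ rem h ω (p' b)) →
    (K : ℝ) ^ 2 / 20 < (#{x : Fin K × Fin K | join (p x.1) (p' x.2) ∈ SS h ω} : ℝ)

/-- all first-stage properties. -/
structure St1 (h : Lab → F) (G : Finset F) (K : ℕ) (ω : F → F × Typ) : Prop where
  mem : ∀ t, (ω t).1 ∈ G
  reg : ∃ c : ℝ, 1 / 5 ≤ c ∧ c ≤ 1 ∧ RegP h c K ω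
  good : GoodP h G K ω
  few : FewP K ω
  act : ActP ω
  samp : SampP h K ω

/-- second-stage properties. -/
structure St2 (h : Lab → F) (ω : F → F × Typ) (w : F → F) : Prop where
  good : ∀ t, good h ω t (ω t).1 (w t)
  four : ∀ (O : F × F) (p : V F), #{t | ph (some t) O = (ω t).1 ∧ some t ≠ p.1 ∧
    ∃ k, ph p.1 (gl h t (ω t).1 (w t) k) = p.2} ≤ 4

/-- probability that the height `y` is removed in a column. -/
noncomputable def pr (h : Lab → F) (G : Finset F) (y : F) : ℝ :=
  (#{c : G × Typ | remc h (c.1.1, c.2) y} : ℝ) / Fintype.card (G × Typ)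

/-- survival probability of a non-horizontal line. -/
noncomputable def c0 (h : Lab → F) (G : Finset F) : ℝ := ∏ y, (1 - pr h G y)

/-- the edge set. -/
noncomputable def EE (h : Lab → F) (ω : F → F × Typ) (w : F → F) : Finset (Option F → Option F) :=
  (({μ | ∀ i, ph i μ ≠ cen ω i} : Finset (F × F)).image (e0 h ω)) ∪
    (univ : Finset (Option F × Lab)).image fun x => gE h ω w x.1 x.2

end

end Crest.Agent.R34
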