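import Mathlib

/-!
# Row 34: calculus of good dilations

`Dl A M j ρ` means `#(A - ρ • A) ≤ M^j #A`.
* `dl_mul`: Ruzsa triangle `#A #(A - ρσ A) ≤ #(A - ρ A) #(ρ A - ρ σ A)` (for `ρ = 0` trivial).
* `dl_inv`: dilate by `ρ`.
* `dl_add`, `dl_sub`: Ruzsa covering (`Finset.ruzsa_covering_add`) puts `ρ • A` into `≤ M^i` translates of `A - A`, so
  `A - (ρ ± σ) • A ⊆ A - ρ • A ∓ σ • A` lies in `≤ M^(i+j)` translates of `3•A - 2•A`, which has `≤ M^5 #A` elements by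
  Plünnecke–Ruzsa (`Finset.pluennecke_ruzsa_inequality_nsmul_sub_nsmul_sub`).
* `dl_card`: for `ρ` with `#(A - ρ A) ≤ T #A` the number of `(a,b,a',b') ∈ A^4` with `a - ρ b = a' - ρ b'` is `≥ (#A)³ / T`
  (Cauchy–Schwarz), `(#A)²` of them have `b = b'`, and the others determine `ρ`; so `#R ((#A)³/T - (#A)²) ≤ (#A)^4`.
-/

set_option autoImplicit false
open Classical Finset Pointwise

namespace Crest.Agent.R34

/-- `ρ` is a good dilation of level `j`. -/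
def Dl {F : Type} [Field F] (A : Finset F) (M : ℝ) (j : ℕ) (ρ : F) : Prop :=
  (#(A - ρ • A) : ℝ) ≤ M ^ j * #A

variable {F : Type} [Field F] {A : Finset F} {M : ℝ}

theorem dl_smul_sub (ρ : F) (S T : Finset F) : ρ • (S - T) = ρ • S - ρ • T := by
  ext x
  simp only [Finset.mem_smul_finset, Finset.mem_sub, smul_eq_mul]
  constructor
  · rintro ⟨_, ⟨a, ha, b, hb, rfl⟩, rfl⟩
    exact ⟨_, ⟨a, ha, rfl⟩, _, ⟨b, hb, rfl⟩, by ring⟩
  · rintro ⟨_, ⟨a, ha, rfl⟩, _, ⟨b, hb, rfl⟩, rfl⟩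
    exact ⟨_, ⟨a, ha, b, hb, rfl⟩, by ring⟩

theorem dl_card_sub_comm (S T : Finset F) : #(S - T) = #(T - S) := by
  rw [← Finset.card_neg, neg_sub]

theorem dl_mono (hM : 1 ≤ M) {i j : ℕ} (hij : i ≤ j) {ρ : F} (H : Dl A M i ρ) : Dl A M j ρ := by
  unfold Dl at *
  refine H.trans ?_
  gcongr

theorem dl_mul (hM : 1 ≤ M) {i j : ℕ} {ρ σ : F} (H : Dl A M i ρ) (H' : Dl A M j σ) :
    Dl A M (i + j) (ρ * σ) := by
  rcases eq_or_ne ρ 0 with rfl | hρ
  · rw [zero_mul]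
    exact dl_mono hM (Nat.le_add_right _ _) H
  unfold Dl at *
  rcases A.eq_empty_or_nonempty with rfl | hA
  · simp
  have hA' : (0 : ℝ) < #A := by exact_mod_cast hA.card_pos
  have h := Finset.ruzsa_triangle_inequality_sub_sub_sub A (ρ • A) ((ρ * σ) • A)
  rw [Finset.card_smul_finset₀ hρ, mul_smul, ← dl_smul_sub, Finset.card_smul_finset₀ hρ,
    dl_card_sub_comm (σ • A), ← mul_smul] at h
  have h' : (#(A - (ρ * σ) • A) : ℝ) * #A ≤ #(A - ρ • A) * #(A - σ • A) := by exact_mod_cast h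
  refine le_of_mul_le_mul_right (h'.trans ?_) hA'
  calc (#(A - ρ • A) : ℝ) * #(A - σ • A) ≤ (M ^ i * #A) * (M ^ j * #A) := by gcongr
    _ = _ := by ring

theorem dl_inv {i : ℕ} {ρ : F} (H : Dl A M i ρ) : Dl A M i ρ⁻¹ := by
  rcases eq_or_ne ρ 0 with rfl | hρ
  · rwa [inv_zero]
  unfold Dl at *
  rwa [← Finset.card_smul_finset₀ hρ (A - ρ⁻¹ • A), dl_smul_sub, smul_inv_smul₀ hρ,
    dl_card_sub_comm]

/-- `ρ • A` is covered by the translates of `A - A` by the elements of `S`. -/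
def DlCov (A S : Finset F) (ρ : F) : Prop :=
  ∀ a ∈ A, ∃ f ∈ S, ∃ b ∈ A, ∃ c ∈ A, ρ * a = f + (b - c)

theorem dl_cov_neg {S : Finset F} {ρ : F} (H : DlCov A S ρ) : DlCov A (-S) (-ρ) := by
  intro a ha
  obtain ⟨f, hf, b, hb, c, hc, h⟩ := H a ha
  exact ⟨-f, Finset.neg_mem_neg hf, c, hc, b, hb, by linear_combination -h⟩

theorem dl_cov (hA : A.Nonempty) {i : ℕ} {ρ : F} (H : Dl A M i ρ) :
    ∃ S : Finset F, (#S : ℝ) ≤ M ^ i ∧ DlCov A S ρ := by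
  have h1 : (#(-(ρ • A) + A) : ℝ) ≤ M ^ i * #A := by
    rw [add_comm, ← sub_eq_add_neg]
    exact H
  obtain ⟨S, -, hS, hsub⟩ := Finset.ruzsa_covering_add hA h1
  refine ⟨-S, by rwa [Finset.card_neg], ?_⟩
  rw [← neg_neg ρ]
  refine dl_cov_neg fun a ha => ?_
  have h2 : -(ρ * a) ∈ -(ρ • A) := Finset.neg_mem_neg (Finset.smul_mem_smul_finset ha)
  obtain ⟨f, hf, d, hd, h⟩ := Finset.mem_add.1 (hsub h2)
  obtain ⟨b, hb, c, hc, rfl⟩ := Finset.mem_sub.1 hd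
  exact ⟨f, hf, b, hb, c, hc, by linear_combination -h⟩

theorem dl_plue (hA : A.Nonempty) (h1 : Dl A M 1 1) :
    (#(A + A + A - (A + A)) : ℝ) ≤ M ^ 5 * #A := by
  have hA' : (0 : ℝ) < #A := by exact_mod_cast hA.card_pos
  have h := Finset.pluennecke_ruzsa_inequality_nsmul_sub_nsmul_sub hA A 3 2
  rw [succ_nsmul, two_nsmul] at h
  have h2 : ((#(A + A + A - (A + A)) : ℚ≥0) : ℝ) ≤
      (((#(A - A) / #A : ℚ≥0) ^ (3 + 2) * #A : ℚ≥0) : ℝ) := by exact_mod_cast h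
  push_cast at h2
  unfold Dl at h1
  rw [one_smul, pow_one] at h1
  refine h2.trans ?_
  gcongr
  rwa [div_le_iff₀ hA']

theorem dl_cov_add (hA : A.Nonempty) (h1 : Dl A M 1 1) {i j : ℕ} {ρ σ : F} {S T : Finset F}
    (hS : (#S : ℝ) ≤ M ^ i) (hT : (#T : ℝ) ≤ M ^ j) (H : DlCov A S ρ) (H' : DlCov A T σ) :
    Dl A M (i + j + 5) (ρ + σ) := by
  have hsub : A - (ρ + σ) • A ⊆ (A + A + A - (A + A)) - (S + T) := by
    intro x hx
    obtain ⟨a, ha, y, hy, rfl⟩ := Finset.mem_sub.1 hx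
    obtain ⟨a', ha', rfl⟩ := Finset.mem_smul_finset.1 hy
    obtain ⟨f, hf, b, hb, c, hc, h⟩ := H a' ha'
    obtain ⟨f', hf', b', hb', c', hc', h'⟩ := H' a' ha'
    refine Finset.mem_sub.2 ⟨a + c + c' - (b + b'), Finset.sub_mem_sub (Finset.add_mem_add
      (Finset.add_mem_add ha hc) hc') (Finset.add_mem_add hb hb'), f + f',
      Finset.add_mem_add hf hf', ?_⟩
    rw [smul_eq_mul]
    linear_combination h + h'
  have h2 : #(A - (ρ + σ) • A) ≤ #(A + A + A - (A + A)) * (#S * #T) :=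
    (Finset.card_le_card hsub).trans (Finset.card_sub_le.trans
      (Nat.mul_le_mul_left _ Finset.card_add_le))
  have h3 : (#(A - (ρ + σ) • A) : ℝ) ≤ #(A + A + A - (A + A)) * (#S * #T) := by exact_mod_cast h2
  have h4 := dl_plue hA h1
  have h5 : (0 : ℝ) ≤ M ^ 5 * #A := le_trans (Nat.cast_nonneg _) h4
  have h6 : (0 : ℝ) ≤ M ^ i := le_trans (Nat.cast_nonneg _) hS
  unfold Dl
  calc _ ≤ _ := h3
    _ ≤ (M ^ 5 * #A) * (M ^ i * M ^ j) := by gcongr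
    _ = _ := by ring

theorem dl_add (hM : 1 ≤ M) (h1 : Dl A M 1 1) {i j : ℕ} {ρ σ : F} (H : Dl A M i ρ)
    (H' : Dl A M j σ) : Dl A M (i + j + 5) (ρ + σ) := by
  have _ := hM
  rcases A.eq_empty_or_nonempty with rfl | hA
  · simp [Dl]
  obtain ⟨S, hS, hS'⟩ := dl_cov hA H
  obtain ⟨T, hT, hT'⟩ := dl_cov hA H'
  exact dl_cov_add hA h1 hS hT hS' hT'

theorem dl_sub (hM : 1 ≤ M) (h1 : Dl A M 1 1) {i j : ℕ} {ρ σ : F} (H : Dl A M i ρ)
    (H' : Dl A M j σ) : Dl A M (i + j + 5) (ρ - σ) := by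
  have _ := hM
  rcases A.eq_empty_or_nonempty with rfl | hA
  · simp [Dl]
  obtain ⟨S, hS, hS'⟩ := dl_cov hA H
  obtain ⟨T, hT, hT'⟩ := dl_cov hA H'
  rw [sub_eq_add_neg]
  exact dl_cov_add hA h1 hS (by rwa [Finset.card_neg]) hS' (dl_cov_neg hT')

theorem dl_energy {X Y : Type} (S : Finset X) (f : X → Y) :
    #S ^ 2 ≤ #(S.image f) * #{z ∈ S ×ˢ S | f z.1 = f z.2} := by
  have h1 : #{z ∈ S ×ˢ S | f z.1 = f z.2} = ∑ y ∈ S.image f, #{x ∈ S | f x = y} ^ 2 := by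
    rw [Finset.card_eq_sum_card_fiberwise (f := fun z : X × X => f z.1) (t := S.image f)]
    · refine Finset.sum_congr rfl fun y _ => ?_
      rw [sq, ← Finset.card_product]
      congr 1
      ext z
      simp only [Finset.mem_filter, Finset.mem_product]
      constructor
      · rintro ⟨⟨⟨h1, h2⟩, h3⟩, h4⟩
        exact ⟨⟨h1, h4⟩, h2, h3 ▸ h4⟩
      · rintro ⟨⟨h1, h2⟩, h3, h4⟩
        exact ⟨⟨⟨h1, h3⟩, h2.trans h4.symm⟩, h2⟩
    · intro z hz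
      have := (Finset.mem_product.1 (Finset.mem_filter.1 hz).1).1
      exact Finset.mem_coe.2 (Finset.mem_image_of_mem f this)
  rw [h1, Finset.card_eq_sum_card_image f S]
  exact sq_sum_le_card_mul_sum_sq

theorem dl_card (T : ℝ) (hT : 0 < T) (hA : 2 * T ≤ #A) (R : Finset F)
    (hR : ∀ ρ ∈ R, (#(A - ρ • A) : ℝ) ≤ T * #A) : (#R : ℝ) ≤ 2 * T * #A := by
  have hA0 : (0 : ℝ) < #A := by linarith
  set S := A ×ˢ A with hS
  have hSc : (#S : ℝ) = #A ^ 2 := by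
    rw [hS, Finset.card_product]
    push_cast
    ring
  set N : F → Finset ((F × F) × (F × F)) := fun ρ =>
    {z ∈ S ×ˢ S | z.1.1 - ρ * z.1.2 = z.2.1 - ρ * z.2.2 ∧ z.1.2 ≠ z.2.2} with hN
  have hlow : ∀ ρ ∈ R, (#A : ℝ) ^ 3 / (2 * T) ≤ #(N ρ) := by
    intro ρ hρ
    have h1 := dl_energy S fun x => x.1 - ρ * x.2
    have h2 : S.image (fun x => x.1 - ρ * x.2) ⊆ A - ρ • A := by
      intro y hy
      obtain ⟨x, hx, rfl⟩ := Finset.mem_image.1 hy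
      obtain ⟨h3, h4⟩ := Finset.mem_product.1 hx
      exact Finset.sub_mem_sub h3 (Finset.smul_mem_smul_finset h4)
    have h3 : {z ∈ S ×ˢ S | z.1.1 - ρ * z.1.2 = z.2.1 - ρ * z.2.2} ⊆
        N ρ ∪ S.image fun x => (x, x) := by
      intro z hz
      obtain ⟨h4, h5⟩ := Finset.mem_filter.1 hz
      by_cases h6 : z.1.2 = z.2.2
      · refine Finset.mem_union_right _ (Finset.mem_image.2 ⟨z.1, (Finset.mem_product.1 h4).1, ?_⟩)
        have h7 : z.1.1 = z.2.1 := by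
          rw [h6] at h5
          linear_combination h5
        exact Prod.ext rfl (Prod.ext h7 h6)
      · exact Finset.mem_union_left _ (Finset.mem_filter.2 ⟨h4, h5, h6⟩)
    have h4 : #S ^ 2 ≤ #(A - ρ • A) * (#(N ρ) + #S) :=
      h1.trans (Nat.mul_le_mul (Finset.card_le_card h2) ((Finset.card_le_card h3).trans
        ((Finset.card_union_le _ _).trans (Nat.add_le_add_left Finset.card_image_le _))))
    have h5 : (#S : ℝ) ^ 2 ≤ #(A - ρ • A) * (#(N ρ) + #S) := by exact_mod_cast h4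
    have h6 : (#S : ℝ) ^ 2 ≤ T * #A * (#(N ρ) + #S) := h5.trans (by gcongr; exact hR ρ hρ)
    rw [hSc] at h6
    have h7 : (#A : ℝ) ^ 3 ≤ T * (#(N ρ) + #A ^ 2) := by
      refine le_of_mul_le_mul_right ?_ hA0
      nlinarith
    rw [div_le_iff₀ (by positivity)]
    nlinarith [mul_le_mul_of_nonneg_right hA (sq_nonneg (#A : ℝ))]
  have hdis : (R : Set F).PairwiseDisjoint N := by
    intro ρ _ σ _ hne
    refine Finset.disjoint_left.2 fun z h1 h2 => hne ?_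
    obtain ⟨-, h3, h4⟩ := Finset.mem_filter.1 h1
    obtain ⟨-, h5, -⟩ := Finset.mem_filter.1 h2
    refine mul_right_cancel₀ (sub_ne_zero.2 h4) ?_
    linear_combination h5 - h3
  have hup : ∑ ρ ∈ R, #(N ρ) ≤ #S * #S := by
    rw [← Finset.card_biUnion hdis, ← Finset.card_product]
    refine Finset.card_le_card (Finset.biUnion_subset.2 fun ρ _ => Finset.filter_subset _ _)
  have hup' : ∑ ρ ∈ R, (#(N ρ) : ℝ) ≤ #S * #S := by exact_mod_cast hup
  have h8 : (#R : ℝ) * (#A ^ 3 / (2 * T)) ≤ #A ^ 2 * #A ^ 2 := by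
    rw [← hSc]
    refine le_trans ?_ hup'
    calc _ = ∑ _ρ ∈ R, (#A : ℝ) ^ 3 / (2 * T) := by simp
      _ ≤ _ := Finset.sum_le_sum hlow
  rw [← mul_div_assoc, div_le_iff₀ (by positivity)] at h8
  refine le_of_mul_le_mul_right ?_ (pow_pos hA0 3)
  nlinarith

end Crest.Agent.R34
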