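import Crest.Agent.R34.Defs

/-!
# Row 34: McDiarmid inequality on a finite product (uniform measure)

Plan. `mcdiarmid`: prove the moment bound `∑ ω, exp (l * (f ω - mean f)) ≤ exp (n l² c² / 2) * card`
for `f : (Fin n → α) → ℝ` by induction on `n` (`Fin.cons`/`Fin.consEquiv`, or for general `ι` via
`Fintype.induction_empty_option` / `Fintype.equivFin`): put `g ω' = average over a of f (cons a ω')`;
`g` has bounded differences `c` and the same mean, `|f (cons a ω') - g ω'| ≤ c` with average `0` in `a`,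
and for `|X| ≤ c` with average 0, convexity gives `avg exp (l X) ≤ cosh (l c) ≤ exp (l² c² / 2)`
(`Real.cosh_le_exp_half_sq`).  Then Chernoff with `l = E / (n c²)` (the case `n = 0` is trivial: the bound is 1).
`mcd_union`: apply it to `f j` and `-f j` with `c = 200`, `E = K √q / 2`: every tail is
`≤ exp (-K²/320000)`; `card J ≤ q³ ≤ q^N ≤ 2^K` and `K ≥ N = 10^6` give `2 · 2^K · exp (-3K) ≤ 1/10`.
-/

set_option autoImplicit false
open Classical Finset

namespace Crest.Agent.R34

theorem mcd_hoeff {α : Type} [Fintype α] (X : α → ℝ) (c l : ℝ) (hc : 0 < c)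
    (hX : ∀ a, |X a| ≤ c) (h0 : ∑ a, X a = 0) :
    ∑ a, Real.exp (l * X a) ≤ Real.exp (l ^ 2 * c ^ 2 / 2) * Fintype.card α := by
  have h1 : ∀ a, Real.exp (l * X a) ≤ Real.cosh (l * c) + X a / c * Real.sinh (l * c) := by
    intro a
    have h2 : |X a / c| ≤ 1 := by
      rw [abs_div, abs_of_pos hc, div_le_one hc]
      exact hX a
    have h3 := Real.exp_mul_le_cosh_add_mul_sinh h2 (l * c)
    have h4 : X a / c * (l * c) = l * X a := by field_simp
    rwa [h4] at h3
  calc ∑ a, Real.exp (l * X a) ≤ ∑ a, (Real.cosh (l * c) + X a / c * Real.sinh (l * c)) :=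
        Finset.sum_le_sum fun a _ => h1 a
    _ = Real.cosh (l * c) * Fintype.card α := by
        rw [Finset.sum_add_distrib, ← Finset.sum_mul, ← Finset.sum_div, h0]
        simp [mul_comm]
    _ ≤ _ := by
        gcongr
        have := Real.cosh_le_exp_half_sq (l * c)
        rwa [mul_pow] at this

theorem mcd_avg_abs {α : Type} [Fintype α] [Nonempty α] (X : α → ℝ) (c : ℝ)
    (hX : ∀ a, |X a| ≤ c) : |(∑ a, X a) / Fintype.card α| ≤ c := by
  have hpos : (0 : ℝ) < Fintype.card α := by exact_mod_cast Fintype.card_pos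
  rw [abs_div, abs_of_pos hpos, div_le_iff₀ hpos]
  calc |∑ a, X a| ≤ ∑ a, |X a| := Finset.abs_sum_le_sum_abs _ _
    _ ≤ ∑ _a : α, c := Finset.sum_le_sum fun a _ => hX a
    _ = c * Fintype.card α := by simp [mul_comm]

theorem mcd_sum_cons {α : Type} [Fintype α] {n : ℕ} (F : (Fin (n + 1) → α) → ℝ) :
    ∑ ω, F ω = ∑ ω' : Fin n → α, ∑ a, F (Fin.cons a ω') := by
  rw [← (Fin.consEquiv fun _ : Fin (n + 1) => α).sum_comp, Fintype.sum_prod_type_right]
  rfl

theorem mcd_mgf_fin {α : Type} [Fintype α] [Nonempty α] (c l : ℝ) (hc : 0 < c) (n : ℕ) :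
    ∀ f : (Fin n → α) → ℝ, (∀ ω i a, |f (Function.update ω i a) - f ω| ≤ c) →
    ∑ ω, Real.exp (l * (f ω - (∑ ω', f ω') / Fintype.card (Fin n → α))) ≤
      Real.exp (n * (l ^ 2 * c ^ 2 / 2)) * Fintype.card (Fin n → α) := by
  have hpos : (0 : ℝ) < Fintype.card α := by exact_mod_cast Fintype.card_pos
  induction n with
  | zero =>
    intro f _
    simp
  | succ n ih =>
    intro f hf
    set g : (Fin n → α) → ℝ := fun ω' => (∑ a, f (Fin.cons a ω')) / Fintype.card α with hg
    have hgd : ∀ ω i a, |g (Function.update ω i a) - g ω| ≤ c := by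
      intro ω i a
      simp only [hg]
      rw [← sub_div, ← Finset.sum_sub_distrib]
      refine mcd_avg_abs _ c fun b => ?_
      rw [Fin.cons_update]
      exact hf _ _ _
    have hfg : ∀ ω' a, |f (Fin.cons a ω') - g ω'| ≤ c := by
      intro ω' a
      have : f (Fin.cons a ω') - g ω' =
          (∑ b, (f (Fin.cons a ω') - f (Fin.cons b ω'))) / Fintype.card α := by
        simp only [hg]
        rw [Finset.sum_sub_distrib, sub_div]
        simp only [Finset.sum_const, Finset.card_univ, nsmul_eq_mul]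
        field_simp
      rw [this]
      refine mcd_avg_abs _ c fun b => ?_
      have h := hf (Fin.cons b ω') 0 a
      rwa [Fin.update_cons_zero] at h
    have hmean : (∑ ω, f ω) / Fintype.card (Fin (n + 1) → α) =
        (∑ ω', g ω') / Fintype.card (Fin n → α) := by
      rw [mcd_sum_cons f]
      simp only [hg]
      rw [← Finset.sum_div]
      simp only [Fintype.card_pi, Finset.prod_const, Finset.card_univ, Fintype.card_fin,
        Nat.cast_pow]
      rw [div_div, pow_succ, mul_comm]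
    rw [hmean]
    set m := (∑ ω', g ω') / Fintype.card (Fin n → α) with hm
    rw [mcd_sum_cons]
    have hstep : ∀ ω' : Fin n → α, ∑ a, Real.exp (l * (f (Fin.cons a ω') - m)) ≤
        Real.exp (l * (g ω' - m)) * (Real.exp (l ^ 2 * c ^ 2 / 2) * Fintype.card α) := by
      intro ω'
      have h1 := mcd_hoeff (fun a => f (Fin.cons a ω') - g ω') c l hc (hfg ω') (by
        rw [Finset.sum_sub_distrib]
        simp only [hg, Finset.sum_const, Finset.card_univ, nsmul_eq_mul]
        field_simp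
        ring)
      calc ∑ a, Real.exp (l * (f (Fin.cons a ω') - m))
          = Real.exp (l * (g ω' - m)) * ∑ a, Real.exp (l * (f (Fin.cons a ω') - g ω')) := by
            rw [Finset.mul_sum]
            refine Finset.sum_congr rfl fun a _ => ?_
            rw [← Real.exp_add]
            congr 1
            ring
        _ ≤ _ := by gcongr
    calc ∑ ω' : Fin n → α, ∑ a, Real.exp (l * (f (Fin.cons a ω') - m))
        ≤ ∑ ω' : Fin n → α, Real.exp (l * (g ω' - m)) *
            (Real.exp (l ^ 2 * c ^ 2 / 2) * Fintype.card α) := Finset.sum_le_sum fun ω' _ => hstep ω'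
      _ = (∑ ω' : Fin n → α, Real.exp (l * (g ω' - m))) *
            (Real.exp (l ^ 2 * c ^ 2 / 2) * Fintype.card α) := by rw [Finset.sum_mul]
      _ ≤ (Real.exp (n * (l ^ 2 * c ^ 2 / 2)) * Fintype.card (Fin n → α)) *
            (Real.exp (l ^ 2 * c ^ 2 / 2) * Fintype.card α) := by
          gcongr
          exact ih g hgd
      _ = _ := by
          simp only [Fintype.card_pi, Finset.prod_const, Finset.card_univ, Fintype.card_fin,
            Nat.cast_pow]
          push_cast
          rw [add_mul, one_mul, Real.exp_add, pow_succ]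
          ring

theorem mcd_mgf {ι α : Type} [Fintype ι] [DecidableEq ι] [Fintype α] [Nonempty α] (c l : ℝ)
    (hc : 0 < c) (f : (ι → α) → ℝ) (hf : ∀ ω i a, |f (Function.update ω i a) - f ω| ≤ c) :
    ∑ ω, Real.exp (l * (f ω - (∑ ω', f ω') / Fintype.card (ι → α))) ≤
      Real.exp (Fintype.card ι * (l ^ 2 * c ^ 2 / 2)) * Fintype.card (ι → α) := by
  set e := Fintype.equivFin ι with he
  set E : (Fin (Fintype.card ι) → α) ≃ (ι → α) := Equiv.arrowCongr e.symm (Equiv.refl α) with hE
  have hE' : ∀ ω, E ω = ω ∘ e := fun ω => by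
    funext i
    simp [hE]
  have h := mcd_mgf_fin c l hc (Fintype.card ι) (fun ω => f (E ω)) (by
    intro ω i a
    simp only [hE']
    rw [Function.update_comp_equiv]
    exact hf _ _ _)
  rw [E.sum_comp f, Fintype.card_congr E,
    E.sum_comp fun ω => Real.exp (l * (f ω - (∑ ω', f ω') / Fintype.card (ι → α)))] at h
  exact h

theorem mcdiarmid {ι α : Type} [Fintype ι] [DecidableEq ι] [Fintype α] [Nonempty α]
    (f : (ι → α) → ℝ) (c : ℝ) (hc : 0 < c)
    (hf : ∀ ω i a, |f (Function.update ω i a) - f ω| ≤ c) (E : ℝ) (hE : 0 ≤ E) :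
    (#{ω | (∑ ω', f ω') / Fintype.card (ι → α) + E ≤ f ω} : ℝ) ≤
      Real.exp (-E ^ 2 / (2 * Fintype.card ι * c ^ 2)) * Fintype.card (ι → α) := by
  rcases Nat.eq_zero_or_pos (Fintype.card ι) with h0 | hn
  · rw [h0]
    simp only [Nat.cast_zero, mul_zero, zero_mul, div_zero, Real.exp_zero, one_mul, Nat.cast_le]
    exact Finset.card_le_univ _
  have hn' : (0 : ℝ) < Fintype.card ι := by exact_mod_cast hn
  set n : ℝ := ((Fintype.card ι : ℕ) : ℝ) with hndef
  set l : ℝ := E / (n * c ^ 2) with hl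
  have hl0 : 0 ≤ l := by positivity
  set m := (∑ ω', f ω') / Fintype.card (ι → α) with hm
  have h1 := mcd_mgf c l hc f hf
  have h2 : (#{ω | m + E ≤ f ω} : ℝ) * Real.exp (l * E) ≤ ∑ ω, Real.exp (l * (f ω - m)) := by
    calc (#{ω | m + E ≤ f ω} : ℝ) * Real.exp (l * E)
        = ∑ _ω ∈ ({ω | m + E ≤ f ω} : Finset (ι → α)), Real.exp (l * E) := by simp
      _ ≤ ∑ ω ∈ ({ω | m + E ≤ f ω} : Finset (ι → α)), Real.exp (l * (f ω - m)) := by
          refine Finset.sum_le_sum fun ω hω => ?_
          have := (Finset.mem_filter.1 hω).2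
          gcongr
          linarith
      _ ≤ _ := Finset.sum_le_sum_of_subset_of_nonneg (Finset.subset_univ _)
          fun _ _ _ => (Real.exp_pos _).le
  have h3 : Real.exp (-E ^ 2 / (2 * n * c ^ 2)) * Real.exp (l * E) =
      Real.exp (n * (l ^ 2 * c ^ 2 / 2)) := by
    rw [← Real.exp_add]
    congr 1
    rw [hl]
    field_simp
    ring
  refine le_of_mul_le_mul_right ?_ (Real.exp_pos (l * E))
  calc _ ≤ _ := h2
    _ ≤ _ := h1
    _ = _ := by rw [← h3]; ring

theorem mcd_union : ∃ N : ℕ, 1 ≤ N ∧ ∀ (ι α J : Type) [Fintype ι] [DecidableEq ι] [Fintype α]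
    [Nonempty α] [Fintype J] (K : ℕ), Par N (Fintype.card ι) K →
    Fintype.card J ≤ Fintype.card ι ^ 3 → ∀ f : J → (ι → α) → ℝ,
    (∀ j ω i a, |f j (Function.update ω i a) - f j ω| ≤ 200) →
    (#{ω | ∃ j, K * √(Fintype.card ι) / 2 < |f j ω - (∑ ω', f j ω') / Fintype.card (ι → α)|} : ℝ) ≤
      (Fintype.card (ι → α) : ℝ) / 10 := by
  refine ⟨1000000, by norm_num, fun ι α J _ _ _ _ _ K hP hJ f hf => ?_⟩
  obtain ⟨hK, hq, hq2⟩ := hP
  have hq1 : 1 ≤ Fintype.card ι := le_trans (Nat.one_le_pow _ _ (by omega)) hq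
  have hn' : (0 : ℝ) < Fintype.card ι := by exact_mod_cast hq1
  have hJ2 : Fintype.card J ≤ 2 ^ K :=
    hJ.trans ((Nat.pow_le_pow_right hq1 (by norm_num)).trans hq2)
  set E : ℝ := K * √(Fintype.card ι) / 2 with hE
  have hE0 : 0 ≤ E := by positivity
  have hK' : (1000000 : ℝ) ≤ K := by exact_mod_cast hK
  have hexp : Real.exp (-E ^ 2 / (2 * Fintype.card ι * 200 ^ 2)) ≤ Real.exp (-(3 * K)) := by
    gcongr
    have : E ^ 2 = K ^ 2 * Fintype.card ι / 4 := by
      rw [hE, div_pow, mul_pow, Real.sq_sqrt hn'.le]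
      norm_num
    rw [this, div_le_iff₀ (by positivity)]
    nlinarith [mul_le_mul_of_nonneg_left hK' (show (0 : ℝ) ≤ K * Fintype.card ι by positivity)]
  set C : ℝ := ((Fintype.card (ι → α) : ℕ) : ℝ) with hC
  have hC0 : 0 ≤ C := by positivity
  have htail : ∀ j, (#{ω | E < |f j ω - (∑ ω', f j ω') / C|} : ℝ) ≤ 2 * (Real.exp (-(3 * K)) * C) := by
    intro j
    have h1 := mcdiarmid (f j) 200 (by norm_num) (hf j) E hE0
    have h2 := mcdiarmid (fun ω => -f j ω) 200 (by norm_num) (fun ω i a => by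
      rw [← abs_neg]
      convert hf j ω i a using 2
      ring) E hE0
    have hsub : ({ω | E < |f j ω - (∑ ω', f j ω') / C|} : Finset (ι → α)) ⊆
        ({ω | (∑ ω', f j ω') / C + E ≤ f j ω} : Finset (ι → α)) ∪
        ({ω | (∑ ω', -f j ω') / C + E ≤ -f j ω} : Finset (ι → α)) := by
      intro ω hω
      have h := (Finset.mem_filter.1 hω).2
      rw [Finset.mem_union, Finset.mem_filter, Finset.mem_filter, Finset.sum_neg_distrib, neg_div]
      rcases lt_abs.1 h with h | h
      · exact Or.inl ⟨Finset.mem_univ _, by linarith⟩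
      · exact Or.inr ⟨Finset.mem_univ _, by linarith⟩
    have h3 : (#{ω | E < |f j ω - (∑ ω', f j ω') / C|} : ℝ) ≤
        #{ω | (∑ ω', f j ω') / C + E ≤ f j ω} + #{ω | (∑ ω', -f j ω') / C + E ≤ -f j ω} := by
      exact_mod_cast (Finset.card_le_card hsub).trans (Finset.card_union_le _ _)
    have h4 := mul_le_mul_of_nonneg_right hexp hC0
    linarith
  have hsub : ({ω | ∃ j, E < |f j ω - (∑ ω', f j ω') / C|} : Finset (ι → α)) ⊆
      (Finset.univ : Finset J).biUnion fun j => {ω | E < |f j ω - (∑ ω', f j ω') / C|} := by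
    intro ω hω
    obtain ⟨j, hj⟩ := (Finset.mem_filter.1 hω).2
    exact Finset.mem_biUnion.2 ⟨j, Finset.mem_univ _, Finset.mem_filter.2 ⟨Finset.mem_univ _, hj⟩⟩
  have h5 : (#{ω | ∃ j, E < |f j ω - (∑ ω', f j ω') / C|} : ℝ) ≤
      ∑ j : J, (#{ω | E < |f j ω - (∑ ω', f j ω') / C|} : ℝ) := by
    exact_mod_cast (Finset.card_le_card hsub).trans Finset.card_biUnion_le
  have h6 : (2 : ℝ) ^ K * (2 * Real.exp (-(3 * K))) ≤ 1 / 10 := by
    have h7 : (2 : ℝ) ^ K ≤ Real.exp K := by
      rw [← mul_one (K : ℝ), Real.exp_nat_mul]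
      gcongr
      linarith [Real.add_one_le_exp (1 : ℝ)]
    have h8 : Real.exp K * Real.exp (-(3 * K)) = Real.exp (-(2 * K)) := by
      rw [← Real.exp_add]
      congr 1
      ring
    have h9 : Real.exp (-(2 * K)) ≤ 1 / 20 := by
      rw [Real.exp_neg, inv_eq_one_div]
      gcongr
      linarith [Real.add_one_le_exp (2 * (K : ℝ))]
    have h10 := mul_le_mul_of_nonneg_right h7 (Real.exp_pos (-(3 * (K : ℝ)))).le
    linarith
  calc _ ≤ _ := h5
    _ ≤ ∑ _j : J, 2 * (Real.exp (-(3 * K)) * C) := Finset.sum_le_sum fun j _ => htail j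
    _ = Fintype.card J * (2 * Real.exp (-(3 * K))) * C := by simp; ring
    _ ≤ (2 : ℝ) ^ K * (2 * Real.exp (-(3 * K))) * C := by
        gcongr
        exact_mod_cast hJ2
    _ ≤ 1 / 10 * C := by gcongr
    _ = C / 10 := by ring

end Crest.Agent.R34
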