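import Crest.Agent.R34.Geo
import Crest.Agent.R34.McD

/-!
# Row 34: few centres on a line, few active columns; existence of `h`, `G`, `K`

* `few_prob`: for a line `μ`, `∑_ω 2 ^ #{t | centre on μ} = ∏_t ∑_c (1 + 1[c.1 = ph (some t) μ]) ≤ (1 + 1/g)^q · total
  ≤ e² · total` (`Finset.prod_univ_sum`, `q ≤ 2g`); Markov and union over `q²` lines; `q^4 ≤ 2^K`, `q² ≥ 80`.
* `act_prob`: `mcd_union` with `J = Unit`; mean `≤ q / 100000` (active types have third component 0), differences ≤ 1,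
  `K √q / 2 ≤ q / 40`.
* `exists_GOK`: any injective `h`; `G` = complement of the range of `h` and of the solutions `η` of
  `h k h l - h k' h l' = η (h k + h l - h k' - h l')` with non-zero coefficient (≤ 12 + 12^4 = 20748 values); if the coefficient
  vanishes and the products agree then `{h k, h l} = {h k', h l'}`.
* `exists_Par`: `K = N * (Nat.log 2 q + 1)` (polylog ≤ q eventually).
-/

set_option autoImplicit false
open Classical Finset

namespace Crest.Agent.R34

theorem FewAct.expmom {ι α : Type} [Fintype ι] [DecidableEq ι] [Fintype α] (P : ι → α → Prop) (δ : ℝ)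
    (h : ∀ t, (#{c | P t c} : ℝ) ≤ δ * Fintype.card α) (S : Finset (ι → α)) (B : ℝ)
    (hS : ∀ ω ∈ S, B ≤ (2 : ℝ) ^ #{t | P t (ω t)}) :
    #S * B ≤ Real.exp (δ * Fintype.card ι) * Fintype.card (ι → α) := by
  have h1 : ∀ ω : ι → α, (2 : ℝ) ^ #{t | P t (ω t)} = ∏ t, if P t (ω t) then (2 : ℝ) else 1 := by
    intro ω
    rw [prod_ite, prod_const, prod_const_one, mul_one]
  have h2 : ∀ t, ∑ c, (if P t c then (2 : ℝ) else 1) ≤ Real.exp δ * Fintype.card α := by
    intro t
    have h3 : ∑ c, (if P t c then (2 : ℝ) else 1) = ∑ c, (1 + if P t c then (1 : ℝ) else 0) :=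
      sum_congr rfl fun c _ => by split_ifs <;> norm_num
    rw [h3, sum_add_distrib, sum_boole, sum_const, card_univ, nsmul_eq_mul, mul_one]
    have h4 := Real.add_one_le_exp δ
    have h5 : (0 : ℝ) ≤ Fintype.card α := Nat.cast_nonneg _
    nlinarith [h t]
  calc #S * B ≤ ∑ ω ∈ S, (2 : ℝ) ^ #{t | P t (ω t)} := by
        rw [← nsmul_eq_mul]
        exact card_nsmul_le_sum S _ B hS
    _ ≤ ∑ ω : ι → α, (2 : ℝ) ^ #{t | P t (ω t)} :=
        sum_le_sum_of_subset_of_nonneg (subset_univ _) fun _ _ _ => by positivity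
    _ = ∏ t, ∑ c, (if P t c then (2 : ℝ) else 1) := by
        rw [prod_univ_sum, Fintype.piFinset_univ]
        exact sum_congr rfl fun ω _ => h1 ω
    _ ≤ ∏ _t : ι, Real.exp δ * Fintype.card α :=
        prod_le_prod (fun t _ => sum_nonneg fun c _ => by split_ifs <;> norm_num) fun t _ => h2 t
    _ = _ := by
        rw [prod_const, card_univ, mul_pow, ← Real.exp_nat_mul, mul_comm _ δ, Fintype.card_fun]
        push_cast
        rfl

theorem FewAct.big {q K : ℕ} (H : Par 10 q K) : 10 ^ 10 ≤ q :=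
  le_trans (Nat.pow_le_pow_left H.1 10) H.2.1

theorem few_prob : ∃ N : ℕ, 1 ≤ N ∧ ∀ (F : Type) [Field F] [Fintype F] (K : ℕ),
    Par N (Fintype.card F) K → ∀ (h : Lab → F) (G : Finset F), GOK h G →
    (#{ω : F → G × Typ | ¬ FewP K (cf ω)} : ℝ) ≤ (Fintype.card (F → G × Typ) : ℝ) / 10 := by
  refine ⟨10, by norm_num, fun F _ _ K H h G hG => ?_⟩
  have hq := FewAct.big H
  have hb := hG.big
  have hq' : (10 : ℝ) ^ 10 ≤ Fintype.card F := by exact_mod_cast hq
  have hg : (Fintype.card F : ℝ) ≤ 2 * #G := by exact_mod_cast (by omega : Fintype.card F ≤ 2 * #G)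
  have hg0 : (0 : ℝ) < #G := by linarith [show (0 : ℝ) < 10 ^ 10 by norm_num]
  have hT : (0 : ℝ) ≤ Fintype.card (F → G × Typ) := Nat.cast_nonneg _
  have h1 : ∀ μ : F × F, (#{ω : F → G × Typ | K < #{t | ph (some t) μ = (cf ω t).1}} : ℝ) * 2 ^ K ≤
      8 * Fintype.card (F → G × Typ) := by
    intro μ
    refine (FewAct.expmom (fun t (c : G × Typ) => ph (some t) μ = c.1.1) (#G : ℝ)⁻¹ (fun t => ?_) _ _
      fun ω hω => ?_).trans (mul_le_mul_of_nonneg_right ?_ hT)
    · have h2 : #{c : G × Typ | ph (some t) μ = c.1.1} ≤ #(univ : Finset Typ) := by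
        refine card_le_card_of_injOn Prod.snd (fun _ _ => mem_coe.2 (mem_univ _)) fun c hc c' hc' hcc => ?_
        simp only [coe_filter, mem_univ, true_and, Set.mem_ofPred_eq] at hc hc'
        exact Prod.ext (Subtype.ext (hc.symm.trans hc')) hcc
      rw [Fintype.card_prod, Fintype.card_coe, Nat.cast_mul, ← mul_assoc, inv_mul_cancel₀ hg0.ne', one_mul]
      exact_mod_cast h2
    · exact pow_le_pow_right₀ one_le_two (mem_filter.1 hω).2.le
    · have h2 : (#G : ℝ)⁻¹ * Fintype.card F ≤ 1 + 1 := by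
        rw [inv_mul_le_iff₀ hg0]
        linarith
      refine (Real.exp_le_exp.2 h2).trans ?_
      rw [Real.exp_add]
      nlinarith [Real.exp_one_lt_d9, Real.exp_pos 1]
  have h2 : #{ω : F → G × Typ | ¬ FewP K (cf ω)} ≤
      ∑ μ : F × F, #{ω : F → G × Typ | K < #{t | ph (some t) μ = (cf ω t).1}} := by
    refine le_trans (card_le_card fun ω hω => ?_) card_biUnion_le
    have h3 := (mem_filter.1 hω).2
    simp only [FewP, not_forall, not_le] at h3
    obtain ⟨μ, hμ⟩ := h3
    exact mem_biUnion.2 ⟨μ, mem_univ _, mem_filter.2 ⟨mem_univ _, hμ⟩⟩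
  have h3 : (#{ω : F → G × Typ | ¬ FewP K (cf ω)} : ℝ) * 2 ^ K ≤
      (Fintype.card F : ℝ) ^ 2 * (8 * Fintype.card (F → G × Typ)) := by
    refine le_trans (mul_le_mul_of_nonneg_right (Nat.cast_le.2 h2) (by positivity)) ?_
    push_cast
    rw [sum_mul]
    refine (sum_le_sum fun μ _ => h1 μ).trans (le_of_eq ?_)
    rw [sum_const, card_univ, Fintype.card_prod, nsmul_eq_mul]
    push_cast
    ring
  have h4 : (Fintype.card F : ℝ) ^ 4 ≤ 2 ^ K := by
    exact_mod_cast le_trans (Nat.pow_le_pow_right (by omega) (by norm_num)) H.2.2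
  have h5 : (80 : ℝ) ≤ (Fintype.card F : ℝ) ^ 2 := by nlinarith
  have h6 : (0 : ℝ) ≤ #{ω : F → G × Typ | ¬ FewP K (cf ω)} := Nat.cast_nonneg _
  generalize (#{ω : F → G × Typ | ¬ FewP K (cf ω)} : ℝ) = A at *
  generalize (Fintype.card (F → G × Typ) : ℝ) = T at *
  have h7 : A * 80 * (Fintype.card F : ℝ) ^ 2 ≤ 8 * T * (Fintype.card F : ℝ) ^ 2 := by
    calc A * 80 * (Fintype.card F : ℝ) ^ 2 ≤ A * (Fintype.card F : ℝ) ^ 2 * (Fintype.card F : ℝ) ^ 2 := by
          gcongr
      _ = A * (Fintype.card F : ℝ) ^ 4 := by ring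
      _ ≤ A * 2 ^ K := by gcongr
      _ ≤ _ := by linarith
  have h8 := le_of_mul_le_mul_right h7 (by linarith)
  linarith

theorem act_prob : ∃ N : ℕ, 1 ≤ N ∧ ∀ (F : Type) [Field F] [Fintype F] (K : ℕ),
    Par N (Fintype.card F) K → ∀ (h : Lab → F) (G : Finset F), GOK h G →
    (#{ω : F → G × Typ | ¬ ActP (cf ω)} : ℝ) ≤ (Fintype.card (F → G × Typ) : ℝ) / 10 := by
  refine ⟨10, by norm_num, fun F _ _ K H h G hG => ?_⟩
  have hq' : (10 : ℝ) ^ 10 ≤ Fintype.card F := by exact_mod_cast FewAct.big H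
  have hT : (0 : ℝ) ≤ Fintype.card (F → G × Typ) := Nat.cast_nonneg _
  have h1 := FewAct.expmom (fun (_ : F) (c : G × Typ) => act c.2) (1 / 100000) (fun _ => by
      have h2 : #{c : G × Typ | act c.2} ≤ #(univ : Finset (G × Lab × Lab)) := by
        refine card_le_card_of_injOn (fun c => (c.1, c.2.1, c.2.2.1)) (fun _ _ => mem_coe.2 (mem_univ _))
          fun c hc c' hc' hcc => ?_
        simp only [coe_filter, mem_univ, true_and, Set.mem_ofPred_eq] at hc hc'
        simp only [Prod.mk.injEq] at hcc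
        exact Prod.ext hcc.1 (Prod.ext hcc.2.1 (Prod.ext hcc.2.2 (hc.1.trans hc'.1.symm)))
      rw [card_univ] at h2
      simp only [Fintype.card_prod, Fintype.card_fin] at h2 ⊢
      have h3 : (#{c : G × Typ | act c.2} : ℝ) ≤ ((Fintype.card G * (3 * 4 * (3 * 4)) : ℕ) : ℝ) := by
        exact_mod_cast h2
      push_cast at h3 ⊢
      linarith)
    {ω : F → G × Typ | ¬ ActP (cf ω)} (Real.exp (Fintype.card F / 40)) fun ω hω => by
      have h2 := (mem_filter.1 hω).2
      simp only [ActP, not_le] at h2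
      have h3 : Real.exp (1 / 2) ≤ 2 := by
        have h4 : Real.exp (1 / 2) * Real.exp (1 / 2) = Real.exp 1 := by rw [← Real.exp_add]; norm_num
        nlinarith [Real.exp_one_lt_d9, Real.exp_pos (1 / 2)]
      refine le_trans ?_ (pow_le_pow_left₀ (Real.exp_pos _).le h3 _)
      rw [← Real.exp_nat_mul, Real.exp_le_exp]
      have h5 : (#{t | act (cf ω t).2} : ℝ) = #{t | act (ω t).2} := rfl
      linarith
  have h2 : 10 * Real.exp (1 / 100000 * Fintype.card F) ≤ Real.exp (Fintype.card F / 40) := by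
    have h3 : (Fintype.card F / 40 : ℝ) = (Fintype.card F / 40 - 1 / 100000 * Fintype.card F) +
      1 / 100000 * Fintype.card F := by ring
    rw [h3, Real.exp_add]
    refine mul_le_mul_of_nonneg_right (le_trans ?_ (Real.add_one_le_exp _)) (Real.exp_pos _).le
    linarith
  have h6 : (0 : ℝ) ≤ #{ω : F → G × Typ | ¬ ActP (cf ω)} := Nat.cast_nonneg _
  have h7 := le_of_mul_le_mul_right (a := Real.exp (1 / 100000 * Fintype.card F))
    (b := (#{ω : F → G × Typ | ¬ ActP (cf ω)} : ℝ) * 10) (c := Fintype.card (F → G × Typ))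
    (by nlinarith) (Real.exp_pos _)
  linarith

theorem exists_GOK (F : Type) [Field F] [Fintype F] (hq : 12 ≤ Fintype.card F) :
    ∃ (h : Lab → F) (G : Finset F), GOK h G := by
  obtain ⟨h⟩ : Nonempty (Lab ↪ F) := Function.Embedding.nonempty_of_card_le (by simpa using hq)
  let r : Lab × Lab × Lab × Lab → F := fun x =>
    (h x.1 * h x.2.1 - h x.2.2.1 * h x.2.2.2) / (h x.1 + h x.2.1 - h x.2.2.1 - h x.2.2.2)
  refine ⟨h, (univ.image h ∪ univ.image r)ᶜ, h.injective, fun η hη k hk => ?_, fun η hη k l k' l' H => ?_, ?_⟩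
  · exact mem_compl.1 hη (mem_union_left _ (mem_image.2 ⟨k, mem_univ _, hk⟩))
  · by_cases hc : h k + h l - h k' - h l' = 0
    · have h1 : (h k - h k') * (h k - h l') = 0 := by linear_combination (h k - η) * hc - H
      rcases mul_eq_zero.1 h1 with h2 | h2
      · exact Or.inl ⟨h.injective (sub_eq_zero.1 h2), h.injective (by linear_combination hc - h2)⟩
      · exact Or.inr ⟨h.injective (sub_eq_zero.1 h2), h.injective (by linear_combination hc - h2)⟩
    · refine (mem_compl.1 hη (mem_union_right _ (mem_image.2 ⟨(k, l, k', l'), mem_univ _, ?_⟩))).elim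
      simp only [r]
      rw [div_eq_iff hc]
      linear_combination H
  · have h1 := card_union_le (univ.image h) (univ.image r)
    have h2 := card_image_le (s := univ) (f := h)
    have h3 := card_image_le (s := univ) (f := r)
    rw [card_univ] at h2 h3
    simp only [Fintype.card_prod, Fintype.card_fin] at h2 h3
    have h4 := card_add_card_compl (univ.image h ∪ univ.image r)
    omega

theorem exists_Par (N : ℕ) : ∃ q₀ : ℕ, ∀ q, q₀ ≤ q → ∃ K, Par N q K := by
  have h1 := (tendsto_pow_const_div_const_pow_of_one_lt N (r := 2) one_lt_two).eventually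
    (eventually_le_nhds (show (0 : ℝ) < 1 / (2 * (N + 1) ^ N) by positivity))
  obtain ⟨L₀, hL⟩ := Filter.eventually_atTop.1 h1
  refine ⟨2 ^ L₀, fun q hq => ⟨N * (Nat.log 2 q + 1), Nat.le_mul_of_pos_right _ (Nat.succ_pos _), ?_, ?_⟩⟩
  · have hq0 : q ≠ 0 := by
      have := Nat.one_le_two_pow (n := L₀)
      omega
    have h2 := hL (Nat.log 2 q + 1) (Nat.le_succ_of_le (Nat.le_log_of_pow_le one_lt_two hq))
    refine le_trans ?_ (Nat.pow_log_le_self 2 hq0)
    rw [div_le_div_iff₀ (by positivity) (by positivity), pow_succ (2 : ℝ)] at h2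
    have h3 : ((Nat.log 2 q + 1) ^ N * (N + 1) ^ N : ℕ) ≤ 2 ^ Nat.log 2 q := by
      have h4 : (((Nat.log 2 q + 1) ^ N * (N + 1) ^ N : ℕ) : ℝ) ≤ ((2 ^ Nat.log 2 q : ℕ) : ℝ) := by
        push_cast at h2 ⊢
        linarith
      exact_mod_cast h4
    refine le_trans ?_ h3
    rw [mul_pow, mul_comm]
    exact Nat.mul_le_mul_left _ (Nat.pow_le_pow_left (Nat.le_succ _) _)
  · rw [mul_comm, pow_mul]
    exact Nat.pow_le_pow_left (Nat.lt_pow_succ_log_self one_lt_two q).le _

end Crest.Agent.R34
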