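import Crest.Agent.R34.Defs

/-! # Row 34: incidence geometry of lines, parts and gadget lines (all proved) -/

set_option autoImplicit false
open Classical Finset

namespace Crest.Agent.R34

theorem Par.mono {N N' q K : ℕ} (H : Par N q K) (hN : N' ≤ N) (hN' : 1 ≤ N') : Par N' q K := by
  obtain ⟨h1, h2, h3⟩ := H
  have hK : 1 ≤ K := by omega
  have hq : 1 ≤ q := le_trans (Nat.one_le_pow _ _ hK) h2
  exact ⟨by omega, le_trans (Nat.pow_le_pow_right hK hN) h2,
    le_trans (Nat.pow_le_pow_right hq hN) h3⟩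

variable {F : Type} [Field F]

theorem line_ext {i j : Option F} (hij : i ≠ j) {μ ν : F × F} (hi : ph i μ = ph i ν)
    (hj : ph j μ = ph j ν) : μ = ν := by
  rcases i with _ | s <;> rcases j with _ | t
  · exact absurd rfl hij
  · simp only [ph_none, ph_some] at hi hj
    refine Prod.ext hi ?_
    rw [hi] at hj; exact add_left_cancel hj
  · simp only [ph_none, ph_some] at hi hj
    refine Prod.ext hj ?_
    rw [hj] at hi; exact add_left_cancel hi
  · simp only [ph_some] at hi hj
    have hst : s - t ≠ 0 := sub_ne_zero.2 fun h => hij (by rw [h])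
    have h1 : μ.1 = ν.1 := by
      have : (μ.1 - ν.1) * (s - t) = 0 := by linear_combination hi - hj
      exact sub_eq_zero.1 ((mul_eq_zero.1 this).resolve_right hst)
    refine Prod.ext h1 ?_
    rw [h1] at hi; exact add_left_cancel hi

theorem line_exists {i j : Option F} (hij : i ≠ j) (y z : F) :
    ∃ μ : F × F, ph i μ = y ∧ ph j μ = z := by
  rcases i with _ | s <;> rcases j with _ | t
  · exact absurd rfl hij
  · exact ⟨(y, z - y * t), rfl, by simp⟩
  · exact ⟨(z, y - z * s), by simp, rfl⟩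
  · have hst : s - t ≠ 0 := sub_ne_zero.2 fun h => hij (by rw [h])
    refine ⟨((y - z) / (s - t), y - (y - z) / (s - t) * s), by simp, ?_⟩
    simp only [ph_some]; field_simp; ring

theorem meet_exists (μ ν : F × F) : ∃ i, ph i μ = ph i ν := by
  by_cases h : μ.1 = ν.1
  · exact ⟨none, h⟩
  · have h' : μ.1 - ν.1 ≠ 0 := sub_ne_zero.2 h
    refine ⟨some ((ν.2 - μ.2) / (μ.1 - ν.1)), ?_⟩
    simp only [ph_some]; field_simp; ring

theorem join_left {p p' : V F} (hp : p.1 ≠ p'.1) : ph p.1 (join p p') = p.2 := by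
  have H := line_exists hp p.2 p'.2
  unfold join; rw [dif_pos H]; exact H.choose_spec.1

theorem join_right {p p' : V F} (hp : p.1 ≠ p'.1) : ph p'.1 (join p p') = p'.2 := by
  have H := line_exists hp p.2 p'.2
  unfold join; rw [dif_pos H]; exact H.choose_spec.2

theorem join_eq {p p' : V F} (hp : p.1 ≠ p'.1) {μ : F × F} (h1 : ph p.1 μ = p.2)
    (h2 : ph p'.1 μ = p'.2) : join p p' = μ :=
  line_ext hp (by rw [join_left hp, h1]) (by rw [join_right hp, h2])

theorem join_comm {p p' : V F} (hp : p.1 ≠ p'.1) : join p p' = join p' p :=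
  join_eq hp (join_right hp.symm) (join_left hp.symm)

/-- two different points of a line lie in different parts. -/
theorem part_ne_of_on {μ : F × F} {p p' : V F} (h1 : ph p.1 μ = p.2) (h2 : ph p'.1 μ = p'.2)
    (hne : p ≠ p') : p.1 ≠ p'.1 := by
  intro h; apply hne; refine Prod.ext h ?_; rw [← h1, ← h2, h]

/-- a non-horizontal line takes every height in exactly one column. -/
theorem ph_some_inj {μ : F × F} (hμ : μ.1 ≠ 0) {s t : F} (h : ph (some s) μ = ph (some t) μ) :
    s = t := by
  simp only [ph_some] at h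
  exact mul_left_cancel₀ hμ (add_right_cancel h)

theorem ph_some_bij {μ : F × F} (hμ : μ.1 ≠ 0) : Function.Bijective fun t : F => ph (some t) μ :=
  ⟨fun _ _ h => ph_some_inj hμ h, fun y => ⟨(y - μ.2) / μ.1, by simp only [ph_some]; field_simp; ring⟩⟩

section gadget
variable {h : Lab → F} {t η w : F}

theorem gl_center (k : Lab) : ph (some t) (gl h t η w k) = η := by simp [gl]

theorem gl_slope {k : Lab} (hk : h k ≠ η) (hw : w ≠ 0) : (gl h t η w k).1 ≠ 0 :=
  inv_ne_zero (mul_ne_zero (sub_ne_zero.2 hk) hw)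

theorem xc_comm (k l : Lab) : xc h t η w k l = xc h t η w l k := by unfold xc; ring

theorem xc_ne {k l : Lab} (hk : h k ≠ η) (hl : h l ≠ η) (hw : w ≠ 0) : xc h t η w k l ≠ t := by
  unfold xc
  have := mul_ne_zero (mul_ne_zero (sub_ne_zero.2 hk) (sub_ne_zero.2 hl)) hw
  intro H; apply this; linear_combination H

theorem gl_link {k : Lab} (l : Lab) (hk : h k ≠ η) (hw : w ≠ 0) :
    ph (some (xc h t η w k l)) (gl h t η w k) = h l := by
  have := sub_ne_zero.2 hk
  simp only [ph_some, gl, xc]; field_simp; ring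

theorem gl_inj (hh : Function.Injective h) (hw : w ≠ 0) {k l : Lab}
    (H : (gl h t η w k).1 = (gl h t η w l).1) : k = l := by
  simp only [gl] at H
  have h1 := mul_right_cancel₀ hw (inv_injective H)
  exact hh (sub_left_injective h1)

/-- the parameter `w` is determined by the slope of the gadget line. -/
theorem gl_param {k : Lab} (hk : h k ≠ η) {w' : F}
    (H : (gl h t η w k).1 = (gl h t η w' k).1) : w = w' := by
  simp only [gl] at H
  exact mul_left_cancel₀ (sub_ne_zero.2 hk) (inv_injective H)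

end gadget

variable [Fintype F]

/-- two different blocks share at most one point. -/
theorem blk_inter {β β' : Option F ⊕ F × F} (hβ : β ≠ β') {p p' : V F} (h1 : p ∈ blk β)
    (h2 : p ∈ blk β') (h3 : p' ∈ blk β) (h4 : p' ∈ blk β') : p = p' := by
  by_contra hne
  rcases β with i | μ <;> rcases β' with j | ν <;>
    simp only [blk_inl, blk_inr, mem_pt, mem_ln] at h1 h2 h3 h4
  · exact hβ (by rw [← h1, ← h2])
  · exact part_ne_of_on h2 h4 hne (by rw [h1, h3])
  · exact part_ne_of_on h1 h3 hne (by rw [h2, h4])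
  · exact hβ (by
      rw [line_ext (part_ne_of_on h1 h3 hne) (h1.trans h2.symm) (h3.trans h4.symm)])

theorem card_inter_blk_le {β β' : Option F ⊕ F × F} (hβ : β ≠ β') :
    #(blk β ∩ blk β') ≤ 1 := by
  refine card_le_one.2 fun p hp p' hp' => ?_
  rw [mem_inter] at hp hp'
  exact blk_inter hβ hp.1 hp.2 hp'.1 hp'.2

theorem mem_SS {h : Lab → F} {ω : F → F × Typ} {μ : F × F} :
    μ ∈ SS h ω ↔ ∀ i, ¬ rem h ω (i, ph i μ) := by
  simp only [SS, mem_filter, mem_univ, true_and]
  constructor
  · rintro ⟨h1, h2⟩ i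
    rcases i with _ | t
    · exact h1
    · exact h2 t
  · intro H; exact ⟨H none, fun t => H (some t)⟩

/-- for a true point, `DD` consists of the lines of `SS` through it. -/
theorem mem_DD_true {h : Lab → F} {ω : F → F × Typ} {p : V F} (hp : ¬ rem h ω p) {μ : F × F} :
    μ ∈ DD h ω p ↔ μ ∈ SS h ω ∧ ph p.1 μ = p.2 := by
  simp only [SS, DD, mem_filter, mem_univ, true_and]
  constructor
  · rintro ⟨h1, h2, h3⟩
    refine ⟨⟨h1, fun t => ?_⟩, h2⟩
    by_cases ht : some t = p.1
    · obtain ⟨i, y⟩ := p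
      simp only at ht h2; subst ht; rw [h2]; exact hp
    · exact h3 t ht
  · rintro ⟨⟨h1, h3⟩, h2⟩; exact ⟨h1, h2, fun t _ => h3 t⟩

theorem mem_DD {h : Lab → F} {ω : F → F × Typ} {p : V F} (hp : p ≠ (none, 0)) {μ : F × F} :
    μ ∈ DD h ω p ↔ ph p.1 μ = p.2 ∧ ∀ i, i ≠ p.1 → ¬ rem h ω (i, ph i μ) := by
  simp only [DD, mem_filter, mem_univ, true_and]
  constructor
  · rintro ⟨h1, h2, h3⟩
    refine ⟨h2, fun i hi => ?_⟩
    rcases i with _ | t
    · exact h1
    · exact h3 t hi
  · rintro ⟨h2, h3⟩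
    refine ⟨?_, h2, fun t ht => h3 (some t) ht⟩
    obtain ⟨i, y⟩ := p
    rcases i with _ | s
    · intro h0; apply hp; simp only [ph_none] at h2; rw [← h2, h0]
    · exact h3 none (by simp)

omit [Fintype F] in
theorem rem_cen (h : Lab → F) (ω : F → F × Typ) (i : Option F) : rem h ω (i, cen ω i) := by
  rcases i with _ | t
  · simp
  · exact Or.inl rfl

omit [Fintype F] in
theorem enc_true {h : Lab → F} {ω : F → F × Typ} {i : Option F} {y : F} (hy : ¬ rem h ω (i, y)) :
    enc h ω i y = some y := by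
  rcases i with _ | t
  · rfl
  · rw [enc_some, if_neg]
    rintro ⟨h1, h2⟩; exact hy (Or.inr ⟨h1, Or.inr h2⟩)

omit [Fintype F] in
theorem gL_center (h : Lab → F) (ω : F → F × Typ) (w : F → F) (i : Option F) (k : Lab) :
    ph i (gL h ω w i k) = cen ω i := by
  rcases i with _ | t
  · rfl
  · exact gl_center k

/-- a gadget line avoids the centres of the other parts. -/
theorem gL_avoid {h : Lab → F} {G : Finset F} {ω : F → F × Typ} {w : F → F} (hG : GOK h G)
    (hm : ∀ t, (ω t).1 ∈ G) (hw : ∀ t, good h ω t (ω t).1 (w t)) {i j : Option F} (hij : j ≠ i)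
    (k : Lab) : ph j (gL h ω w i k) ≠ cen ω j := by
  rcases i with _ | t <;> rcases j with _ | s
  · exact absurd rfl hij
  · simpa using hG.ne _ (hm s) k
  · exact gl_slope (hG.ne _ (hm t) k) (hw t).1
  · exact (hw t).2.2.2 k s fun H => hij (by rw [H])

theorem gL_inj {h : Lab → F} {G : Finset F} {ω : F → F × Typ} {w : F → F} (hG : GOK h G)
    (hw : ∀ t, good h ω t (ω t).1 (w t)) (i : Option F) : Function.Injective (gL h ω w i) := by
  intro k l H
  rcases i with _ | t
  · exact hG.inj (congrArg Prod.snd H)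
  · exact gl_inj hG.inj (hw t).1 (congrArg Prod.fst H)

/-- different gadget lines of the part `i` differ in every other part. -/
theorem gL_ph_inj {h : Lab → F} {G : Finset F} {ω : F → F × Typ} {w : F → F} (hG : GOK h G)
    (hw : ∀ t, good h ω t (ω t).1 (w t)) {i j : Option F} (hij : j ≠ i) {k l : Lab}
    (H : ph j (gL h ω w i k) = ph j (gL h ω w i l)) : k = l :=
  gL_inj hG hw i (line_ext hij H (by rw [gL_center, gL_center]))

theorem e0_mem_EE {h : Lab → F} {ω : F → F × Typ} (w : F → F) {μ : F × F}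
    (hμ : ∀ i, ph i μ ≠ cen ω i) : e0 h ω μ ∈ EE h ω w :=
  mem_union_left _ (mem_image_of_mem _ (by simpa using hμ))

theorem gE_mem_EE (h : Lab → F) (ω : F → F × Typ) (w : F → F) (i : Option F) (k : Lab) :
    gE h ω w i k ∈ EE h ω w :=
  mem_union_right _ (mem_image.2 ⟨(i, k), mem_univ _, rfl⟩)

end Crest.Agent.R34
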