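import Crest.Agent.R34.Geo
import Crest.Agent.R34.McD

/-!
# Row 34: many good gadget parameters

`q = card F`, `g = #G ≥ q - 21000 ≥ q/2`.  Fix `t`, `η ∈ G`, `f ω = #{w | good h (cf ω) t η w}`.
* Mean: for `w ≠ 0`, `good` holds as soon as `ω s ∈ A s` for all columns `s`, where
  `A s = {(η', τ) | η' ∉ {ph (some s) (gl h t η w k) : k}, τ ∈ T s}`, `T s = univ` if `s` is no `xc h t η w k l`, and otherwise
  `T s = {τ s}` is one type: `(k,l,0)` if `s = xc k l` with `k.1 < l.1` (unique by `GOK.sep`, and then `s` is no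
  `xc k' l'` with `k'.1 = l'.1`), an inactive type such as `(k,k,0)` else.  At most 144 columns are special, so the
  probability is `≥ (1 - 12/g)^q · (card Typ)^(-144) ≥ c1 := exp (-48) / (card Typ)^144` (`1 - x ≥ exp (-2x)`, `x ≤ 1/2`).
  Keep `c1` abstract (never let `norm_num` evaluate the power); choose `N ≥ 4 / c1`.
* Bounded differences ≤ 168 ≤ 200: changing column `s` can only affect those `w` with `s = xc h t η w k l` for some `k l`
  (≤ 144 values) or `s ≠ t` and `ph (some s) (gl h t η w k)` = old or new centre (≤ 12 values each; `gl_param`, `line_ext`).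
* `mcd_union` with `J = F × G`: `f ≥ (q-1) c1 - K √q / 2 ≥ 2q/K - q/K` (`K^4 ≤ q`).
-/

set_option autoImplicit false
open Classical Finset

namespace Crest.Agent.R34

theorem gw_diff {F : Type} [Field F] [Fintype F] {h : Lab → F} {η : F} (hη : ∀ k, h k ≠ η) (t s : F)
    (ω ω' : F → F × Typ) (H : ∀ u, u ≠ s → ω u = ω' u) :
    (#{w | good h ω t η w} : ℝ) ≤ #{w | good h ω' t η w} + 156 := by
  have hsub : ({w | good h ω t η w} : Finset F) ⊆ ({w | good h ω' t η w} : Finset F) ∪
      (((univ : Finset (Lab × Lab)).image fun x => (s - t) / ((h x.1 - η) * (h x.2 - η))) ∪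
        (univ : Finset Lab).image fun k => (((ω' s).1 - η) / (s - t))⁻¹ / (h k - η)) := by
    intro w hw
    by_contra hc
    simp only [mem_union, mem_filter, mem_univ, true_and, mem_image, not_or, not_exists] at hw hc
    obtain ⟨hc1, hc2, hc3⟩ := hc
    obtain ⟨g0, g1, g2, g3⟩ := hw
    have hx : ∀ k l, xc h t η w k l ≠ s := by
      intro k l e
      apply hc2 (k, l)
      have := sub_ne_zero.2 (hη k)
      have := sub_ne_zero.2 (hη l)
      rw [← e]; simp only [xc]; field_simp; ring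
    refine hc1 ⟨g0, fun k l hkl => ?_, fun k l hkl => ?_, fun k u hu => ?_⟩
    · rw [← H _ (hx k l)]; exact g1 k l hkl
    · rw [← H _ (hx k l)]; exact g2 k l hkl
    · by_cases hus : u = s
      · subst hus
        intro e
        apply hc3 k
        have := sub_ne_zero.2 (hη k)
        have := sub_ne_zero.2 hu
        have e2 : ((ω' u).1 - η) / (u - t) = ((h k - η) * w)⁻¹ := by
          rw [← e, div_eq_iff (sub_ne_zero.2 hu)]; simp only [ph_some, gl]; ring
        rw [e2, inv_inv]; field_simp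
      · rw [← H _ hus]; exact g3 k u hu
  have h1 := (card_le_card hsub).trans ((card_union_le _ _).trans (Nat.add_le_add_left
    ((card_union_le _ _).trans (Nat.add_le_add card_image_le card_image_le)) _))
  simp only [card_univ, Fintype.card_prod, Fintype.card_fin] at h1
  exact_mod_cast h1

theorem gw_single {F : Type} [Field F] [Fintype F] {h : Lab → F} {G : Finset F} (hG : GOK h G)
    (hg : 24 ≤ #G) (hq : Fintype.card F ≤ 2 * #G) (t : F) {η : F} (hη : η ∈ G) {w : F} (hw : w ≠ 0) :
    Real.exp (-48) / (Fintype.card Typ : ℝ) ^ 144 * Fintype.card (F → G × Typ) ≤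
      (#{ω : F → G × Typ | good h (cf ω) t η w} : ℝ) := by
  set Xs : Finset F := (univ : Finset (Lab × Lab)).image fun x => xc h t η w x.1 x.2 with hXs
  have hXc : #Xs ≤ 144 := card_image_le.trans (by simp)
  have hsep : ∀ k l k' l' : Lab, xc h t η w k l = xc h t η w k' l' →
      (k = k' ∧ l = l') ∨ (k = l' ∧ l = k') := by
    intro k l k' l' e
    refine hG.sep η hη k l k' l' (mul_right_cancel₀ hw ?_)
    simp only [xc] at e
    exact add_left_cancel e
  obtain ⟨τ, hτ1, hτ2⟩ : ∃ τ : F → Typ, (∀ k l : Lab, k.1 < l.1 → τ (xc h t η w k l) = (k, l, 0)) ∧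
      ∀ k l : Lab, k.1 = l.1 → ¬ act (τ (xc h t η w k l)) := by
    refine ⟨fun s => if H : ∃ x : Lab × Lab, x.1.1 < x.2.1 ∧ s = xc h t η w x.1 x.2 then
      (H.choose.1, H.choose.2, 0) else ((0, 0), (0, 0), 0), fun k l hkl => ?_, fun k l hkl => ?_⟩
    · have H : ∃ x : Lab × Lab, x.1.1 < x.2.1 ∧ xc h t η w k l = xc h t η w x.1 x.2 :=
        ⟨(k, l), hkl, rfl⟩
      simp only [dif_pos H]
      obtain ⟨a, b⟩ := H.choose_spec
      rcases hsep _ _ _ _ b with ⟨e1, e2⟩ | ⟨e1, e2⟩
      · rw [← e1, ← e2]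
      · rw [← e1, ← e2] at a; exact absurd hkl (not_lt.2 a.le)
    · have H : ¬ ∃ x : Lab × Lab, x.1.1 < x.2.1 ∧ xc h t η w k l = xc h t η w x.1 x.2 := by
        rintro ⟨x, a, b⟩
        rcases hsep _ _ _ _ b with ⟨e1, e2⟩ | ⟨e1, e2⟩
        · rw [← e1, ← e2, hkl] at a; exact lt_irrefl _ a
        · rw [← e1, ← e2, hkl] at a; exact lt_irrefl _ a
      simp only [dif_neg H]
      exact fun a => lt_irrefl _ a.2
  set A : F → Finset (G × Typ) := fun s =>
    ({c : G | ∀ k, ph (some s) (gl h t η w k) ≠ c.1} : Finset G) ×ˢ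
      (if s ∈ Xs then {τ s} else univ) with hA
  have hsub : Fintype.piFinset A ⊆ ({ω : F → G × Typ | good h (cf ω) t η w} : Finset _) := by
    intro ω hω
    rw [Fintype.mem_piFinset] at hω
    have hx : ∀ k l, (ω (xc h t η w k l)).2 = τ (xc h t η w k l) := by
      intro k l
      have h1 := hω (xc h t η w k l)
      have h0 : xc h t η w k l ∈ Xs := mem_image.2 ⟨(k, l), mem_univ _, rfl⟩
      simp only [hA, mem_product, h0, if_true, mem_singleton] at h1
      exact h1.2
    refine mem_filter.2 ⟨mem_univ _, hw, fun k l hkl => ?_, fun k l hkl => ?_, fun k s _ => ?_⟩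
    · exact (hx k l).trans (hτ1 k l hkl)
    · change ¬ act (ω _).2
      rw [hx]; exact hτ2 k l hkl
    · have h1 := hω s
      simp only [hA, mem_product, mem_filter] at h1
      exact h1.1.2 k
  obtain ⟨y, hy⟩ : ∃ y : ℝ, y = Fintype.card Typ := ⟨_, rfl⟩
  have hy1 : 1 ≤ y := by
    rw [hy]; exact_mod_cast Fintype.card_pos
  have hy0 : 0 < y := by linarith
  have hg0 : (24 : ℝ) ≤ #G := by exact_mod_cast hg
  have hg1 : (0 : ℝ) < #G := by linarith
  have hAs : ∀ s, Real.exp (-(24 / #G)) * (#G * y) * (if s ∈ Xs then 1 / y else 1) ≤ #(A s) := by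
    intro s
    have h1 : (#G : ℝ) - 12 ≤ #{c : G | ∀ k, ph (some s) (gl h t η w k) ≠ c.1} := by
      have h2 : #{c : G | ¬ ∀ k, ph (some s) (gl h t η w k) ≠ c.1} ≤
          #((univ : Finset Lab).image fun k => ph (some s) (gl h t η w k)) := by
        refine card_le_card_of_injOn Subtype.val (fun c hc => ?_) Subtype.val_injective.injOn
        simp only [coe_filter, mem_univ, true_and, Set.mem_ofPred_eq, not_forall, not_not] at hc
        obtain ⟨k, hk⟩ := hc
        exact mem_coe.2 (mem_image.2 ⟨k, mem_univ _, hk⟩)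
      have h3 : #((univ : Finset Lab).image fun k => ph (some s) (gl h t η w k)) ≤ 12 :=
        card_image_le.trans (by simp)
      have h4 := card_filter_add_card_filter_not (s := (univ : Finset G))
        (fun c : G => ∀ k, ph (some s) (gl h t η w k) ≠ c.1)
      rw [card_univ, Fintype.card_coe] at h4
      have h5 : #G ≤ #{c : G | ∀ k, ph (some s) (gl h t η w k) ≠ c.1} + 12 := by omega
      have h6 : (#G : ℝ) ≤ #{c : G | ∀ k, ph (some s) (gl h t η w k) ≠ c.1} + 12 := by
        exact_mod_cast h5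
      linarith
    have h2 : Real.exp (-(24 / #G)) * #G ≤ #G - 12 := by
      have h3 := Real.add_one_le_exp (24 / (#G : ℝ))
      rw [Real.exp_neg, inv_mul_le_iff₀ (Real.exp_pos _)]
      refine le_trans ?_ (mul_le_mul_of_nonneg_right h3 (by linarith))
      have : (24 / (#G : ℝ) + 1) * (#G - 12) = #G + 12 - 12 * (24 / #G) := by field_simp; ring
      rw [this]
      have : 24 / (#G : ℝ) ≤ 1 := by rw [div_le_one hg1]; exact hg0
      linarith
    have h3 : y * (if s ∈ Xs then 1 / y else 1) =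
        (#(if s ∈ Xs then {τ s} else univ : Finset Typ) : ℝ) := by
      split_ifs
      · rw [card_singleton]; field_simp; simp
      · rw [card_univ, mul_one, hy]
    simp only [hA, card_product]
    push_cast
    rw [← h3]
    calc _ = (Real.exp (-(24 / #G)) * #G) * (y * (if s ∈ Xs then 1 / y else 1)) := by ring
      _ ≤ _ := mul_le_mul_of_nonneg_right (h2.trans h1) (by rw [h3]; exact Nat.cast_nonneg _)
  refine le_trans ?_ (Nat.cast_le.2 (card_le_card hsub))
  rw [Fintype.card_piFinset]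
  push_cast
  refine le_trans ?_ (prod_le_prod (fun s _ => by split_ifs <;> positivity) fun s _ => hAs s)
  rw [prod_mul_distrib, prod_const, card_univ, mul_pow, prod_ite_mem, univ_inter, prod_const,
    Fintype.card_fun, Fintype.card_prod G Typ, Fintype.card_coe, ← hy]
  push_cast
  rw [← hy]
  have h1 : Real.exp (-48) ≤ Real.exp (-(24 / #G)) ^ Fintype.card F := by
    rw [← Real.exp_nat_mul]
    refine Real.exp_le_exp.2 ?_
    have : (Fintype.card F : ℝ) ≤ 2 * #G := by exact_mod_cast hq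
    have h2 : (Fintype.card F : ℝ) * (24 / #G) ≤ 48 := by
      rw [← mul_div_assoc, div_le_iff₀ hg1]; linarith
    linarith
  have h2 : 1 / y ^ 144 ≤ (1 / y) ^ #Xs := by
    rw [one_div_pow]
    exact one_div_le_one_div_of_le (by positivity) (pow_le_pow_right₀ hy1 hXc)
  calc _ = Real.exp (-48) * (#G * y) ^ Fintype.card F * (1 / y ^ 144) := by ring
    _ ≤ _ := by gcongr

theorem good_prob : ∃ N : ℕ, 1 ≤ N ∧ ∀ (F : Type) [Field F] [Fintype F] (K : ℕ),
    Par N (Fintype.card F) K → ∀ (h : Lab → F) (G : Finset F), GOK h G →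
    (#{ω : F → G × Typ | ¬ GoodP h G K (cf ω)} : ℝ) ≤
      (Fintype.card (F → G × Typ) : ℝ) / 10 := by
  obtain ⟨N, hN, H⟩ := mcd_union
  obtain ⟨c1, hc1⟩ : ∃ c : ℝ, c = Real.exp (-48) / (Fintype.card Typ : ℝ) ^ 144 := ⟨_, rfl⟩
  have hc0 : 0 < c1 := by
    rw [hc1]; exact div_pos (Real.exp_pos _) (pow_pos (by exact_mod_cast Fintype.card_pos) _)
  refine ⟨N + 50000 + ⌈4 / c1⌉₊, by omega, fun F _ _ K hP h G hG => ?_⟩
  have hq : 50000 ≤ Fintype.card F := by
    obtain ⟨a, b, -⟩ := hP.mono (N' := 1) (by omega) le_rfl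
    have := hP.1
    rw [pow_one] at b; omega
  have hbig := hG.big
  have hGne : G.Nonempty := card_pos.1 (by omega)
  have : Nonempty G := hGne.to_subtype
  have A := H F (G × Typ) (F × G) K (hP.mono (by omega) hN) (by
      rw [Fintype.card_prod, Fintype.card_coe]
      calc _ ≤ Fintype.card F * Fintype.card F := Nat.mul_le_mul_left _ (card_le_univ G)
        _ = Fintype.card F ^ 2 := by ring
        _ ≤ _ := Nat.pow_le_pow_right (by omega) (by norm_num))
    (fun j ω => (#{w | good h (cf ω) j.1 j.2.1 w} : ℝ)) (by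
      intro j ω i a
      have e : ∀ u, u ≠ i → cf (Function.update ω i a) u = cf ω u := fun u hu => by
        simp only [cf, Function.update_of_ne hu]
      have e2 := gw_diff (hG.ne _ j.2.2) j.1 i _ _ e
      have e3 := gw_diff (hG.ne _ j.2.2) j.1 i _ _ fun u hu => (e u hu).symm
      rw [abs_le]; constructor <;> linarith)
  refine le_trans ?_ A
  refine Nat.cast_le.2 (card_le_card fun ω hω => ?_)
  simp only [mem_filter, mem_univ, true_and, GoodP, not_forall, not_le] at hω ⊢
  obtain ⟨t, η, hη, hω⟩ := hω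
  refine ⟨(t, ⟨η, hη⟩), lt_of_lt_of_le ?_ (neg_le_abs _)⟩
  have hT : (0 : ℝ) < Fintype.card (F → G × Typ) := by exact_mod_cast Fintype.card_pos
  have hmean : ((Fintype.card F : ℝ) - 1) * c1 ≤
      (∑ ω' : F → G × Typ, (#{w | good h (cf ω') t η w} : ℝ)) / Fintype.card (F → G × Typ) := by
    rw [le_div_iff₀ hT]
    have e1 : ∑ ω' : F → G × Typ, (#{w | good h (cf ω') t η w} : ℝ) =
        ∑ w : F, (#{ω' : F → G × Typ | good h (cf ω') t η w} : ℝ) := by
      simp only [card_filter]; push_cast; exact sum_comm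
    rw [e1]
    have e2 : ∑ _w ∈ univ.erase (0 : F), c1 * Fintype.card (F → G × Typ) ≤
        ∑ w ∈ univ.erase (0 : F), (#{ω' : F → G × Typ | good h (cf ω') t η w} : ℝ) :=
      sum_le_sum fun w hw => by
        rw [hc1]; exact gw_single hG (by omega) (by omega) t hη (ne_of_mem_erase hw)
    refine le_trans (le_of_eq ?_) (e2.trans (sum_le_sum_of_subset_of_nonneg (subset_univ _)
      fun _ _ _ => Nat.cast_nonneg _))
    rw [sum_const, card_erase_of_mem (mem_univ _), card_univ, nsmul_eq_mul,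
      Nat.cast_sub (by omega), mul_assoc, Nat.cast_one]
  obtain ⟨q, hq'⟩ : ∃ q : ℝ, q = ((Fintype.card F : ℕ) : ℝ) := ⟨_, rfl⟩
  have hK4 : (K : ℝ) ^ 4 ≤ q := by
    rw [hq']; exact_mod_cast (hP.mono (N' := 4) (by omega) (by omega)).2.1
  have hq2 : (2 : ℝ) ≤ q := by rw [hq']; exact_mod_cast (by omega : 2 ≤ Fintype.card F)
  rw [← hq'] at hmean hω ⊢
  have hq0 : (0 : ℝ) ≤ q := by linarith
  have hK : (100 : ℝ) ≤ K := by have := hP.1; exact_mod_cast (by omega : 100 ≤ K)
  have hK0 : (0 : ℝ) < K := by linarith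
  have hKc : 4 / c1 ≤ K := by
    refine (Nat.le_ceil _).trans ?_
    have := hP.1; exact_mod_cast (by omega : ⌈4 / c1⌉₊ ≤ K)
  have hKn : (K : ℝ) ^ 2 ≤ √q := by
    apply Real.le_sqrt_of_sq_le; rw [← pow_mul]; exact hK4
  have h5 : K * √q ≤ q / K := by
    rw [le_div_iff₀ hK0]
    conv_rhs => rw [← Real.mul_self_sqrt hq0]
    have := mul_le_mul_of_nonneg_right hKn (Real.sqrt_nonneg q)
    linarith
  have h6 : 2 * (q / K) ≤ (q - 1) * c1 := by
    rw [div_le_iff₀ hc0] at hKc
    have h7 : 4 / (K : ℝ) ≤ c1 := by rw [div_le_iff₀ hK0]; linarith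
    calc 2 * (q / K) = q / 2 * (4 / K) := by ring
      _ ≤ (q - 1) * c1 := mul_le_mul (by linarith) h7 (by positivity) (by linarith)
  have h7 : 0 ≤ K * √q := by positivity
  simp only
  linarith

end Crest.Agent.R34
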