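import Crest.Agent.R34.Geo

/-!
# Row 34: projective coordinates (from an incidence structure to a sum-product structure)

`ph i` is linear in `μ`.  Let `nv k : F × F` span its kernel: `nv (some t) = (1, -t)`, `nv none = (0, 1)`; for `k ≠ k'` the vectors
`nv k, nv k'` are linearly independent and `ph i (nv k) ≠ 0` for `i ≠ k`.  For `p = (i,y) ∉ ln Λ` put
`s k p = ph i (nv k) / (y - ph i Λ)`.  If `c ∈ ln Λ`, `p.1 ≠ c.1`, then `join p c = Λ + (s c.1 p)⁻¹ • nv c.1` (`join_eq`), so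
`s c.1 p` is a function `σ c.1` of the line `join p c` (e.g. `σ k μ` = the unique `s` with `s • (μ - Λ) = nv k`, or 0), and
`X = image (σ a.1) {μ ∈ R | a ∈ ln μ}`, `Y` likewise.  For `c ∈ Cs` (parts `a.1, b.1, c.1` are distinct, `part_ne_of_on`)
write `nv c.1 = l1 • nv a.1 + l2 • nv b.1`, `l1, l2 ≠ 0`, `ξ c = l2 / l1`; `ξ` is injective on `Cs`;
`s c.1 p = l1 (s a.1 p + ξ c * s b.1 p)`.  `p ↦ (s a.1 p, s b.1 p)` is injective on `{p ∉ ln Λ, p.1 ≠ a.1, p.1 ≠ b.1}`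
(the lines `join p a ≠ join p b` are determined and meet only in `p`, `line_ext`).  `Γ (ξ c)` = image of the set of `p`.
-/

set_option autoImplicit false
open Classical Finset

namespace Crest.Agent.R34

variable {F : Type} [Field F] [Fintype F]

namespace IncC

omit [Fintype F]

/-- spans the kernel of `ph k` -/
def nv (k : Option F) : F × F :=
  match k with
  | some t => (1, -t)
  | none => (0, 1)

theorem ph_nv_self (k : Option F) : ph k (nv k) = 0 := by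
  cases k <;> simp [nv]

theorem ph_nv_ne {i k : Option F} (h : i ≠ k) : ph i (nv k) ≠ 0 := by
  rcases i with _ | s <;> rcases k with _ | t
  · exact absurd rfl h
  · simp [nv]
  · simp [nv]
  · simp only [nv, ph_some, one_mul]
    intro h0
    apply h
    rw [show s = t by linear_combination h0]

theorem ph_lin (i : Option F) (x y : F) (μ ν : F × F) : ph i (x • μ + y • ν) = x * ph i μ + y * ph i ν := by
  cases i
  · simp
  · simp; ring

/-- coordinate of a point -/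
def s (Λ : F × F) (k : Option F) (p : V F) : F := ph p.1 (nv k) / (p.2 - ph p.1 Λ)

/-- coordinate of a line -/
def σ (Λ : F × F) (k : Option F) (μ : F × F) : F :=
  match k with
  | some _ => (μ.1 - Λ.1)⁻¹
  | none => (μ.2 - Λ.2)⁻¹

theorem join_formula {Λ : F × F} {c p : V F} (hc : ph c.1 Λ = c.2) (h : p.1 ≠ c.1) :
    join p c = (1 : F) • Λ + (s Λ c.1 p)⁻¹ • nv c.1 := by
  apply join_eq h
  · rw [ph_lin, s, inv_div, div_mul_cancel₀ _ (ph_nv_ne h)]; ring
  · rw [ph_lin, ph_nv_self, hc]; ring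

theorem σ_join {Λ : F × F} {c p : V F} (hc : ph c.1 Λ = c.2) (h : p.1 ≠ c.1) :
    σ Λ c.1 (join p c) = s Λ c.1 p := by
  rw [join_formula hc h]
  rcases c with ⟨_ | t, y⟩ <;> simp [σ, nv]

/-- first coefficient -/
def l1 (a b c : Option F) : F := ph b (nv c) / ph b (nv a)
/-- second coefficient -/
def l2 (a b c : Option F) : F := ph a (nv c) / ph a (nv b)

theorem nv_comb {a b : Option F} (hab : a ≠ b) (c : Option F) : nv c = l1 a b c • nv a + l2 a b c • nv b := by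
  apply line_ext hab
  · rw [ph_lin, ph_nv_self, l2, div_mul_cancel₀ _ (ph_nv_ne hab)]; ring
  · rw [ph_lin, ph_nv_self, l1, div_mul_cancel₀ _ (ph_nv_ne hab.symm)]; ring

theorem l1_ne {a b c : Option F} (hab : a ≠ b) (hbc : b ≠ c) : l1 a b c ≠ 0 :=
  div_ne_zero (ph_nv_ne hbc) (ph_nv_ne hab.symm)

theorem l2_ne {a b c : Option F} (hab : a ≠ b) (hac : a ≠ c) : l2 a b c ≠ 0 :=
  div_ne_zero (ph_nv_ne hac) (ph_nv_ne hab)

theorem xi_inj {a b c c' : Option F} (hab : a ≠ b) (hbc : b ≠ c) (hbc' : b ≠ c')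
    (h : l2 a b c / l1 a b c = l2 a b c' / l1 a b c') : c = c' := by
  by_contra hne
  apply ph_nv_ne hne
  have h1 := ph_nv_self c
  rw [nv_comb hab c, ph_lin] at h1
  rw [nv_comb hab c', ph_lin]
  have n1 := l1_ne hab hbc
  have n2 := l1_ne hab hbc'
  rw [div_eq_div_iff n1 n2] at h
  apply mul_left_cancel₀ n1
  linear_combination l1 a b c' * h1 - ph c (nv b) * h

theorem s_comb (Λ : F × F) {a b c : Option F} (hab : a ≠ b) (hbc : b ≠ c) (p : V F) :
    s Λ a p + l2 a b c / l1 a b c * s Λ b p = (l1 a b c)⁻¹ * s Λ c p := by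
  have n1 := l1_ne hab hbc
  simp only [s]
  rw [nv_comb hab c, ph_lin, div_eq_mul_inv, div_eq_mul_inv, div_eq_mul_inv, div_eq_mul_inv]
  field_simp

end IncC


theorem inc_coord (R : Finset (F × F)) (Λ : F × F) (a b : V F) (Cs : Finset (V F))
    (ha : a ∈ ln Λ) (hb : b ∈ ln Λ) (hab : a ≠ b) (hCs : Cs ⊆ ln Λ) (haC : a ∉ Cs) (hbC : b ∉ Cs)
    (T D : ℝ) (hT : ∀ c ∈ ln Λ, (#{μ ∈ R | c ∈ ln μ} : ℝ) ≤ T)
    (hD : ∀ c ∈ Cs, D ≤ (#{p : V F | p ∉ ln Λ ∧ (p.1 ≠ a.1 ∧ join p a ∈ R) ∧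
      (p.1 ≠ b.1 ∧ join p b ∈ R) ∧ (p.1 ≠ c.1 ∧ join p c ∈ R)} : ℝ)) :
    ∃ (X Y Ξ : Finset F) (Γ : F → Finset (F × F)), (#X : ℝ) ≤ T ∧ (#Y : ℝ) ≤ T ∧ #Ξ = #Cs ∧
      (0 : F) ∉ Ξ ∧ ∀ ξ ∈ Ξ, Γ ξ ⊆ X ×ˢ Y ∧ D ≤ #(Γ ξ) ∧
        (#((Γ ξ).image fun z => z.1 + ξ * z.2) : ℝ) ≤ T := by
  have ha' := (mem_ln _ _).mp ha
  have hb' := (mem_ln _ _).mp hb
  have hab' := part_ne_of_on ha' hb' hab
  have hc' : ∀ c ∈ Cs, ph c.1 Λ = c.2 := fun c hc => (mem_ln _ _).mp (hCs hc)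
  have hac : ∀ c ∈ Cs, a.1 ≠ c.1 := fun c hc => part_ne_of_on ha' (hc' c hc) (fun h => haC (h ▸ hc))
  have hbc : ∀ c ∈ Cs, b.1 ≠ c.1 := fun c hc => part_ne_of_on hb' (hc' c hc) (fun h => hbC (h ▸ hc))
  let ξ : V F → F := fun c => IncC.l2 a.1 b.1 c.1 / IncC.l1 a.1 b.1 c.1
  have hξ : ∀ c ∈ Cs, ∀ c' ∈ Cs, ξ c = ξ c' → c = c' := by
    intro c hc c' hc'' h
    have h1 := IncC.xi_inj hab' (hbc c hc) (hbc c' hc'') h
    exact Prod.ext h1 (by rw [← hc' c hc, ← hc' c' hc'', h1])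
  let P : V F → Finset (V F) := fun c => {p : V F | p ∉ ln Λ ∧ (p.1 ≠ a.1 ∧ join p a ∈ R) ∧
      (p.1 ≠ b.1 ∧ join p b ∈ R) ∧ (p.1 ≠ c.1 ∧ join p c ∈ R)}
  let f : V F → F × F := fun p => (IncC.s Λ a.1 p, IncC.s Λ b.1 p)
  have key : ∀ (c p : V F), ph c.1 Λ = c.2 → p.1 ≠ c.1 → join p c ∈ R →
      IncC.s Λ c.1 p ∈ ({μ ∈ R | c ∈ ln μ} : Finset _).image (IncC.σ Λ c.1) := fun c p hc h1 h2 =>
    mem_image.mpr ⟨join p c, mem_filter.mpr ⟨h2, (mem_ln _ _).mpr (join_right h1)⟩, IncC.σ_join hc h1⟩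
  refine ⟨({μ ∈ R | a ∈ ln μ} : Finset _).image (IncC.σ Λ a.1),
    ({μ ∈ R | b ∈ ln μ} : Finset _).image (IncC.σ Λ b.1), Cs.image ξ,
    fun x => (({c ∈ Cs | ξ c = x} : Finset _).biUnion P).image f,
    le_trans (by exact_mod_cast card_image_le) (hT a ha), le_trans (by exact_mod_cast card_image_le) (hT b hb),
    card_image_of_injOn hξ, ?_, ?_⟩
  · intro h0
    obtain ⟨c, hc, h0⟩ := mem_image.mp h0
    exact div_ne_zero (IncC.l2_ne hab' (hac c hc)) (IncC.l1_ne hab' (hbc c hc)) h0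
  · intro x hx
    obtain ⟨c, hc, rfl⟩ := mem_image.mp hx
    have e : ({c' ∈ Cs | ξ c' = ξ c} : Finset _) = {c} := by
      ext c'
      simp only [mem_filter, mem_singleton]
      exact ⟨fun h => hξ _ h.1 _ hc h.2, fun h => by rw [h]; exact ⟨hc, rfl⟩⟩
    simp only [e, singleton_biUnion]
    refine ⟨?_, ?_, ?_⟩
    · intro z hz
      obtain ⟨p, hp, rfl⟩ := mem_image.mp hz
      obtain ⟨-, -, h1, h2, -⟩ := mem_filter.mp hp
      exact mem_product.mpr ⟨key a p ha' h1.1 h1.2, key b p hb' h2.1 h2.2⟩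
    · rw [card_image_of_injOn]
      · exact hD c hc
      · intro p hp p' hp' h
        obtain ⟨-, h0, h1, h2, -⟩ := mem_filter.mp hp
        obtain ⟨-, -, h1', h2', -⟩ := mem_filter.mp hp'
        have e1 : join p a = join p' a := by
          rw [IncC.join_formula ha' h1.1, IncC.join_formula ha' h1'.1, show IncC.s Λ a.1 p = IncC.s Λ a.1 p'
            from congrArg Prod.fst h]
        have e2 : join p b = join p' b := by
          rw [IncC.join_formula hb' h2.1, IncC.join_formula hb' h2'.1, show IncC.s Λ b.1 p = IncC.s Λ b.1 p'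
            from congrArg Prod.snd h]
        by_contra hne
        have h3 : p.1 ≠ p'.1 := part_ne_of_on (join_left h1.1) (by rw [e1]; exact join_left h1'.1) hne
        have h4 : join p a = join p b := line_ext h3 (by rw [join_left h1.1, join_left h2.1])
          (by rw [e1, e2, join_left h1'.1, join_left h2'.1])
        have h5 : join p a = Λ := line_ext hab' (by rw [join_right h1.1, ha'])
          (by rw [h4, join_right h2.1, hb'])
        exact h0 ((mem_ln _ _).mpr (by rw [← h5, join_left h1.1]))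
    · refine le_trans ?_ (hT c (hCs hc))
      refine Nat.cast_le.mpr (le_trans (card_le_card (t := (({μ ∈ R | c ∈ ln μ} : Finset _).image
        (IncC.σ Λ c.1)).image fun y => (IncC.l1 a.1 b.1 c.1)⁻¹ * y) ?_) (card_image_le.trans card_image_le))
      intro y hy
      obtain ⟨z, hz, rfl⟩ := mem_image.mp hy
      obtain ⟨p, hp, rfl⟩ := mem_image.mp hz
      obtain ⟨-, -, -, -, h3⟩ := mem_filter.mp hp
      exact mem_image.mpr ⟨_, key c p (hc' c hc) h3.1 h3.2, (IncC.s_comb Λ hab' (hbc c hc) p).symm⟩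

end Crest.Agent.R34
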