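import Mathlib

/-!
# Row 34: one set with many good dilations

`W ξ = Xs ξ ×ˢ Ys ξ ⊆ X ×ˢ Y`, `#W ξ ≥ n²/M²`, `#(X ×ˢ Y) ≤ M² n²`.  Cauchy–Schwarz (double counting over points):
`∑_{ξ,ξ'} #(W ξ ∩ W ξ') ≥ (#Ξ)² n² / M^6`, so some `ξ0` has `∑_ξ #(W ξ ∩ W ξ0) ≥ #Ξ n² / M^6` and
`R = {ξ | n² / (2 M^6) ≤ #(W ξ ∩ W ξ0)}` has `≥ #Ξ / (2 M^8) ≥ n / M^10` elements.  For `ξ ∈ R`, `X* = Xs ξ ∩ Xs ξ0` and
`Y* = Ys ξ ∩ Ys ξ0` have `≥ n / (2 M^7)` elements.  `A = Ys ξ0`, `R0 = R.image (· / ξ0)`.  Ruzsa triangle inequalities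
(`Finset.ruzsa_triangle_inequality_sub_add_add`, `..._sub_sub_sub`): `#(A - A) ≤ M³ n` (through `Xs ξ0`, after dilating by `ξ0`),
`#(ξ • Y* - ξ0 • A) ≤ M² n² / #X* ≤ 2 M^9 n`, `#(ξ • A - ξ0 • A) ≤ #(A - A) · 2 M^9 n / #Y* ≤ 4 M^19 n ≤ M^22 #A`.
-/

set_option autoImplicit false
open Classical Finset Pointwise

namespace Crest.Agent.R34

theorem pg_inter {ι U : Type} [DecidableEq U] (Ξ : Finset ι) (S : Finset U) (W : ι → Finset U)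
    (hW : ∀ ξ ∈ Ξ, W ξ ⊆ S) :
    (∑ ξ ∈ Ξ, (#(W ξ) : ℝ)) ^ 2 ≤ #S * ∑ ξ0 ∈ Ξ, ∑ ξ ∈ Ξ, (#(W ξ ∩ W ξ0) : ℝ) := by
  have e : ∀ T : Finset U, T ⊆ S → (#T : ℝ) = ∑ u ∈ S, if u ∈ T then (1 : ℝ) else 0 := by
    intro T hT
    rw [sum_ite_mem, inter_eq_right.2 hT]; simp
  have e1 : ∑ ξ ∈ Ξ, (#(W ξ) : ℝ) = ∑ u ∈ S, ∑ ξ ∈ Ξ, if u ∈ W ξ then (1 : ℝ) else 0 := by
    rw [sum_comm]; exact sum_congr rfl fun ξ hξ => e _ (hW ξ hξ)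
  have e2 : ∑ ξ0 ∈ Ξ, ∑ ξ ∈ Ξ, (#(W ξ ∩ W ξ0) : ℝ) =
      ∑ u ∈ S, (∑ ξ ∈ Ξ, if u ∈ W ξ then (1 : ℝ) else 0) ^ 2 := by
    simp only [sq, sum_mul_sum]
    rw [sum_comm (s := S)]
    refine sum_congr rfl fun ξ0 _ => ?_
    rw [sum_comm (s := S)]
    refine sum_congr rfl fun ξ hξ => ?_
    rw [e _ (inter_subset_left.trans (hW ξ hξ))]
    refine sum_congr rfl fun u _ => ?_
    by_cases h1 : u ∈ W ξ <;> by_cases h2 : u ∈ W ξ0 <;> simp [h1, h2]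
  rw [e1, e2]
  exact sq_sum_le_card_mul_sum_sq

theorem pg_smul {F : Type} [Field F] (ρ : F) (B C : Finset F) : ρ • (B - C) = ρ • B - ρ • C := by
  ext x
  simp only [mem_smul_finset, mem_sub, smul_eq_mul]
  constructor
  · rintro ⟨_, ⟨b, hb, c, hc, rfl⟩, rfl⟩
    exact ⟨_, ⟨b, hb, rfl⟩, _, ⟨c, hc, rfl⟩, by ring⟩
  · rintro ⟨_, ⟨b, hb, rfl⟩, _, ⟨c, hc, rfl⟩, rfl⟩
    exact ⟨_, ⟨b, hb, c, hc, rfl⟩, by ring⟩

theorem pigeon {F : Type} [Field F] (n M : ℝ) (hn : 0 < n) (hM : 2 ≤ M) (X Y Ξ : Finset F)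
    (hX : (#X : ℝ) ≤ M * n) (hY : (#Y : ℝ) ≤ M * n) (hΞ : n / M ≤ #Ξ) (h0 : (0 : F) ∉ Ξ)
    (Xs Ys : F → Finset F) (hXs : ∀ ξ ∈ Ξ, Xs ξ ⊆ X ∧ n / M ≤ #(Xs ξ))
    (hYs : ∀ ξ ∈ Ξ, Ys ξ ⊆ Y ∧ n / M ≤ #(Ys ξ))
    (hs : ∀ ξ ∈ Ξ, (#(Xs ξ + ξ • Ys ξ) : ℝ) ≤ M * n) :
    ∃ A R0 : Finset F, n / M ≤ #A ∧ (#A : ℝ) ≤ M * n ∧ n / M ^ 10 ≤ #R0 ∧
      (#(A - A) : ℝ) ≤ M ^ 22 * #A ∧ ∀ ρ ∈ R0, (#(A - ρ • A) : ℝ) ≤ M ^ 22 * #A := by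
  have hM0 : 0 < M := by linarith
  have hM1 : 1 ≤ M := by linarith
  have hnM : 0 < n / M := by positivity
  have hΞ0 : (0 : ℝ) < #Ξ := hnM.trans_le hΞ
  have hΞne : Ξ.Nonempty := card_pos.1 (by exact_mod_cast hΞ0)
  set W : F → Finset (F × F) := fun ξ => Xs ξ ×ˢ Ys ξ with hW
  have hWS : ∀ ξ ∈ Ξ, W ξ ⊆ X ×ˢ Y := fun ξ hξ =>
    product_subset_product (hXs ξ hξ).1 (hYs ξ hξ).1
  have hS : (#(X ×ˢ Y) : ℝ) ≤ M ^ 2 * n ^ 2 := by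
    rw [card_product]; push_cast
    calc _ ≤ (M * n) * (M * n) := mul_le_mul hX hY (Nat.cast_nonneg _) (by positivity)
      _ = _ := by ring
  have h1 : #Ξ * (n ^ 2 / M ^ 2) ≤ ∑ ξ ∈ Ξ, (#(W ξ) : ℝ) := by
    rw [← nsmul_eq_mul]
    refine card_nsmul_le_sum _ _ _ fun ξ hξ => ?_
    simp only [hW, card_product]; push_cast
    calc _ = (n / M) * (n / M) := by ring
      _ ≤ _ := mul_le_mul (hXs ξ hξ).2 (hYs ξ hξ).2 hnM.le (Nat.cast_nonneg _)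
  have h2 : ∑ _ξ0 ∈ Ξ, #Ξ * (n ^ 2 / M ^ 6) ≤ ∑ ξ0 ∈ Ξ, ∑ ξ ∈ Ξ, (#(W ξ ∩ W ξ0) : ℝ) := by
    have h3 := (pow_le_pow_left₀ (by positivity) h1 2).trans ((pg_inter Ξ _ W hWS).trans
      (mul_le_mul_of_nonneg_right hS (sum_nonneg fun _ _ => sum_nonneg fun _ _ =>
        Nat.cast_nonneg _)))
    refine le_of_mul_le_mul_left (le_trans (le_of_eq ?_) h3)
      (mul_pos (pow_pos hM0 2) (pow_pos hn 2))
    rw [sum_const, nsmul_eq_mul]; field_simp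
  obtain ⟨ξ0, hξ0, h3⟩ := exists_le_of_sum_le hΞne h2
  set R : Finset F := {ξ ∈ Ξ | n ^ 2 / (2 * M ^ 6) ≤ (#(W ξ ∩ W ξ0) : ℝ)} with hR
  have hRc : n / M ^ 10 ≤ #R := by
    have h4 : ∑ ξ ∈ Ξ, (#(W ξ ∩ W ξ0) : ℝ) ≤ #R * (M ^ 2 * n ^ 2) + #Ξ * (n ^ 2 / (2 * M ^ 6)) := by
      rw [← sum_filter_add_sum_filter_not Ξ
        (fun ξ => n ^ 2 / (2 * M ^ 6) ≤ (#(W ξ ∩ W ξ0) : ℝ))]
      refine add_le_add ?_ ?_
      · rw [← nsmul_eq_mul]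
        refine sum_le_card_nsmul _ _ _ fun ξ _ => le_trans ?_ hS
        exact_mod_cast card_le_card (inter_subset_right.trans (hWS ξ0 hξ0))
      · refine (sum_le_card_nsmul _ _ _ fun ξ hξ => (not_le.1 (mem_filter.1 hξ).2).le).trans ?_
        rw [nsmul_eq_mul]
        exact mul_le_mul_of_nonneg_right (by exact_mod_cast card_filter_le _ _) (by positivity)
    have h5 : #Ξ * (n ^ 2 / (2 * M ^ 6)) ≤ #R * (M ^ 2 * n ^ 2) := by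
      have : n ^ 2 / M ^ 6 = 2 * (n ^ 2 / (2 * M ^ 6)) := by field_simp
      rw [this] at h3
      linarith
    have h6 : n / M * (n ^ 2 / (2 * M ^ 6)) ≤ #R * (M ^ 2 * n ^ 2) :=
      le_trans (mul_le_mul_of_nonneg_right hΞ (by positivity)) h5
    refine le_of_mul_le_mul_right (le_trans ?_ h6) (by positivity)
    have e1 : n / M ^ 10 * (M ^ 2 * n ^ 2) = n ^ 3 / M ^ 7 * (1 / M) := by field_simp
    have e2 : n / M * (n ^ 2 / (2 * M ^ 6)) = n ^ 3 / M ^ 7 * (1 / 2) := by field_simp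
    rw [e1, e2]
    exact mul_le_mul_of_nonneg_left (one_div_le_one_div_of_le (by norm_num) hM) (by positivity)
  have hx0 : ξ0 ≠ 0 := fun H => h0 (H ▸ hξ0)
  have hYle : ∀ ξ ∈ Ξ, (#(Ys ξ) : ℝ) ≤ M * n := fun ξ hξ =>
    le_trans (by exact_mod_cast card_le_card (hYs ξ hξ).1) hY
  have hXle : ∀ ξ ∈ Ξ, (#(Xs ξ) : ℝ) ≤ M * n := fun ξ hξ =>
    le_trans (by exact_mod_cast card_le_card (hXs ξ hξ).1) hX
  have hA := (hYs ξ0 hξ0).2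
  have hnA : n ≤ M * #(Ys ξ0) := by rwa [div_le_iff₀' hM0] at hA
  have hAA : (#(Ys ξ0 - Ys ξ0) : ℝ) ≤ M ^ 3 * n := by
    have h4 := (Nat.cast_le (α := ℝ)).2
      (ruzsa_triangle_inequality_sub_add_add (ξ0 • Ys ξ0) (Xs ξ0) (ξ0 • Ys ξ0))
    rw [← pg_smul, card_smul_finset₀ hx0, add_comm (ξ0 • Ys ξ0)] at h4
    push_cast at h4
    have h5 := (mul_le_mul_of_nonneg_left (hXs ξ0 hξ0).2 (Nat.cast_nonneg _)).trans (h4.trans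
      (mul_le_mul (hs ξ0 hξ0) (hs ξ0 hξ0) (Nat.cast_nonneg _) (by positivity)))
    refine le_of_mul_le_mul_right (h5.trans (le_of_eq ?_)) hnM
    field_simp
  refine ⟨Ys ξ0, R.image (· / ξ0), hA, hYle ξ0 hξ0, ?_, ?_, ?_⟩
  · rwa [card_image_of_injective _ (fun a b H => (div_left_inj' hx0).1 H)]
  · refine hAA.trans ((mul_le_mul_of_nonneg_left hnA (by positivity)).trans ?_)
    rw [← mul_assoc, ← pow_succ]
    exact mul_le_mul_of_nonneg_right (pow_le_pow_right₀ hM1 (by norm_num)) (Nat.cast_nonneg _)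
  · intro ρ hρ
    obtain ⟨ξ, hξ, rfl⟩ := mem_image.1 hρ
    obtain ⟨hξ, hξ'⟩ := mem_filter.1 hξ
    have hx : ξ ≠ 0 := fun H => h0 (H ▸ hξ)
    simp only [hW, product_inter_product, card_product] at hξ'
    push_cast at hξ'
    have hp : 0 < n / (2 * M ^ 7) := by positivity
    have e : n ^ 2 / (2 * M ^ 6) = n / (2 * M ^ 7) * (M * n) := by field_simp
    have hX1 : n / (2 * M ^ 7) ≤ #(Xs ξ ∩ Xs ξ0) := by
      refine le_of_mul_le_mul_right (e.symm.le.trans (hξ'.trans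
        (mul_le_mul_of_nonneg_left (le_trans ?_ (hYle ξ hξ)) (Nat.cast_nonneg _)))) (by positivity)
      exact_mod_cast card_le_card inter_subset_left
    have hY1 : n / (2 * M ^ 7) ≤ #(Ys ξ ∩ Ys ξ0) := by
      rw [mul_comm (#(Xs ξ ∩ Xs ξ0) : ℝ)] at hξ'
      refine le_of_mul_le_mul_right (e.symm.le.trans (hξ'.trans
        (mul_le_mul_of_nonneg_left (le_trans ?_ (hXle ξ hξ)) (Nat.cast_nonneg _)))) (by positivity)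
      exact_mod_cast card_le_card inter_subset_left
    have h4 : (#(ξ0 • Ys ξ0 - ξ • (Ys ξ ∩ Ys ξ0)) : ℝ) ≤ 2 * M ^ 9 * n := by
      have h5 := (Nat.cast_le (α := ℝ)).2
        (ruzsa_triangle_inequality_sub_add_add (ξ0 • Ys ξ0) (Xs ξ ∩ Xs ξ0) (ξ • (Ys ξ ∩ Ys ξ0)))
      push_cast at h5
      have h6 : (#(ξ0 • Ys ξ0 + (Xs ξ ∩ Xs ξ0)) : ℝ) ≤ M * n := by
        refine le_trans (Nat.cast_le.2 (card_le_card ?_)) (hs ξ0 hξ0)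
        rw [add_comm (ξ0 • Ys ξ0)]
        exact add_subset_add_right inter_subset_right
      have h7 : (#(ξ • (Ys ξ ∩ Ys ξ0) + (Xs ξ ∩ Xs ξ0)) : ℝ) ≤ M * n := by
        refine le_trans (Nat.cast_le.2 (card_le_card ?_)) (hs ξ hξ)
        rw [add_comm (ξ • (Ys ξ ∩ Ys ξ0))]
        exact add_subset_add inter_subset_left (smul_finset_subset_smul_finset inter_subset_left)
      have h8 := (mul_le_mul_of_nonneg_left hX1 (Nat.cast_nonneg _)).trans (h5.trans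
        (mul_le_mul h6 h7 (Nat.cast_nonneg _) (by positivity)))
      refine le_of_mul_le_mul_right (h8.trans (le_of_eq ?_)) hp
      field_simp
    have h5 : (#(ξ • Ys ξ0 - ξ • (Ys ξ ∩ Ys ξ0)) : ℝ) ≤ M ^ 3 * n := by
      rw [← pg_smul, card_smul_finset₀ hx]
      exact le_trans (Nat.cast_le.2 (card_le_card (sub_subset_sub_left inter_subset_right))) hAA
    have h6 := (Nat.cast_le (α := ℝ)).2
      (ruzsa_triangle_inequality_sub_sub_sub (ξ0 • Ys ξ0) (ξ • (Ys ξ ∩ Ys ξ0)) (ξ • Ys ξ0))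
    rw [card_smul_finset₀ hx] at h6
    push_cast at h6
    have h7 := (mul_le_mul_of_nonneg_left hY1 (Nat.cast_nonneg _)).trans (h6.trans
      (mul_le_mul h4 h5 (Nat.cast_nonneg _) (by positivity)))
    have h8 : (#(ξ0 • Ys ξ0 - ξ • Ys ξ0) : ℝ) ≤ 4 * M ^ 19 * n := by
      refine le_of_mul_le_mul_right (h7.trans (le_of_eq ?_)) hp
      field_simp; ring
    have e2 : #(Ys ξ0 - (ξ / ξ0) • Ys ξ0) = #(ξ0 • Ys ξ0 - ξ • Ys ξ0) := by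
      rw [← card_smul_finset₀ hx0 (Ys ξ0 - _), pg_smul, smul_smul, mul_div_cancel₀ _ hx0]
    rw [e2]
    refine h8.trans ((mul_le_mul_of_nonneg_left hnA (by positivity)).trans ?_)
    have h9 : 4 ≤ M ^ 2 := by nlinarith
    calc _ = 4 * (M ^ 20 * #(Ys ξ0)) := by ring
      _ ≤ M ^ 2 * (M ^ 20 * #(Ys ξ0)) := mul_le_mul_of_nonneg_right h9 (by positivity)
      _ = _ := by ring

end Crest.Agent.R34
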