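import Crest.Agent.R34.Defs
import Crest.Agent.R34.Bsg
import Crest.Agent.R34.Pigeon
import Crest.Agent.R34.Dil

/-!
# Row 34: the sum-product estimate

`closure`: `R = {(a - b)/(c - d) | a b c d ∈ R0, c ≠ d}` consists of elements of level 14 (`dl_sub`, `dl_inv`, `dl_mul`), contains
`0, 1`, is closed under `-` and `⁻¹` (`0⁻¹ = 0`), and `#R ≥ #R0`.  If `R` is closed under `+` and `*` it is a subfield:
either `⊤` (then `q ≤ 2 M^40 #A` by `dl_card`, `dl_mono`) or `(#R0)³ ≤ q`.  Otherwise some `θ = r + r'` or `r r'` (level ≤ 33) is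
not in `R`, then `(a,b) ↦ a + θ b` is injective on `R0 × R0` with values of level `≤ 40`, so `(#R0)² ≤ 2 M^40 #A`.

`sp`: for `ξ ∈ Ξ` apply `bsg` to `X`, `ξ • Y`, `(Γ ξ).image (fun z => (z.1, ξ * z.2))`; pull `B'` back by `ξ⁻¹`; `pigeon` with
`M = L^31`; `closure` with `M^22`; every case (also `#R0 < 2` or `#A < 2 M^880`) gives `n ≤ M^902`.
-/

set_option autoImplicit false
open Classical Finset Pointwise

namespace Crest.Agent.R34

theorem closure {F : Type} [Field F] [Fintype F] (hF : HSub F) (A R0 : Finset F) (M : ℝ)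
    (hM : 1 ≤ M) (h1 : (#(A - A) : ℝ) ≤ M * #A) (hR : ∀ ρ ∈ R0, (#(A - ρ • A) : ℝ) ≤ M * #A)
    (h2 : 2 ≤ #R0) (hA : 2 * M ^ 40 ≤ #A) :
    (#R0 : ℝ) ^ 2 ≤ 2 * M ^ 40 * #A ∨ #R0 ^ 3 ≤ Fintype.card F ∨
      (Fintype.card F : ℝ) ≤ 2 * M ^ 40 * #A := by
  have hD1 : Dl A M 1 1 := by simpa [Dl] using h1
  have hD0 : ∀ ρ ∈ R0, Dl A M 1 ρ := fun ρ hρ => by simpa [Dl] using hR ρ hρ
  set P : F → Prop := fun ρ => ∃ a ∈ R0, ∃ b ∈ R0, ∃ c ∈ R0, ∃ d ∈ R0, c ≠ d ∧
    ρ = (a - b) * (c - d)⁻¹ with hP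
  have hPD : ∀ ρ, P ρ → Dl A M 14 ρ := by
    rintro ρ ⟨a, ha, b, hb, c, hc, d, hd, -, rfl⟩
    exact dl_mul (i := 7) (j := 7) hM (dl_sub (i := 1) (j := 1) hM hD1 (hD0 a ha) (hD0 b hb))
      (dl_inv (dl_sub (i := 1) (j := 1) hM hD1 (hD0 c hc) (hD0 d hd)))
  have hT : (0 : ℝ) < M ^ 40 := by positivity
  obtain ⟨c0, hc0, d0, hd0, hcd⟩ : ∃ c ∈ R0, ∃ d ∈ R0, c ≠ d := one_lt_card.1 (by omega)
  by_cases hcl : ∃ θ, ¬ P θ ∧ Dl A M 33 θ
  · obtain ⟨θ, hθ, hθD⟩ := hcl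
    left
    have hinj : Set.InjOn (fun z : F × F => z.1 + θ * z.2) (R0 ×ˢ R0 : Finset (F × F)) := by
      rintro ⟨a, b⟩ hz ⟨a', b'⟩ hz' h
      simp only [coe_product, Set.mem_prod, mem_coe] at hz hz'
      simp only at h
      by_cases hb : b = b'
      · subst hb
        have : a = a' := by simpa using h
        rw [this]
      · exfalso
        apply hθ
        refine ⟨a', hz'.1, a, hz.1, b, hz.2, b', hz'.2, hb, ?_⟩
        have hb' : b - b' ≠ 0 := sub_ne_zero.2 hb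
        field_simp
        linear_combination h
    have hc := dl_card (A := A) (M ^ 40) hT hA ((R0 ×ˢ R0).image fun z : F × F => z.1 + θ * z.2) (by
      intro ρ hρ
      obtain ⟨z, hz, rfl⟩ := mem_image.1 hρ
      rw [mem_product] at hz
      exact dl_add (i := 1) (j := 34) hM hD1 (hD0 _ hz.1)
        (dl_mul (i := 33) (j := 1) hM hθD (hD0 _ hz.2)))
    rw [card_image_of_injOn hinj, card_product] at hc
    push_cast at hc
    nlinarith [hc]
  · right
    push Not at hcl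
    have hadd : ∀ x y, P x → P y → P (x + y) := by
      intro x y hx hy
      by_contra hn
      exact hcl _ hn (dl_add (i := 14) (j := 14) hM hD1 (hPD x hx) (hPD y hy))
    have hmul : ∀ x y, P x → P y → P (x * y) := by
      intro x y hx hy
      by_contra hn
      exact hcl _ hn (dl_mono hM (by norm_num) (dl_mul (i := 14) (j := 14) hM (hPD x hx) (hPD y hy)))
    have hcd' : c0 - d0 ≠ 0 := sub_ne_zero.2 hcd
    have hzero : P 0 := ⟨c0, hc0, c0, hc0, c0, hc0, d0, hd0, hcd, by simp⟩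
    have hone : P 1 := ⟨c0, hc0, d0, hd0, c0, hc0, d0, hd0, hcd, by field_simp⟩
    have hneg : ∀ x, P x → P (-x) := by
      rintro x ⟨a, ha, b, hb, c, hc, d, hd, h, rfl⟩
      exact ⟨b, hb, a, ha, c, hc, d, hd, h, by ring⟩
    have hinv : ∀ x, P x → P x⁻¹ := by
      rintro x ⟨a, ha, b, hb, c, hc, d, hd, h, rfl⟩
      by_cases hab : a = b
      · subst hab
        simpa using hzero
      · exact ⟨c, hc, d, hd, a, ha, b, hb, hab, by rw [mul_inv, inv_inv, mul_comm]⟩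
    let S : Subfield F :=
      { carrier := {x | P x}
        mul_mem' := fun {x y} hx hy => hmul x y hx hy
        one_mem' := hone
        add_mem' := fun {x y} hx hy => hadd x y hx hy
        zero_mem' := hzero
        neg_mem' := fun {x} hx => hneg x hx
        inv_mem' := fun x hx => hinv x hx }
    by_cases hS : S = ⊤
    · right
      have hc := dl_card (A := A) (M ^ 40) hT hA univ (by
        intro ρ _
        have : ρ ∈ S := by rw [hS]; trivial
        exact dl_mono (i := 14) (j := 40) hM (by norm_num) (hPD ρ this))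
      rwa [card_univ] at hc
    · left
      refine le_trans (Nat.pow_le_pow_left ?_ 3) (hF S hS)
      have hf : Function.Injective (fun a : R0 => (⟨(a.1 - d0) * (c0 - d0)⁻¹,
          ⟨a.1, a.2, d0, hd0, c0, hc0, d0, hd0, hcd, rfl⟩⟩ : S)) := by
        intro a b h
        have h' : (a.1 - d0) * (c0 - d0)⁻¹ = (b.1 - d0) * (c0 - d0)⁻¹ := congrArg Subtype.val h
        have h'' := mul_right_cancel₀ (inv_ne_zero hcd') h'
        exact Subtype.ext (sub_left_injective h'')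
      have := Nat.card_le_card_of_injective _ hf
      simpa using this

theorem sp : ∃ c : ℕ, ∀ (F : Type) [Field F] [Fintype F], HSub F → ∀ (n L : ℝ), 0 < n →
    n ^ 2 = Fintype.card F → 2 ≤ L → ∀ (X Y Ξ : Finset F) (Γ : F → Finset (F × F)),
    (#X : ℝ) ≤ L * n → (#Y : ℝ) ≤ L * n → n / L ≤ #Ξ → (0 : F) ∉ Ξ →
    (∀ ξ ∈ Ξ, Γ ξ ⊆ X ×ˢ Y ∧ n ^ 2 / L ≤ #(Γ ξ) ∧
      (#((Γ ξ).image fun z => z.1 + ξ * z.2) : ℝ) ≤ L * n) → n ≤ L ^ c := by
  refine ⟨31 * 902, ?_⟩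
  intro F _ _ hF n L hn hq hL X Y Ξ Γ hX hY hΞ h0 hΓ
  have hL0 : 0 < L := by linarith
  have hL1 : 1 ≤ L := by linarith
  have hex : ∀ ξ : F, ∃ A' B' : Finset F, ξ ∈ Ξ → (A' ⊆ X ∧ n / L ^ 31 ≤ #A') ∧
      (B' ⊆ Y ∧ n / L ^ 31 ≤ #B') ∧ (#(A' + ξ • B') : ℝ) ≤ L ^ 31 * n := by
    intro ξ
    by_cases hξ : ξ ∈ Ξ
    swap
    · exact ⟨∅, ∅, fun h => absurd h hξ⟩
    have hξ0 : ξ ≠ 0 := fun h => h0 (h ▸ hξ)
    obtain ⟨h1, h2, h3⟩ := hΓ ξ hξ
    have hinj : Function.Injective (fun z : F × F => (z.1, ξ * z.2)) := by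
      rintro ⟨a, b⟩ ⟨a', b'⟩ h
      simp only [Prod.mk.injEq] at h
      rw [h.1, mul_left_cancel₀ hξ0 h.2]
    obtain ⟨A', hA', B', hB', h4, h5, h6⟩ := bsg n L hn hL X (ξ • Y)
      ((Γ ξ).image fun z : F × F => (z.1, ξ * z.2)) (by
        intro z hz
        obtain ⟨w, hw, rfl⟩ := mem_image.1 hz
        have := mem_product.1 (h1 hw)
        exact mem_product.2 ⟨this.1, smul_mem_smul_finset this.2⟩) hX
      (by rw [card_smul_finset₀ hξ0]; exact hY)
      (by rw [card_image_of_injective _ hinj]; exact h2)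
      (by rw [image_image]; exact h3)
    refine ⟨A', ξ⁻¹ • B', fun _ => ⟨⟨hA', h4⟩, ⟨?_, ?_⟩, ?_⟩⟩
    · intro y hy
      obtain ⟨b, hb, rfl⟩ := mem_smul_finset.1 hy
      obtain ⟨y', hy', rfl⟩ := mem_smul_finset.1 (hB' hb)
      simpa [smul_eq_mul, ← mul_assoc, inv_mul_cancel₀ hξ0] using hy'
    · rw [card_smul_finset₀ (inv_ne_zero hξ0)]; exact h5
    · rw [smul_smul, mul_inv_cancel₀ hξ0, one_smul]; exact h6
  choose Xs Ys hXY using hex
  have hLM : L ≤ L ^ 31 := le_self_pow₀ hL1 (by norm_num)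
  rw [pow_mul]
  generalize L ^ 31 = M at hXY hLM ⊢
  have hM : 2 ≤ M := hL.trans hLM
  have hM0 : 0 < M := by linarith
  have hM1 : 1 ≤ M := by linarith
  obtain ⟨A, R0, hA1, hA2, hR1, hAA, hR2⟩ := pigeon n M hn hM X Y Ξ
    (hX.trans (by gcongr)) (hY.trans (by gcongr)) (le_trans (by gcongr) hΞ) h0 Xs Ys
    (fun ξ hξ => (hXY ξ hξ).1) (fun ξ hξ => (hXY ξ hξ).2.1) (fun ξ hξ => (hXY ξ hξ).2.2)
  have key : ∀ k : ℕ, k ≤ 901 → n ≤ 2 * M ^ k → n ≤ M ^ 902 := by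
    intro k hk h
    calc n ≤ 2 * M ^ k := h
      _ ≤ M * M ^ 901 := by gcongr
      _ = M ^ 902 := by ring
  have hpw : (M ^ 22) ^ 40 = M ^ 880 := by rw [← pow_mul]
  by_cases h2 : 2 ≤ #R0
  swap
  · apply key 10 (by norm_num)
    have : (#R0 : ℝ) ≤ 2 := by exact_mod_cast (by omega : #R0 ≤ 2)
    have h := hR1.trans this
    rwa [div_le_iff₀ (by positivity)] at h
  by_cases h3 : 2 * (M ^ 22) ^ 40 ≤ #A
  swap
  · apply key 881 (by norm_num)
    have h := hA1.trans (not_le.1 h3).le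
    rw [div_le_iff₀ hM0, hpw] at h
    calc n ≤ _ := h
      _ = _ := by ring
  have hAle : 2 * (M ^ 22) ^ 40 * (#A : ℝ) ≤ 2 * M ^ 881 * n := by
    rw [hpw]
    calc 2 * M ^ 880 * (#A : ℝ) ≤ 2 * M ^ 880 * (M * n) := by gcongr
      _ = _ := by ring
  rcases closure hF A R0 (M ^ 22) (one_le_pow₀ hM1) hAA hR2 h2 h3 with h | h | h
  · apply key 901 le_rfl
    have h4 : (n / M ^ 10) ^ 2 ≤ 2 * M ^ 881 * n :=
      le_trans (by gcongr) (h.trans hAle)
    rw [div_pow, div_le_iff₀ (by positivity)] at h4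
    have h5 : n * n ≤ (2 * M ^ 901) * n := by
      calc n * n = n ^ 2 := by ring
        _ ≤ _ := h4
        _ = _ := by ring
    exact le_of_mul_le_mul_right h5 hn
  · apply key 30 (by norm_num)
    have h' : (#R0 : ℝ) ^ 3 ≤ n ^ 2 := by rw [hq]; exact_mod_cast h
    have h4 : (n / M ^ 10) ^ 3 ≤ n ^ 2 := le_trans (by gcongr) h'
    rw [div_pow, div_le_iff₀ (by positivity)] at h4
    have h5 : n * n ^ 2 ≤ (M ^ 30) * n ^ 2 := by
      calc n * n ^ 2 = n ^ 3 := by ring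
        _ ≤ _ := h4
        _ = _ := by ring
    have h6 := le_of_mul_le_mul_right h5 (by positivity)
    have : (0 : ℝ) < M ^ 30 := by positivity
    linarith
  · apply key 881 (by norm_num)
    rw [← hq] at h
    have h5 : n * n ≤ (2 * M ^ 881) * n := by
      calc n * n = n ^ 2 := by ring
        _ ≤ _ := h.trans hAle
    exact le_of_mul_le_mul_right h5 hn

end Crest.Agent.R34
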