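import Crest.Agent.R34.IncB
import Crest.Agent.R34.IncC
import Crest.Agent.R34.SP

/-!
# Row 34: the incidence bound

By contradiction: `n = √q`, `inc_struct`, `rich_through` (`≤ 2 n K³ ≤ L n` rich lines through a point), `inc_coord`, `sp` with
`L = 2048 K^41 ≤ K^42`: `n ≤ K^(42 c)`, impossible when `K^N ≤ q = n²`, `N > 84 c`, `N ≥ 2048`.
-/

set_option autoImplicit false
open Classical Finset

namespace Crest.Agent.R34

theorem inc : ∃ N : ℕ, 1 ≤ N ∧ ∀ (F : Type) [Field F] [Fintype F], HSub F → ∀ (K : ℕ),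
    Par N (Fintype.card F) K → ∀ C : Finset (V F), #C ≤ Fintype.card F →
    (∀ μ, (#(C ∩ ln μ) : ℝ) ≤ (K : ℝ) ^ 2 * √(Fintype.card F)) →
    ∑ μ ∈ Rich C (√(Fintype.card F) / (K : ℝ) ^ 3), (#(C ∩ ln μ) : ℝ) ^ 2 ≤
      (Fintype.card F : ℝ) ^ 2 / K := by
  obtain ⟨c, Hsp⟩ := sp
  refine ⟨84 * c + 4096, by omega, fun F _ _ hF K hP C hC hm => ?_⟩
  obtain ⟨h1, h2, -⟩ := hP
  by_contra hcon
  push Not at hcon
  set n : ℝ := √(Fintype.card F) with hn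
  have hq0 : (0 : ℝ) ≤ Fintype.card F := by positivity
  have hn2 : n ^ 2 = Fintype.card F := Real.sq_sqrt hq0
  have hK : (4096 : ℝ) ≤ K := by exact_mod_cast (by omega : 4096 ≤ K)
  have hK1 : (1 : ℝ) ≤ K := by linarith
  have hn0 : 0 ≤ n := Real.sqrt_nonneg _
  have hKn : (K : ℝ) ^ (42 * c + 2048) ≤ n := by
    apply Real.le_sqrt_of_sq_le
    rw [← pow_mul]
    have : (42 * c + 2048) * 2 = 84 * c + 4096 := by ring
    rw [this]; exact_mod_cast h2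
  have h40 : (K : ℝ) ^ 40 ≤ n := le_trans (pow_le_pow_right₀ hK1 (by omega)) hKn
  have hn1 : 4096 * (K : ℝ) ^ 39 ≤ n := by
    refine le_trans ?_ h40
    rw [pow_succ (K : ℝ) 39, mul_comm]
    exact mul_le_mul_of_nonneg_left hK (by positivity)
  have hnpos : 0 < n := lt_of_lt_of_le (by positivity) hn1
  have hC' : (#C : ℝ) ≤ n ^ 2 := by rw [hn2]; exact_mod_cast hC
  have hW : n ^ 4 / K ≤ ∑ μ ∈ Rich C (n / (K : ℝ) ^ 3), (#(C ∩ ln μ) : ℝ) ^ 2 := by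
    have : n ^ 4 = (Fintype.card F : ℝ) ^ 2 := by rw [← hn2]; ring
    rw [this]; exact hcon.le
  obtain ⟨Λ, a, b, Cs, ha, hb, hab, hCs, haC, hbC, hcs, hD⟩ := inc_struct n K hK1 hn1 C hC' hm hW
  have hK3 : (0 : ℝ) < (K : ℝ) ^ 3 := by positivity
  have hM : 2 ≤ n / (K : ℝ) ^ 3 := by
    rw [le_div_iff₀ hK3]
    refine le_trans ?_ hn1
    have : (K : ℝ) ^ 3 ≤ K ^ 39 := pow_le_pow_right₀ hK1 (by norm_num)
    linarith
  have hL3 : 2 * (K : ℝ) ^ 3 ≤ 2048 * K ^ 41 := by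
    have : (K : ℝ) ^ 3 ≤ K ^ 41 := pow_le_pow_right₀ hK1 (by norm_num)
    linarith
  have hT : ∀ c' ∈ ln Λ, (#{μ ∈ Rich C (n / (K : ℝ) ^ 3) | c' ∈ ln μ} : ℝ) ≤
      2048 * K ^ 41 * n := by
    intro c' _
    have h3 := rich_through C _ hM c'
    set r : ℝ := ((#{μ ∈ Rich C (n / (K : ℝ) ^ 3) | c' ∈ ln μ} : ℕ) : ℝ)
    have h4 : r * n ≤ 2 * (K : ℝ) ^ 3 * n * n := by
      have : r * (n / (K : ℝ) ^ 3) * K ^ 3 = r * n := by field_simp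
      rw [← this]
      have h5 : r * (n / (K : ℝ) ^ 3) ≤ 2 * n ^ 2 := by linarith
      calc _ ≤ 2 * n ^ 2 * K ^ 3 := mul_le_mul_of_nonneg_right h5 hK3.le
        _ = _ := by ring
    have h6 : r ≤ 2 * (K : ℝ) ^ 3 * n := le_of_mul_le_mul_right h4 hnpos
    exact h6.trans (mul_le_mul_of_nonneg_right hL3 hn0)
  obtain ⟨X, Y, Ξ, Γ, hX, hY, hΞ, h0, hΓ⟩ :=
    inc_coord _ Λ a b Cs ha hb hab hCs haC hbC _ _ hT hD
  have hL2 : (2 : ℝ) ≤ 2048 * K ^ 41 := by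
    have : (1 : ℝ) ≤ K ^ 41 := one_le_pow₀ hK1
    linarith
  have hfin := Hsp F hF n _ hnpos hn2 hL2 X Y Ξ Γ hX hY (by rw [hΞ]; exact hcs) h0 hΓ
  have hL42 : 2048 * (K : ℝ) ^ 41 ≤ K ^ 42 := by
    rw [pow_succ (K : ℝ) 41, mul_comm]
    exact mul_le_mul_of_nonneg_left (by linarith) (by positivity)
  have h7 : (2048 * (K : ℝ) ^ 41) ^ c ≤ K ^ (42 * c) := by
    rw [pow_mul]; exact pow_le_pow_left₀ (by positivity) hL42 c
  have h8 : (K : ℝ) ^ (42 * c) < K ^ (42 * c + 2048) :=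
    pow_lt_pow_right₀ (by linarith) (by omega)
  linarith

end Crest.Agent.R34
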