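import Crest.Agent.R34.Geo

/-!
# Row 34: incidence counting, part A

`m μ = #(C ∩ ln μ)`, rich lines `R = Rich C M`, `r c = #{μ ∈ R | c ∈ ln μ}`.
* `pairs_le`: ordered pairs of distinct points of `C` on a line determine it (`part_ne_of_on`, `line_ext`).
* `rich_through`: the rich lines through `c` have pairwise disjoint sets `(C ∩ ln μ) \\ {c}` of size `≥ M - 1 ≥ M / 2`.
* `d1_lower` (`M = n / K³ ≥ 2`): `I = ∑_{R} m ≥ W / (K² n) > n³ / K³ ≥ 2 n²`, `I = ∑_{c ∈ C} r c`, Cauchy–Schwarz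
  `∑ r² ≥ I² / n² ≥ 2 I`, so `∑ r (r-1) ≥ I² / (2n²) ≥ n^4 / (2 K^6)`.  For `c ∈ C`, an ordered pair `Λ ≠ μ` of rich lines through `c`
  and `p ∈ (C ∩ ln μ) \\ {c}` (at least `M/2` choices): `p ∉ ln Λ`, `c ∈ dd C R Λ p` with `join p c = μ` (`join_eq`), and
  `(c,Λ,μ,p) ↦ (Λ,p,c)` is injective.
-/

set_option autoImplicit false
open Classical Finset

namespace Crest.Agent.R34

variable {F : Type} [Field F] [Fintype F]

/-- lines with more than `M` points of `C`. -/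
noncomputable def Rich (C : Finset (V F)) (M : ℝ) : Finset (F × F) := {μ | M < (#(C ∩ ln μ) : ℝ)}

/-- points of `C` on `Λ` joined to `p` by a line of `R`. -/
noncomputable def dd (C : Finset (V F)) (R : Finset (F × F)) (Λ : F × F) (p : V F) : Finset (V F) :=
  {c ∈ C ∩ ln Λ | p.1 ≠ c.1 ∧ join p c ∈ R}

theorem IncA.line_eq {μ ν : F × F} {a b : V F} (hab : a ≠ b) (h1 : a ∈ ln μ) (h2 : b ∈ ln μ)
    (h3 : a ∈ ln ν) (h4 : b ∈ ln ν) : μ = ν := by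
  rw [mem_ln] at h1 h2 h3 h4
  exact line_ext (part_ne_of_on h1 h2 hab) (h1.trans h3.symm) (h2.trans h4.symm)

theorem IncA.dc (C : Finset (V F)) (R : Finset (F × F)) (g : V F → ℝ) :
    ∑ Λ ∈ R, ∑ c ∈ C ∩ ln Λ, g c = ∑ c ∈ C, (#{μ ∈ R | c ∈ ln μ} : ℝ) * g c := by
  simp only [← Finset.filter_mem_eq_inter, Finset.sum_filter]
  rw [Finset.sum_comm]
  apply Finset.sum_congr rfl
  intro c _
  rw [← Finset.sum_filter, Finset.sum_const, nsmul_eq_mul]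

theorem IncA.through (C : Finset (V F)) {M : ℝ} (hM : 2 ≤ M) (c : V F) (S : Finset (F × F))
    (hS : ∀ μ ∈ S, μ ∈ Rich C M ∧ c ∈ ln μ) (T : Finset (V F))
    (hT : ∀ μ ∈ S, ∀ p ∈ C ∩ ln μ, p ≠ c → p ∈ T) : (#S : ℝ) * (M / 2) ≤ #T := by
  have h1 : #(S.biUnion fun μ => (C ∩ ln μ).erase c) ≤ #T := by
    apply card_le_card
    intro p hp
    obtain ⟨μ, hμ, hp⟩ := mem_biUnion.mp hp
    exact hT μ hμ p (mem_of_mem_erase hp) (ne_of_mem_erase hp)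
  rw [card_biUnion] at h1
  · have h2 : (#S : ℝ) * (M / 2) ≤ ∑ μ ∈ S, (#((C ∩ ln μ).erase c) : ℝ) := by
      rw [← nsmul_eq_mul]
      apply card_nsmul_le_sum
      intro μ hμ
      have h3 : M < #(C ∩ ln μ) := by simpa [Rich] using (hS μ hμ).1
      have h4 : (#(C ∩ ln μ) : ℝ) ≤ #((C ∩ ln μ).erase c) + 1 := by
        have := pred_card_le_card_erase (s := C ∩ ln μ) (a := c)
        exact_mod_cast (by omega : #(C ∩ ln μ) ≤ #((C ∩ ln μ).erase c) + 1)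
      linarith
    exact h2.trans (by exact_mod_cast h1)
  · intro μ hμ ν hν hne
    rw [Function.onFun, Finset.disjoint_left]
    intro p h1 h2
    exact hne (IncA.line_eq (ne_of_mem_erase h1) (mem_inter.mp (mem_of_mem_erase h1)).2 (hS μ hμ).2
      (mem_inter.mp (mem_of_mem_erase h2)).2 (hS ν hν).2)


theorem pairs_le (C : Finset (V F)) :
    ∑ μ : F × F, (#(C ∩ ln μ) : ℝ) * ((#(C ∩ ln μ) : ℝ) - 1) ≤ (#C : ℝ) ^ 2 := by
  have h1 : #(univ.biUnion fun μ : F × F => (C ∩ ln μ).offDiag) ≤ #(C ×ˢ C) := by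
    apply card_le_card
    intro x hx
    obtain ⟨μ, -, hx⟩ := mem_biUnion.mp hx
    rw [mem_offDiag] at hx
    exact mem_product.mpr ⟨(mem_inter.mp hx.1).1, (mem_inter.mp hx.2.1).1⟩
  rw [card_biUnion, card_product] at h1
  · have h2 : ∀ μ : F × F, (#(C ∩ ln μ) : ℝ) * ((#(C ∩ ln μ) : ℝ) - 1) = #(C ∩ ln μ).offDiag := by
      intro μ
      rw [offDiag_card, Nat.cast_sub (Nat.le_mul_self _)]
      push_cast; ring
    simp only [h2]
    rw [sq]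
    exact_mod_cast h1
  · intro μ _ ν _ hne
    rw [Function.onFun, Finset.disjoint_left]
    intro x h1 h2
    rw [mem_offDiag] at h1 h2
    exact hne (IncA.line_eq h1.2.2 (mem_inter.mp h1.1).2 (mem_inter.mp h1.2.1).2
      (mem_inter.mp h2.1).2 (mem_inter.mp h2.2.1).2)

theorem rich_sq_le (C : Finset (V F)) (M : ℝ) (hM : 2 ≤ M) :
    ∑ μ ∈ Rich C M, (#(C ∩ ln μ) : ℝ) ^ 2 ≤ 2 * (#C : ℝ) ^ 2 := by
  have h0 : ∀ m : ℕ, (0 : ℝ) ≤ (m : ℝ) * ((m : ℝ) - 1) := by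
    intro m
    rcases m with _ | m
    · simp
    · push_cast; nlinarith [Nat.cast_nonneg (α := ℝ) m]
  calc _ ≤ ∑ μ ∈ Rich C M, 2 * ((#(C ∩ ln μ) : ℝ) * ((#(C ∩ ln μ) : ℝ) - 1)) := by
        apply sum_le_sum
        intro μ hμ
        have h3 : M < #(C ∩ ln μ) := by simpa [Rich] using hμ
        nlinarith
    _ ≤ ∑ μ : F × F, 2 * ((#(C ∩ ln μ) : ℝ) * ((#(C ∩ ln μ) : ℝ) - 1)) :=
        sum_le_sum_of_subset_of_nonneg (subset_univ _) fun μ _ _ => by have := h0 #(C ∩ ln μ); linarith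
    _ ≤ _ := by
        rw [← Finset.mul_sum]
        have := pairs_le C
        linarith

theorem rich_through (C : Finset (V F)) (M : ℝ) (hM : 2 ≤ M) (c : V F) :
    (#{μ ∈ Rich C M | c ∈ ln μ} : ℝ) * M ≤ 2 * #C := by
  have := IncA.through C hM c {μ ∈ Rich C M | c ∈ ln μ} (fun μ hμ => mem_filter.mp hμ) C
    (fun μ _ p hp _ => (mem_inter.mp hp).1)
  linarith

theorem d1_lower (n K : ℝ) (hK : 1 ≤ K) (hn : 2 * K ^ 3 ≤ n) (C : Finset (V F))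
    (hC : (#C : ℝ) ≤ n ^ 2) (hm : ∀ μ, (#(C ∩ ln μ) : ℝ) ≤ K ^ 2 * n)
    (hW : n ^ 4 / K ≤ ∑ μ ∈ Rich C (n / K ^ 3), (#(C ∩ ln μ) : ℝ) ^ 2) :
    n ^ 5 / (4 * K ^ 9) ≤ ∑ Λ ∈ Rich C (n / K ^ 3), ∑ p ∈ C \ ln Λ,
      (#(dd C (Rich C (n / K ^ 3)) Λ p) : ℝ) := by
  set M := n / K ^ 3 with hM
  set R := Rich C M with hR
  have hK0 : 0 < K := by linarith
  have hn0 : 0 < n := lt_of_lt_of_le (by positivity) hn
  have hM2 : 2 ≤ M := by rw [hM, le_div_iff₀ (by positivity)]; exact hn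
  set r : V F → ℝ := fun c => (#{μ ∈ R | c ∈ ln μ} : ℝ) with hr
  set I := ∑ c ∈ C, r c with hI
  have hI1 : ∑ μ ∈ R, (#(C ∩ ln μ) : ℝ) = I := by
    have := IncA.dc C R (fun _ => 1)
    simpa only [sum_const, nsmul_eq_mul, mul_one] using this
  have hI2 : n ^ 3 / K ^ 3 ≤ I := by
    have h1 : ∑ μ ∈ R, (#(C ∩ ln μ) : ℝ) ^ 2 ≤ K ^ 2 * n * I := by
      rw [← hI1, Finset.mul_sum]
      apply sum_le_sum
      intro μ _
      rw [sq]
      exact mul_le_mul_of_nonneg_right (hm μ) (Nat.cast_nonneg _)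
    have h2 := hW.trans h1
    rw [div_le_iff₀ hK0] at h2
    rw [div_le_iff₀ (by positivity)]
    apply le_of_mul_le_mul_right _ hn0
    nlinarith
  have hI3 : 2 * n ^ 2 ≤ I := by
    refine le_trans ?_ hI2
    rw [le_div_iff₀ (by positivity)]
    nlinarith [sq_nonneg n]
  have hCS : I ^ 2 ≤ n ^ 2 * ∑ c ∈ C, r c ^ 2 :=
    (sq_sum_le_card_mul_sum_sq (s := C) (f := r)).trans
      (mul_le_mul_of_nonneg_right hC (sum_nonneg fun _ _ => sq_nonneg _))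
  have hrr : n ^ 4 / (2 * K ^ 6) ≤ ∑ c ∈ C, r c * (r c - 1) := by
    have e : ∑ c ∈ C, r c * (r c - 1) = ∑ c ∈ C, r c ^ 2 - I := by
      rw [hI, ← Finset.sum_sub_distrib]
      apply sum_congr rfl
      intro c _; ring
    rw [e]
    have h1 : (n ^ 3 / K ^ 3) ^ 2 ≤ I ^ 2 := pow_le_pow_left₀ (by positivity) hI2 2
    have h2 : n ^ 4 / (2 * K ^ 6) * n ^ 2 = (n ^ 3 / K ^ 3) ^ 2 / 2 := by field_simp
    have h3 : 0 ≤ I := le_trans (by positivity) hI3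
    apply le_of_mul_le_mul_right _ (show 0 < n ^ 2 by positivity)
    rw [h2]
    nlinarith [mul_le_mul_of_nonneg_left hI3 h3]
  have hmain : ∀ Λ ∈ R, ∑ c ∈ C ∩ ln Λ, (r c - 1) * (M / 2) ≤ ∑ p ∈ C \ ln Λ, (#(dd C R Λ p) : ℝ) := by
    intro Λ hΛ
    have e : ∑ p ∈ C \ ln Λ, (#(dd C R Λ p) : ℝ) =
        ∑ c ∈ C ∩ ln Λ, (#{p ∈ C \ ln Λ | p.1 ≠ c.1 ∧ join p c ∈ R} : ℝ) := by
      simp only [dd, card_filter]
      push_cast
      rw [Finset.sum_comm]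
    rw [e]
    apply sum_le_sum
    intro c hc
    have hcΛ := (mem_inter.mp hc).2
    have h1 := IncA.through C hM2 c (({μ ∈ R | c ∈ ln μ} : Finset _).erase Λ)
      (fun μ hμ => mem_filter.mp (mem_of_mem_erase hμ)) {p ∈ C \ ln Λ | p.1 ≠ c.1 ∧ join p c ∈ R}
      (fun μ hμ p hp hpc => by
        have hμ' := mem_filter.mp (mem_of_mem_erase hμ)
        have hpμ := (mem_inter.mp hp).2
        have hne := part_ne_of_on ((mem_ln _ _).mp hpμ) ((mem_ln _ _).mp hμ'.2) hpc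
        refine mem_filter.mpr ⟨mem_sdiff.mpr ⟨(mem_inter.mp hp).1, fun hpΛ => ?_⟩, hne, ?_⟩
        · exact ne_of_mem_erase hμ (IncA.line_eq hpc hpμ hμ'.2 hpΛ hcΛ)
        · rw [join_eq hne ((mem_ln _ _).mp hpμ) ((mem_ln _ _).mp hμ'.2)]
          exact hμ'.1)
    rw [card_erase_of_mem (mem_filter.mpr ⟨hΛ, hcΛ⟩),
      Nat.cast_sub (card_pos.mpr ⟨Λ, mem_filter.mpr ⟨hΛ, hcΛ⟩⟩), Nat.cast_one] at h1
    exact h1
  refine le_trans ?_ (sum_le_sum hmain)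
  rw [IncA.dc]
  simp only [← mul_assoc, ← Finset.sum_mul]
  calc n ^ 5 / (4 * K ^ 9) = n ^ 4 / (2 * K ^ 6) * (M / 2) := by rw [hM]; field_simp; ring
    _ ≤ _ := mul_le_mul_of_nonneg_right hrr (by linarith)

end Crest.Agent.R34
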