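import Crest.Agent.R34.IncA

/-!
# Row 34: incidence counting, part B

`R = Rich C (n/K³)`, `#R (n/K³)² ≤ 2 n^4` (`rich_sq_le`), so there are `≤ 2 n^4 K^6` pairs `(Λ,p)`.  Power mean
(`Finset.pow_sum_div_card_le_sum_pow` / `pow_sum_le_card_mul_sum_pow` on the sigma set) and `d1_lower`:
`∑ (#dd)³ ≥ n^7 / (256 K^39)`.  Expanding, `∑ (#dd)³ = ∑_Λ ∑_{a,b ∈ C ∩ ln Λ} ∑_{c ∈ C ∩ ln Λ} #(Γ Λ a b c)`, `Γ` = points
`p ∈ C \\ ln Λ` with `a, b, c ∈ dd C R Λ p`.  The terms `a = b` give `≤ 2 n^4 · n² ≤ n^7 / (512 K^39)`; there are `≤ n^4` triples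
`(Λ, a ≠ b)` (`pairs_le`), so one has `∑_c #Γ ≥ n³ / (512 K^39)`.  The `c` with `#Γ < n² / (1024 K^41)` contribute
`≤ n³ / (1024 K^39)` (at most `K² n` points), each other one `≤ n²`; so at least `n / (1024 K^39) - 2 ≥ n / (2048 K^39)` points
`c ≠ a, b` remain.
-/

set_option autoImplicit false
open Classical Finset

namespace Crest.Agent.R34

variable {F : Type} [Field F] [Fintype F]

/-- points seeing `a, b, c` through lines of `R` -/
noncomputable def IncB.Gam (C : Finset (V F)) (R : Finset (F × F)) (Λ : F × F) (a b c : V F) :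
    Finset (V F) :=
  {p ∈ C \ ln Λ | (p.1 ≠ a.1 ∧ join p a ∈ R) ∧ (p.1 ≠ b.1 ∧ join p b ∈ R) ∧ (p.1 ≠ c.1 ∧ join p c ∈ R)}

theorem IncB.cube (C : Finset (V F)) (R : Finset (F × F)) (Λ : F × F) :
    ∑ p ∈ C \ ln Λ, (#(dd C R Λ p) : ℝ) ^ 3 =
      ∑ x ∈ (C ∩ ln Λ) ×ˢ (C ∩ ln Λ), ∑ c ∈ C ∩ ln Λ, (#(IncB.Gam C R Λ x.1 x.2 c) : ℝ) := by
  have e : ∀ p, (#(dd C R Λ p) : ℝ) ^ 3 = ∑ x ∈ (C ∩ ln Λ) ×ˢ (C ∩ ln Λ), ∑ c ∈ C ∩ ln Λ,
      if (p.1 ≠ x.1.1 ∧ join p x.1 ∈ R) ∧ (p.1 ≠ x.2.1 ∧ join p x.2 ∈ R) ∧ (p.1 ≠ c.1 ∧ join p c ∈ R)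
        then (1 : ℝ) else 0 := by
    intro p
    rw [pow_three', dd, card_filter, Finset.sum_product]
    push_cast
    rw [Finset.sum_mul_sum, Finset.sum_mul]
    apply sum_congr rfl
    intro a _
    rw [Finset.sum_mul]
    apply sum_congr rfl
    intro b _
    rw [Finset.mul_sum]
    apply sum_congr rfl
    intro c _
    simp only [ite_zero_mul_ite_zero, mul_one, and_assoc]
  simp only [e]
  rw [Finset.sum_comm]
  apply sum_congr rfl
  intro x _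
  rw [Finset.sum_comm]
  apply sum_congr rfl
  intro c _
  rw [IncB.Gam, card_filter]
  push_cast
  rfl


theorem inc_struct (n K : ℝ) (hK : 1 ≤ K) (hn : 4096 * K ^ 39 ≤ n) (C : Finset (V F))
    (hC : (#C : ℝ) ≤ n ^ 2) (hm : ∀ μ, (#(C ∩ ln μ) : ℝ) ≤ K ^ 2 * n)
    (hW : n ^ 4 / K ≤ ∑ μ ∈ Rich C (n / K ^ 3), (#(C ∩ ln μ) : ℝ) ^ 2) :
    ∃ (Λ : F × F) (a b : V F) (Cs : Finset (V F)), a ∈ ln Λ ∧ b ∈ ln Λ ∧ a ≠ b ∧ Cs ⊆ ln Λ ∧
      a ∉ Cs ∧ b ∉ Cs ∧ n / (2048 * K ^ 41) ≤ #Cs ∧ ∀ c ∈ Cs, n ^ 2 / (2048 * K ^ 41) ≤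
        (#{p : V F | p ∉ ln Λ ∧ (p.1 ≠ a.1 ∧ join p a ∈ Rich C (n / K ^ 3)) ∧
          (p.1 ≠ b.1 ∧ join p b ∈ Rich C (n / K ^ 3)) ∧
          (p.1 ≠ c.1 ∧ join p c ∈ Rich C (n / K ^ 3))} : ℝ) := by
  set M := n / K ^ 3 with hM
  set R := Rich C M with hR
  have hK0 : 0 < K := by linarith
  have hn0 : 0 < n := lt_of_lt_of_le (by positivity) hn
  have hK39 : K ^ 3 ≤ K ^ 39 := pow_le_pow_right₀ hK (by norm_num)
  have hK3 : 0 < K ^ 3 := by positivity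
  have hn2 : 2 * K ^ 3 ≤ n := by linarith
  have hM2 : 2 ≤ M := by rw [hM, le_div_iff₀ (by positivity)]; exact hn2
  have hC2 : (#C : ℝ) ^ 2 ≤ n ^ 4 := by
    calc (#C : ℝ) ^ 2 ≤ (n ^ 2) ^ 2 := pow_le_pow_left₀ (Nat.cast_nonneg _) hC 2
      _ = n ^ 4 := by ring
  have hsq : ∑ μ ∈ R, (#(C ∩ ln μ) : ℝ) ^ 2 ≤ 2 * n ^ 4 := (rich_sq_le C M hM2).trans (by linarith)
  have hRc : (#R : ℝ) ≤ 2 * n ^ 2 * K ^ 6 := by
    have h1 : (#R : ℝ) * M ^ 2 ≤ ∑ μ ∈ R, (#(C ∩ ln μ) : ℝ) ^ 2 := by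
      rw [← nsmul_eq_mul]
      apply card_nsmul_le_sum
      intro μ hμ
      have h3 : M < #(C ∩ ln μ) := by simpa [hR, Rich] using hμ
      exact pow_le_pow_left₀ (by linarith) h3.le 2
    have h2 : 2 * n ^ 4 = 2 * n ^ 2 * K ^ 6 * M ^ 2 := by rw [hM]; field_simp
    exact le_of_mul_le_mul_right (h1.trans (hsq.trans h2.le)) (by positivity)
  have hG : ∀ Λ a b c, (#(IncB.Gam C R Λ a b c) : ℝ) ≤ n ^ 2 := by
    intro Λ a b c
    refine le_trans ?_ hC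
    exact_mod_cast card_le_card ((filter_subset _ _).trans sdiff_subset)
  -- power mean
  have h3 : n ^ 7 / (256 * K ^ 39) ≤ ∑ Λ ∈ R, ∑ p ∈ C \ ln Λ, (#(dd C R Λ p) : ℝ) ^ 3 := by
    have h1 := d1_lower n K hK hn2 C hC hm hW
    rw [Finset.sum_sigma'] at h1 ⊢
    have h2 := pow_sum_le_card_mul_sum_pow (s := R.sigma fun Λ => C \ ln Λ)
      (f := fun x => (#(dd C R x.1 x.2) : ℝ)) (fun _ _ => Nat.cast_nonneg _) 2
    have h4 : (#(R.sigma fun Λ => C \ ln Λ) : ℝ) ≤ 2 * n ^ 4 * K ^ 6 := by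
      rw [card_sigma]
      push_cast
      calc _ ≤ (#R : ℝ) * n ^ 2 := by
            rw [← nsmul_eq_mul]
            apply sum_le_card_nsmul
            intro Λ _
            refine le_trans ?_ hC
            exact_mod_cast card_le_card sdiff_subset
        _ ≤ 2 * n ^ 2 * K ^ 6 * n ^ 2 := mul_le_mul_of_nonneg_right hRc (by positivity)
        _ = _ := by ring
    have h5 := (pow_le_pow_left₀ (by positivity) h1 3).trans (h2.trans (mul_le_mul_of_nonneg_right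
      (pow_le_pow_left₀ (Nat.cast_nonneg _) h4 2) (sum_nonneg fun _ _ => by positivity)))
    apply le_of_mul_le_mul_left _ (show 0 < (2 * n ^ 4 * K ^ 6) ^ 2 by positivity)
    refine le_trans (le_of_eq ?_) h5
    field_simp
    norm_num
  simp only [IncB.cube] at h3
  set g : F × F → V F × V F → ℝ := fun Λ x => ∑ c ∈ C ∩ ln Λ, (#(IncB.Gam C R Λ x.1 x.2 c) : ℝ) with hg
  have hdiag : ∑ Λ ∈ R, ∑ x ∈ (C ∩ ln Λ).diag, g Λ x ≤ n ^ 7 / (512 * K ^ 39) := by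
    calc _ ≤ ∑ Λ ∈ R, (#(C ∩ ln Λ) : ℝ) ^ 2 * n ^ 2 := by
          apply sum_le_sum
          intro Λ _
          rw [sq, mul_assoc, ← nsmul_eq_mul]
          nth_rewrite 1 [← diag_card]
          apply sum_le_card_nsmul
          intro x _
          rw [← nsmul_eq_mul]
          exact sum_le_card_nsmul _ _ _ fun c _ => hG _ _ _ _
      _ ≤ 2 * n ^ 4 * n ^ 2 := by
          rw [← Finset.sum_mul]
          exact mul_le_mul_of_nonneg_right hsq (by positivity)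
      _ ≤ _ := by
          rw [le_div_iff₀ (by positivity)]
          have : n ^ 6 * (4096 * K ^ 39) ≤ n ^ 6 * n := mul_le_mul_of_nonneg_left hn (by positivity)
          have h0 : 0 ≤ n ^ 6 * K ^ 39 := by positivity
          nlinarith
  have hoff : n ^ 7 / (512 * K ^ 39) ≤ ∑ z ∈ R.sigma fun Λ => (C ∩ ln Λ).offDiag, g z.1 z.2 := by
    have e : ∑ Λ ∈ R, ∑ x ∈ (C ∩ ln Λ) ×ˢ (C ∩ ln Λ), g Λ x =
        ∑ Λ ∈ R, ∑ x ∈ (C ∩ ln Λ).diag, g Λ x + ∑ Λ ∈ R, ∑ x ∈ (C ∩ ln Λ).offDiag, g Λ x := by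
      rw [← Finset.sum_add_distrib]
      apply sum_congr rfl
      intro Λ _
      rw [← diag_union_offDiag, sum_union (disjoint_diag_offDiag _)]
    rw [Finset.sum_sigma]
    have e2 : n ^ 7 / (256 * K ^ 39) = n ^ 7 / (512 * K ^ 39) + n ^ 7 / (512 * K ^ 39) := by
      field_simp; norm_num
    change n ^ 7 / (256 * K ^ 39) ≤ ∑ Λ ∈ R, ∑ x ∈ (C ∩ ln Λ) ×ˢ (C ∩ ln Λ), g Λ x at h3
    linarith
  have hT : (#(R.sigma fun Λ => (C ∩ ln Λ).offDiag) : ℝ) ≤ n ^ 4 := by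
    rw [card_sigma]
    push_cast
    refine le_trans ?_ ((pairs_le C).trans hC2)
    have h2 : ∀ μ : F × F, (#(C ∩ ln μ) : ℝ) * ((#(C ∩ ln μ) : ℝ) - 1) = #(C ∩ ln μ).offDiag := by
      intro μ
      rw [offDiag_card, Nat.cast_sub (Nat.le_mul_self _)]
      push_cast; ring
    simp only [h2]
    exact sum_le_sum_of_subset_of_nonneg (subset_univ _) fun _ _ _ => Nat.cast_nonneg _
  obtain ⟨⟨Λ, a, b⟩, hz, hgz⟩ : ∃ z ∈ R.sigma fun Λ => (C ∩ ln Λ).offDiag,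
      n ^ 3 / (512 * K ^ 39) ≤ g z.1 z.2 := by
    apply exists_le_of_sum_le
    · rw [nonempty_iff_ne_empty]
      intro h0
      rw [h0, sum_empty] at hoff
      exact absurd hoff (not_le.mpr (by positivity))
    · refine le_trans ?_ hoff
      rw [sum_const, nsmul_eq_mul]
      calc _ ≤ n ^ 4 * (n ^ 3 / (512 * K ^ 39)) := mul_le_mul_of_nonneg_right hT (by positivity)
        _ = _ := by field_simp
  obtain ⟨-, hab⟩ := mem_sigma.mp hz
  rw [mem_offDiag] at hab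
  simp only at hab hgz
  set Cs : Finset (V F) := {c ∈ C ∩ ln Λ | n ^ 2 / (1024 * K ^ 41) ≤ #(IncB.Gam C R Λ a b c)} with hCs
  have hCs1 : n / (1024 * K ^ 39) ≤ #Cs := by
    have h1 : g Λ (a, b) ≤ #Cs * n ^ 2 + K ^ 2 * n * (n ^ 2 / (1024 * K ^ 41)) := by
      simp only [hg]
      rw [← sum_filter_add_sum_filter_not (C ∩ ln Λ)
        (fun c => n ^ 2 / (1024 * K ^ 41) ≤ #(IncB.Gam C R Λ a b c))]
      apply add_le_add
      · rw [← nsmul_eq_mul]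
        exact sum_le_card_nsmul _ _ _ fun c _ => hG _ _ _ _
      · refine (sum_le_card_nsmul _ _ (n ^ 2 / (1024 * K ^ 41))
          fun c hc => (not_le.mp (mem_filter.mp hc).2).le).trans ?_
        rw [nsmul_eq_mul]
        refine mul_le_mul_of_nonneg_right (le_trans ?_ (hm Λ)) (by positivity)
        exact_mod_cast card_filter_le _ _
    have e1 : K ^ 2 * n * (n ^ 2 / (1024 * K ^ 41)) = n / (1024 * K ^ 39) * n ^ 2 := by field_simp
    have e2 : n ^ 3 / (512 * K ^ 39) = 2 * (n / (1024 * K ^ 39) * n ^ 2) := by field_simp; norm_num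
    apply le_of_mul_le_mul_right _ (show 0 < n ^ 2 by positivity)
    linarith
  refine ⟨Λ, a, b, (Cs.erase a).erase b, (mem_inter.mp hab.1).2, (mem_inter.mp hab.2.1).2, hab.2.2,
    fun c hc => (mem_inter.mp (mem_filter.mp (mem_of_mem_erase (mem_of_mem_erase hc))).1).2,
    fun h => notMem_erase a Cs (mem_of_mem_erase h), notMem_erase _ _, ?_, fun c hc => ?_⟩
  · have h1 : (#Cs : ℝ) ≤ #((Cs.erase a).erase b) + 2 := by
      have := pred_card_le_card_erase (s := Cs) (a := a)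
      have := pred_card_le_card_erase (s := Cs.erase a) (a := b)
      exact_mod_cast (by omega : #Cs ≤ #((Cs.erase a).erase b) + 2)
    have h2 : 2 ≤ n / (2048 * K ^ 39) := by rw [le_div_iff₀ (by positivity)]; linarith
    have h4 : n / (1024 * K ^ 39) = 2 * (n / (2048 * K ^ 39)) := by field_simp; norm_num
    have h5 : n / (2048 * K ^ 41) ≤ n / (2048 * K ^ 39) :=
      div_le_div_of_nonneg_left hn0.le (by positivity)
        (mul_le_mul_of_nonneg_left (pow_le_pow_right₀ hK (by norm_num)) (by norm_num))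
    linarith
  · have h1 := (mem_filter.mp (mem_of_mem_erase (mem_of_mem_erase hc))).2
    refine le_trans (div_le_div_of_nonneg_left (by positivity) (by positivity)
      (mul_le_mul_of_nonneg_right (by norm_num) (by positivity))) (h1.trans ?_)
    refine Nat.cast_le.mpr (card_le_card fun p hp => ?_)
    have := mem_filter.mp hp
    exact mem_filter.mpr ⟨mem_univ _, (mem_sdiff.mp this.1).2, this.2⟩

end Crest.Agent.R34
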