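import Crest.Agent.R34.Geo

/-!
# Row 34: the hypergraph is intersecting and uses every vertex

* `EE_inter`: two lines agree in some part `j` (`meet_exists`); `j` is not the own part of a gadget line unless both are gadget lines
  of the same part (`gL_center`, `gL_avoid`).  Same part `i`: equal classes agree in `i`; for `k.1 < l.1` they agree in the column
  `u = xc h t η w k l` of type `(k,l,0)` (`gl_link`, `xc_comm`, `xc_ne`; both are encoded as `some (h k)`); for `i = none` use the column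
  given by `good` at `t = 0`.
* `EE_all`: `none`, `some centre` and (active column) `some (second height)` are colours; any other `some y` is hit by `e0 μ` for
  `μ ∈ DD h ω (i,y)` (`mem_DD`, `rem_cen`).
-/

set_option autoImplicit false
open Classical Finset

namespace Crest.Agent.R34

variable {F : Type} [Field F] [Fintype F] {h : Lab → F} {G : Finset F} {ω : F → F × Typ} {w : F → F}

theorem inter_mem_EE {e : Option F → Option F} (he : e ∈ EE h ω w) :
    (∃ μ : F × F, (∀ i, ph i μ ≠ cen ω i) ∧ e = e0 h ω μ) ∨ ∃ i k, e = gE h ω w i k := by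
  rcases mem_union.1 he with he | he
  · obtain ⟨μ, hμ, rfl⟩ := mem_image.1 he
    exact Or.inl ⟨μ, by simpa using hμ, rfl⟩
  · obtain ⟨x, -, rfl⟩ := mem_image.1 he
    exact Or.inr ⟨x.1, x.2, rfl⟩

omit [Fintype F] in
theorem inter_gE_ne {i j : Option F} (hij : j ≠ i) (k : Lab) :
    gE h ω w i k j = enc h ω j (ph j (gL h ω w i k)) := by
  unfold gE
  rw [Function.update_of_ne hij]
  rfl

omit [Fintype F] in
theorem inter_gE_self (i : Option F) (k : Lab) : gE h ω w i k i = col h ω i k.1 := by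
  unfold gE
  rw [Function.update_self]

omit [Field F] [Fintype F] in
theorem inter_enc {u : F} {k l : Lab} (hkl : k.1 < l.1) (hu : (ω u).2 = (k, l, 0)) :
    enc h ω (some u) (h l) = enc h ω (some u) (h k) := by
  have ha : act (ω u).2 := by rw [hu]; exact ⟨rfl, hkl⟩
  rw [enc_some, enc_some, if_pos ⟨ha, by rw [hu]⟩, hu]
  simp

theorem inter_same (hG : GOK h G) (hm : ∀ t, (ω t).1 ∈ G)
    (hw : ∀ t, good h ω t (ω t).1 (w t)) (i : Option F) {k l : Lab} (hkl : k.1 < l.1) :
    ∃ j, gE h ω w i k j = gE h ω w i l j := by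
  rcases i with _ | t
  · have hu := (hw 0).2.1 k l hkl
    refine ⟨some (xc h 0 (ω 0).1 (w 0) k l), ?_⟩
    rw [inter_gE_ne (by simp), inter_gE_ne (by simp)]
    simp only [gL_none, ph_some, zero_mul, zero_add]
    exact (inter_enc hkl hu).symm
  · have hu := (hw t).2.1 k l hkl
    have hk := hG.ne _ (hm t) k
    have hl := hG.ne _ (hm t) l
    have hne : some (xc h t (ω t).1 (w t) k l) ≠ some t := fun H =>
      xc_ne hk hl (hw t).1 (Option.some.inj H)
    refine ⟨some (xc h t (ω t).1 (w t) k l), ?_⟩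
    rw [inter_gE_ne hne, inter_gE_ne hne, gL_some, gL_some, gl_link l hk (hw t).1]
    conv_rhs => rw [xc_comm k l, gl_link k hl (hw t).1, xc_comm l k]
    exact inter_enc hkl hu

theorem inter_mixed {μ : F × F} (hμ : ∀ i, ph i μ ≠ cen ω i) (i : Option F) (k : Lab) :
    ∃ j, e0 h ω μ j = gE h ω w i k j := by
  obtain ⟨j, hj⟩ := meet_exists μ (gL h ω w i k)
  have hji : j ≠ i := by
    rintro rfl
    exact hμ j (hj.trans (gL_center h ω w j k))
  exact ⟨j, by rw [inter_gE_ne hji, ← hj]; rfl⟩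

theorem EE_inter (hG : GOK h G) (hm : ∀ t, (ω t).1 ∈ G) (hw : ∀ t, good h ω t (ω t).1 (w t)) :
    ∀ e ∈ EE h ω w, ∀ f ∈ EE h ω w, ∃ i, e i = f i := by
  intro e he f hf
  rcases inter_mem_EE he with ⟨μ, hμ, rfl⟩ | ⟨i, k, rfl⟩ <;>
    rcases inter_mem_EE hf with ⟨ν, hν, rfl⟩ | ⟨i', l, rfl⟩
  · obtain ⟨j, hj⟩ := meet_exists μ ν
    exact ⟨j, by unfold e0; rw [hj]⟩
  · exact inter_mixed hμ i' l
  · obtain ⟨j, hj⟩ := inter_mixed (h := h) (w := w) hν i k
    exact ⟨j, hj.symm⟩
  · by_cases hi : i = i'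
    · subst hi
      rcases lt_trichotomy k.1 l.1 with hkl | hkl | hkl
      · exact inter_same hG hm hw i hkl
      · exact ⟨i, by rw [inter_gE_self, inter_gE_self, hkl]⟩
      · obtain ⟨j, hj⟩ := inter_same hG hm hw i hkl
        exact ⟨j, hj.symm⟩
    · obtain ⟨j, hj⟩ := meet_exists (gL h ω w i k) (gL h ω w i' l)
      have h1 : j ≠ i := by
        rintro rfl
        exact gL_avoid hG hm hw hi l (hj.symm.trans (gL_center h ω w j k))
      have h2 : j ≠ i' := by
        rintro rfl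
        exact gL_avoid hG hm hw (Ne.symm hi) k (hj.trans (gL_center h ω w j l))
      exact ⟨j, by rw [inter_gE_ne h1, inter_gE_ne h2, hj]⟩

theorem EE_all (hD : ∀ p : V F, p ≠ (none, 0) → (DD h ω p).Nonempty) (i : Option F)
    (c : Option F) : ∃ e ∈ EE h ω w, e i = c := by
  rcases c with _ | y
  · exact ⟨_, gE_mem_EE h ω w i (1, 0), by rw [inter_gE_self]; simp [col]⟩
  by_cases hy : y = cen ω i
  · exact ⟨_, gE_mem_EE h ω w i (0, 0), by rw [inter_gE_self, hy]; simp [col]⟩
  by_cases h2 : ∃ t, i = some t ∧ act (ω t).2 ∧ y = h (ω t).2.2.1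
  · obtain ⟨t, rfl, ha, hy2⟩ := h2
    refine ⟨_, gE_mem_EE h ω w (some t) (2, 0), ?_⟩
    rw [inter_gE_self, hy2]
    have e1 : (2 : Fin 3) ≠ 0 := by decide
    have e2 : (2 : Fin 3) ≠ 1 := by decide
    simp [col, ha, e1, e2]
  have hp : ((i, y) : V F) ≠ (none, 0) := by
    intro H
    obtain ⟨rfl, rfl⟩ := Prod.mk.inj H
    exact hy rfl
  obtain ⟨μ, hμ⟩ := hD _ hp
  obtain ⟨hμ1, hμ2⟩ := (mem_DD hp).1 hμ
  simp only at hμ1 hμ2
  refine ⟨_, e0_mem_EE (μ := μ) w fun j hj => ?_, ?_⟩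
  · by_cases hji : j = i
    · subst hji
      exact hy (hμ1.symm.trans hj)
    · exact hμ2 j hji (by rw [hj]; exact rem_cen h ω j)
  · unfold e0
    rw [hμ1]
    rcases i with _ | t
    · rfl
    · rw [enc_some, if_neg fun H => h2 ⟨t, rfl, H⟩]

end Crest.Agent.R34
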