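import Crest.Agent.R34.Geo

/-!
# Row 34: covers of `SS` by true points: overlap and pair counts

`S = SS h ω`, `m μ = #(C ∩ ln μ)`, `q = card F`, `n = √q`.
* `near_block`: if `p ∈ blk β` is true and `p ∉ C`, the lines `μ ∈ DD h ω p` (`mem_DD_true`) with `inr μ ≠ β` are covered by points of
  `C \\ blk β` (`blk_inter`), different lines by different points (`line_ext`), so `#DD - 1 ≤ #(C \\ blk β)`.
* `overlap`: `∑_{μ ∈ S} m μ = ∑_{p ∈ C} #(DD p) ≤ q (c q + K n) + (q / 10^5) · 12 x` (points of height `h k` in finite parts lie on the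
  line `(0, h k)`), `#S = ∑_{a ≠ 0} #(DD (none, a)) ≥ (q-1)(c q - K n) ≥ c q² - q K n - q`.
* `pairs_A`: the fibre over `μ ∈ S` of `x ↦ join x.1 x.2` has `≤ m μ - 1` elements (if non-empty, `inr μ ≠ β`, the first point is the unique
  point of `blk β ∩ ln μ`; if empty use `1 ≤ m μ`).
* `pairs_B`: the fibre has `≤ m (m - 1)` elements, which is `≤ M (m - 1)` if `m ≤ M` and `≤ m²` else.
-/

set_option autoImplicit false
open Classical Finset

namespace Crest.Agent.R34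

variable {F : Type} [Field F] [Fintype F]

theorem near_block {h : Lab → F} {ω : F → F × Typ} (C : Finset (V F))
    (hcov : ∀ μ ∈ SS h ω, (C ∩ ln μ).Nonempty) (β : Option F ⊕ F × F) (p : V F) (hp : p ∈ blk β)
    (ht : ¬ rem h ω p) (hpC : p ∉ C) : #(DD h ω p) ≤ #(C \ blk β) + 1 := by
  choose! g hg using hcov
  have h1 : #((DD h ω p).filter fun μ => Sum.inr μ ≠ β) ≤ #(C \ blk β) := by
    have key : ∀ μ ∈ (DD h ω p).filter fun μ => Sum.inr μ ≠ β,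
        g μ ∈ C ∧ g μ ∈ ln μ ∧ p ∈ ln μ ∧ p ≠ g μ ∧ Sum.inr μ ≠ β := by
      intro μ hμ
      rw [mem_filter, mem_DD_true ht] at hμ
      have := mem_inter.1 (hg μ hμ.1.1)
      exact ⟨this.1, this.2, (mem_ln _ _).2 hμ.1.2, fun e => hpC (e ▸ this.1), hμ.2⟩
    refine card_le_card_of_injOn g (fun μ hμ => ?_) fun μ hμ ν hν e => ?_
    · obtain ⟨k1, k2, k3, k4, k5⟩ := key μ hμ
      exact mem_coe.2 (mem_sdiff.2 ⟨k1, fun k6 => k4 (blk_inter k5 k3 hp k2 k6)⟩)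
    · obtain ⟨-, k2, k3, k4, -⟩ := key μ hμ
      obtain ⟨-, l2, l3, -, -⟩ := key ν hν
      rw [← e] at l2
      by_contra hne
      exact k4 (blk_inter (β := Sum.inr μ) (β' := Sum.inr ν) (by simpa using hne) k3 l3 k2 l2)
  have h2 : #((DD h ω p).filter fun μ => ¬ Sum.inr μ ≠ β) ≤ 1 := by
    refine card_le_one.2 fun μ hμ ν hν => ?_
    simp only [mem_filter, not_not] at hμ hν
    exact Sum.inr_injective (hμ.2.trans hν.2.symm)
  have h3 := card_filter_add_card_filter_not (s := DD h ω p) fun μ => Sum.inr μ ≠ β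
  omega


theorem overlap {h : Lab → F} {ω : F → F × Typ} {c : ℝ} {K : ℕ} (hc0 : 0 ≤ c) (hc1 : c ≤ 1)
    (hK : 1 ≤ K) (hreg : RegP h c K ω) (C : Finset (V F)) (hC : #C ≤ Fintype.card F)
    (ht : ∀ p ∈ C, ¬ rem h ω p) (x : ℝ) (hx : ∀ μ, (#(C ∩ ln μ) : ℝ) ≤ x) :
    ∑ μ ∈ SS h ω, ((#(C ∩ ln μ) : ℝ) - 1) ≤
      3 * Fintype.card F * K * √(Fintype.card F) + Fintype.card F * x / 2000 := by
  set q : ℝ := (Fintype.card F : ℝ) with hq
  have hq1 : (1 : ℝ) ≤ q := by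
    rw [hq]
    exact_mod_cast Fintype.card_pos
  have hn1 : (1 : ℝ) ≤ √q := Real.one_le_sqrt.2 hq1
  have hK1 : (1 : ℝ) ≤ K := by exact_mod_cast hK
  have hx0 : 0 ≤ x := le_trans (Nat.cast_nonneg _) (hx 0)
  have hne : ∀ p ∈ C, p ≠ (none, 0) := fun p hp e => ht p hp (by rw [e]; simp)
  have h1 : ∑ μ ∈ SS h ω, #(C ∩ ln μ) = ∑ p ∈ C, #(DD h ω p) := by
    have e1 : ∀ μ, #(C ∩ ln μ) = ∑ p ∈ C, if p ∈ ln μ then 1 else 0 := fun μ => by
      rw [← filter_mem_eq_inter, card_filter]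
    simp only [e1]
    rw [sum_comm]
    refine sum_congr rfl fun p hp => ?_
    rw [← card_filter]
    congr 1
    ext μ
    simp [mem_DD_true (ht p hp)]
  have h2 : (#{p ∈ C | p.1 ≠ none ∧ ∃ k, p.2 = h k} : ℝ) ≤ 12 * x := by
    have e1 : #{p ∈ C | p.1 ≠ none ∧ ∃ k, p.2 = h k} ≤ ∑ k : Lab, #(C ∩ ln (0, h k)) := by
      refine le_trans (card_le_card ?_) (card_biUnion_le (s := univ) (t := fun k : Lab => C ∩ ln (0, h k)))
      rintro ⟨_ | t, y⟩ hp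
      · simp at hp
      · simp only [mem_filter] at hp
        obtain ⟨hp1, -, k, hk⟩ := hp
        simp only [mem_biUnion, mem_univ, true_and, mem_inter, mem_ln, ph_some]
        exact ⟨k, hp1, by simpa using hk.symm⟩
    calc _ ≤ ((∑ k : Lab, #(C ∩ ln (0, h k)) : ℕ) : ℝ) := by exact_mod_cast e1
      _ ≤ ∑ _k : Lab, x := by
        push_cast
        exact sum_le_sum fun k _ => hx _
      _ = 12 * x := by simp
  have h3 : ∑ p ∈ C, (#(DD h ω p) : ℝ) ≤ q * (c * q + K * √q) + 12 * x * (q / 100000) := by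
    refine (sum_le_sum fun p hp => (hreg p (hne p hp)).2).trans ?_
    rw [sum_add_distrib, sum_const, nsmul_eq_mul, ← sum_filter, sum_const, nsmul_eq_mul]
    have hC' : (#C : ℝ) ≤ q := by rw [hq]; exact_mod_cast hC
    gcongr
  have h4 : (q - 1) * (c * q - K * √q) ≤ #(SS h ω) := by
    have e1 : #(SS h ω) = ∑ a ∈ univ.erase (0 : F), #(DD h ω (none, a)) := by
      rw [card_eq_sum_card_fiberwise (f := Prod.fst) (t := univ.erase (0 : F))]
      · refine sum_congr rfl fun a ha => ?_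
        congr 1
        ext μ
        rw [mem_DD_true (by simpa using ha)]
        simp
      · intro μ hμ
        simp only [SS, coe_filter, mem_univ, true_and, Set.mem_ofPred_eq] at hμ
        simpa using hμ.1
    rw [e1]
    push_cast
    refine le_trans (le_of_eq ?_) (sum_le_sum fun a ha => (hreg (none, a) (by simpa using ha)).1)
    rw [sum_const, nsmul_eq_mul, card_erase_of_mem (mem_univ _), card_univ, Nat.cast_sub Fintype.card_pos]
    simp [hq]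
  rw [sum_sub_distrib, sum_const, nsmul_eq_mul, mul_one]
  have h5 : ∑ μ ∈ SS h ω, (#(C ∩ ln μ) : ℝ) = ∑ p ∈ C, (#(DD h ω p) : ℝ) := by exact_mod_cast h1
  rw [h5]
  have h6 : 1 ≤ K * √q := one_le_mul_of_one_le_of_one_le hK1 hn1
  have h7 : c * q ≤ q * (K * √q) := by nlinarith
  have h8 : 0 ≤ q * x := by positivity
  nlinarith


theorem pairs_A (S : Finset (F × F)) (C : Finset (V F)) (hcov : ∀ μ ∈ S, (C ∩ ln μ).Nonempty)
    (β : Option F ⊕ F × F) :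
    (#{x ∈ (C ∩ blk β) ×ˢ (C \ blk β) | x.1.1 ≠ x.2.1 ∧ join x.1 x.2 ∈ S} : ℝ) ≤
      ∑ μ ∈ S, ((#(C ∩ ln μ) : ℝ) - 1) := by
  rw [card_eq_sum_card_fiberwise (f := fun x : V F × V F => join x.1 x.2) (t := S)
    (fun x hx => (mem_filter.1 hx).2.2)]
  push_cast
  refine sum_le_sum fun μ hμ => ?_
  have h1 : 1 ≤ #(C ∩ ln μ) := card_pos.2 (hcov μ hμ)
  rw [le_sub_iff_add_le]
  norm_cast
  set A := {x ∈ {x ∈ (C ∩ blk β) ×ˢ (C \ blk β) | x.1.1 ≠ x.2.1 ∧ join x.1 x.2 ∈ S} | join x.1 x.2 = μ} with hA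
  have key : ∀ x ∈ A, x.1 ∈ C ∧ x.1 ∈ blk β ∧ x.2 ∈ C ∧ x.2 ∉ blk β ∧ x.1 ∈ ln μ ∧ x.2 ∈ ln μ := by
    intro x hx
    simp only [hA, mem_filter, mem_product, mem_inter, mem_sdiff] at hx
    obtain ⟨⟨⟨⟨k1, k2⟩, k3, k4⟩, k5, -⟩, k6⟩ := hx
    exact ⟨k1, k2, k3, k4, (mem_ln _ _).2 (k6 ▸ join_left k5), (mem_ln _ _).2 (k6 ▸ join_right k5)⟩
  rcases A.eq_empty_or_nonempty with e | ⟨x₀, hx₀⟩
  · rw [e]
    simpa using h1
  obtain ⟨k1, k2, -, k4, k5, k6⟩ := key x₀ hx₀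
  have hβ : Sum.inr μ ≠ β := fun e => k4 (e ▸ k6)
  have h2 : #A ≤ #((C ∩ ln μ).erase x₀.1) := by
    refine card_le_card_of_injOn Prod.snd (fun x hx => ?_) fun x hx y hy e => ?_
    · obtain ⟨-, -, l3, l4, -, l6⟩ := key x hx
      exact mem_coe.2 (mem_erase.2 ⟨fun e => l4 (e ▸ k2), mem_inter.2 ⟨l3, l6⟩⟩)
    · obtain ⟨-, l2, -, -, l5, -⟩ := key x hx
      obtain ⟨-, m2, -, -, m5, -⟩ := key y hy
      exact Prod.ext (blk_inter hβ l5 l2 m5 m2) e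
  rw [card_erase_of_mem (mem_inter.2 ⟨k1, k5⟩)] at h2
  omega


theorem pairs_B (S : Finset (F × F)) (C : Finset (V F)) (hcov : ∀ μ ∈ S, (C ∩ ln μ).Nonempty)
    (M : ℝ) (hM : 0 ≤ M) :
    (#{x ∈ C ×ˢ C | x.1.1 ≠ x.2.1 ∧ join x.1 x.2 ∈ S} : ℝ) ≤
      M * ∑ μ ∈ S, ((#(C ∩ ln μ) : ℝ) - 1) +
        ∑ μ ∈ ({μ | M < (#(C ∩ ln μ) : ℝ)} : Finset (F × F)), (#(C ∩ ln μ) : ℝ) ^ 2 := by
  rw [card_eq_sum_card_fiberwise (f := fun x : V F × V F => join x.1 x.2) (t := S)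
    (fun x hx => (mem_filter.1 hx).2.2)]
  push_cast
  have h1 : ∑ μ ∈ S, (if M < (#(C ∩ ln μ) : ℝ) then (#(C ∩ ln μ) : ℝ) ^ 2 else 0) ≤
      ∑ μ ∈ ({μ | M < (#(C ∩ ln μ) : ℝ)} : Finset (F × F)), (#(C ∩ ln μ) : ℝ) ^ 2 := by
    rw [← sum_filter]
    refine sum_le_sum_of_subset_of_nonneg (fun μ hμ => ?_) fun _ _ _ => by positivity
    simpa using (mem_filter.1 hμ).2
  refine le_trans ?_ (add_le_add_right h1 _)
  rw [mul_sum, ← sum_add_distrib]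
  refine sum_le_sum fun μ hμ => ?_
  have h2 : (1 : ℝ) ≤ #(C ∩ ln μ) := by exact_mod_cast card_pos.2 (hcov μ hμ)
  have h3 : #{x ∈ {x ∈ C ×ˢ C | x.1.1 ≠ x.2.1 ∧ join x.1 x.2 ∈ S} | join x.1 x.2 = μ} ≤
      #((C ∩ ln μ).offDiag) := by
    refine card_le_card fun x hx => ?_
    simp only [mem_filter, mem_product] at hx
    obtain ⟨⟨⟨k1, k2⟩, k5, -⟩, k6⟩ := hx
    exact mem_offDiag.2 ⟨mem_inter.2 ⟨k1, (mem_ln _ _).2 (k6 ▸ join_left k5)⟩,
      mem_inter.2 ⟨k2, (mem_ln _ _).2 (k6 ▸ join_right k5)⟩, fun e => k5 (by rw [e])⟩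
  rw [offDiag_card] at h3
  have h4 : (#{x ∈ {x ∈ C ×ˢ C | x.1.1 ≠ x.2.1 ∧ join x.1 x.2 ∈ S} | join x.1 x.2 = μ} : ℝ) ≤
      #(C ∩ ln μ) * #(C ∩ ln μ) - #(C ∩ ln μ) := by
    rw [← Nat.cast_mul, ← Nat.cast_sub (Nat.le_mul_self _)]
    exact_mod_cast h3
  refine h4.trans ?_
  split_ifs with hM'
  · nlinarith
  · push Not at hM'
    nlinarith


end Crest.Agent.R34
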