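import Crest.Agent.R34.Geo

/-!
# Row 34: deterministic choice of a sample in general position

Call `p, p'` S-joined if `p.1 ≠ p'.1 ∧ join p p' ∈ S`.  Markov: at least half of `P2` is S-joined to `≤ #P1 / 40` points of `P1`;
choose an injective `p' : Fin j → V F` among them.  Markov again: `P1' = {p ∈ P1 | p S-joined to ≤ j/20 of the p' b}` has
`≥ #P1 / 2` elements.  By induction on `m ≤ j` find `p : Fin m → P1'` with `Gen p p'` (`Fin.snoc`/`Fin.cons`): the new point must avoid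
the blocks (all pass through some `p' b`, so each has `≤ ρ` points of `P1`): `pt (p' b).1`; the horizontal line `(0, (p' b).2)`
if `(p' b).1 ≠ none` (if `(p' b).1 = none` the slope is `(p' b).2 ≠ 0`); `join (p' b) (p' b')` for different parts; the old lines
`join (p a) (p' b)`; `join (p' b) v` for `v` a common point of two different old lines (unique, `line_ext`) in another part than `p' b`.
At most `5 (j+1)^5` blocks.  `Gen.two`: a point `v ≠` new point lies on ≤ 1 new line, and on none if it lies on two old lines.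
-/

set_option autoImplicit false
open Classical Finset

namespace Crest.Agent.R34

variable {F : Type} [Field F] [Fintype F]

omit [Field F] [Fintype F] in
theorem Sel.markov {α : Type} (A : Finset α) (f : α → ℝ) (hf : ∀ a, 0 ≤ f a) (T : ℝ) (hT : 0 ≤ T)
    (h : ∑ a ∈ A, f a ≤ T * #A / 2) : (#A : ℝ) ≤ 2 * #{a ∈ A | f a ≤ T} := by
  by_contra hcon
  push Not at hcon
  have hc : (#{a ∈ A | f a ≤ T} : ℝ) + #{a ∈ A | ¬ f a ≤ T} = #A := by
    exact_mod_cast Finset.card_filter_add_card_filter_not (s := A) (fun a => f a ≤ T)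
  have hne : ({a ∈ A | ¬ f a ≤ T} : Finset α).Nonempty := by
    rw [← Finset.card_pos]
    have : (0 : ℝ) < #{a ∈ A | ¬ f a ≤ T} := by
      have : (0 : ℝ) ≤ #{a ∈ A | f a ≤ T} := Nat.cast_nonneg _
      linarith
    exact_mod_cast this
  have h1 : ∑ _a ∈ {a ∈ A | ¬ f a ≤ T}, T < ∑ a ∈ {a ∈ A | ¬ f a ≤ T}, f a :=
    Finset.sum_lt_sum_of_nonempty hne fun a ha => not_le.1 (Finset.mem_filter.1 ha).2
  have h2 : ∑ a ∈ {a ∈ A | ¬ f a ≤ T}, f a ≤ ∑ a ∈ A, f a :=
    Finset.sum_le_sum_of_subset_of_nonneg (Finset.filter_subset _ _) fun a _ _ => hf a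
  rw [Finset.sum_const, nsmul_eq_mul] at h1
  nlinarith

/-- the common point of two lines -/
noncomputable def Sel.mt (μ ν : F × F) : V F := ((meet_exists μ ν).choose, ph (meet_exists μ ν).choose μ)

omit [Fintype F] in
theorem Sel.eq_mt {μ ν : F × F} (hne : μ ≠ ν) {v : V F} (h1 : ph v.1 μ = v.2) (h2 : ph v.1 ν = v.2) :
    v = Sel.mt μ ν := by
  have h : v.1 = (meet_exists μ ν).choose := by
    by_contra hc
    exact hne (line_ext hc (h1.trans h2.symm) (meet_exists μ ν).choose_spec)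
  refine Prod.ext h ?_
  show v.2 = ph (meet_exists μ ν).choose μ
  rw [← h, h1]

theorem Sel.avoid (P1 Q : Finset (V F)) (hQ : Q ⊆ P1) (ρ : ℝ) {ι : Type} [Fintype ι]
    (β : ι → Option F ⊕ F × F) (hβ : ∀ i, (#(P1 ∩ blk (β i)) : ℝ) ≤ ρ)
    (hbig : Fintype.card ι * ρ < #Q) : ∃ q ∈ Q, ∀ i, q ∉ blk (β i) := by
  by_contra hcon
  push Not at hcon
  have hsub : Q ⊆ univ.biUnion fun i => P1 ∩ blk (β i) := by
    intro q hq
    obtain ⟨i, hi⟩ := hcon q hq
    exact Finset.mem_biUnion.2 ⟨i, mem_univ _, Finset.mem_inter.2 ⟨hQ hq, hi⟩⟩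
  have h1 : #Q ≤ ∑ i, #(P1 ∩ blk (β i)) := (Finset.card_le_card hsub).trans Finset.card_biUnion_le
  have h2 : (#Q : ℝ) ≤ ∑ i, (#(P1 ∩ blk (β i)) : ℝ) := by exact_mod_cast h1
  have h3 : ∑ i, (#(P1 ∩ blk (β i)) : ℝ) ≤ ∑ _i : ι, ρ := Finset.sum_le_sum fun i _ => hβ i
  rw [Finset.sum_const, nsmul_eq_mul, Finset.card_univ] at h3
  linarith

theorem Sel.cons {m j : ℕ} {p : Fin m → V F} {p' : Fin j → V F} (hG : Gen p p')
    (hinj : Function.Injective p') (hnz : ∀ b, p' b ≠ (none, 0)) (q : V F)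
    (h1 : ∀ b, q.1 ≠ (p' b).1)
    (h2 : ∀ b, (p' b).1 ≠ none → q ∉ ln ((0 : F), (p' b).2))
    (h3 : ∀ b b', (p' b).1 ≠ (p' b').1 → q ∉ ln (join (p' b) (p' b')))
    (h4 : ∀ a b, q ∉ ln (join (p a) (p' b)))
    (h5 : ∀ b (x x' : Fin m × Fin j),
      (p' b).1 ≠ (Sel.mt (join (p x.1) (p' x.2)) (join (p x'.1) (p' x'.2))).1 →
      q ∉ ln (join (p' b) (Sel.mt (join (p x.1) (p' x.2)) (join (p x'.1) (p' x'.2))))) :
    Gen (Fin.cons q p : Fin (m + 1) → V F) p' := by
  have hnew : ∀ b b', join q (p' b) = join q (p' b') → b = b' := by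
    intro b b' h
    by_contra hne
    have e1 := join_right (h1 b)
    have e2 := join_right (h1 b')
    rw [← h] at e2
    have hp := part_ne_of_on e1 e2 fun e => hne (hinj e)
    apply h3 b b' hp
    rw [join_eq hp e1 e2, mem_ln]
    exact join_left (h1 b)
  refine ⟨fun a b => ?_, fun a b => ?_, ?_, fun v hv hv' => ?_⟩
  · refine Fin.cases ?_ (fun a => ?_) a
    · exact h1 b
    · exact hG.part a b
  · refine Fin.cases ?_ (fun a => ?_) a
    · intro h0
      have h0' : (join q (p' b)).1 = 0 := h0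
      have e1 := join_right (h1 b)
      have e2 := join_left (h1 b)
      rcases hb : (p' b).1 with _ | t
      · rw [hb, ph_none, h0'] at e1
        exact hnz b (Prod.ext hb e1.symm)
      · rw [hb, ph_some, h0', zero_mul, zero_add] at e1
        apply h2 b (by rw [hb]; simp)
        have : join q (p' b) = ((0 : F), (p' b).2) := Prod.ext h0' e1
        rw [mem_ln, ← this]
        exact e2
    · exact hG.slope a b
  · rintro ⟨a, b⟩ ⟨a', b'⟩ h
    revert h
    refine Fin.cases ?_ (fun a => ?_) a <;> refine Fin.cases ?_ (fun a' => ?_) a' <;> intro h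
    · rw [hnew b b' h]
    · exfalso
      have h' : join q (p' b) = join (p a') (p' b') := h
      apply h4 a' b'
      rw [mem_ln, ← h']
      exact join_left (h1 b)
    · exfalso
      have h' : join (p a) (p' b) = join q (p' b') := h
      apply h4 a b
      rw [mem_ln, h']
      exact join_left (h1 b')
    · have h' : ((a, b) : Fin m × Fin j) = (a', b') := hG.inj h
      rw [(Prod.mk.inj h').1, (Prod.mk.inj h').2]
  · have hvq : v ≠ q := hv 0
    have hvp : ∀ a, v ≠ p a := fun a => hv a.succ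
    have hold := hG.two v hvp hv'
    set To : Finset (Fin m × Fin j) := {x | ph v.1 (join (p x.1) (p' x.2)) = v.2} with hTo
    set Tn : Finset (Fin j) := {b | ph v.1 (join q (p' b)) = v.2} with hTn
    have hsub : ({x : Fin (m + 1) × Fin j |
        ph v.1 (join ((Fin.cons q p : Fin (m + 1) → V F) x.1) (p' x.2)) = v.2} : Finset _) ⊆
        Tn.image (fun b => ((0 : Fin (m + 1)), b)) ∪ To.image fun x => (x.1.succ, x.2) := by
      rintro ⟨a, b⟩ hx
      have hx' := (Finset.mem_filter.1 hx).2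
      revert hx'
      refine Fin.cases ?_ (fun a => ?_) a <;> intro hx'
      · exact Finset.mem_union_left _ (Finset.mem_image.2
          ⟨b, Finset.mem_filter.2 ⟨mem_univ _, hx'⟩, rfl⟩)
      · exact Finset.mem_union_right _ (Finset.mem_image.2
          ⟨(a, b), Finset.mem_filter.2 ⟨mem_univ _, hx'⟩, rfl⟩)
    have hle := (Finset.card_le_card hsub).trans ((Finset.card_union_le _ _).trans
      (add_le_add Finset.card_image_le Finset.card_image_le))
    have hn1 : #Tn ≤ 1 := by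
      refine Finset.card_le_one.2 fun b hb b' hb' => hnew b b' ?_
      have e1 := (Finset.mem_filter.1 hb).2
      have e2 := (Finset.mem_filter.1 hb').2
      have hp := part_ne_of_on e1 (join_left (h1 b)) hvq
      exact line_ext hp (e1.trans e2.symm) ((join_left (h1 b)).trans (join_left (h1 b')).symm)
    by_cases ho : #To ≤ 1
    · omega
    · obtain ⟨x, hx, x', hx', hne⟩ := Finset.one_lt_card.1 (not_le.1 ho)
      have hv2 := Sel.eq_mt (fun e => hne (hG.inj e)) (Finset.mem_filter.1 hx).2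
        (Finset.mem_filter.1 hx').2
      have hn0 : #Tn = 0 := by
        rw [Finset.card_eq_zero, Finset.eq_empty_iff_forall_notMem]
        intro b hb
        have e1 := (Finset.mem_filter.1 hb).2
        have e2 := join_right (h1 b)
        have hp := part_ne_of_on e2 e1 (hv' b).symm
        apply h5 b x x' (hv2 ▸ hp)
        rw [← hv2, join_eq hp e2 e1, mem_ln]
        exact join_left (h1 b)
      omega

theorem Sel.step (P1 Q : Finset (V F)) (hQ : Q ⊆ P1) {j : ℕ} (ρ : ℝ) (hρ0 : 0 ≤ ρ) {p' : Fin j → V F}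
    (hinj : Function.Injective p') (hnz : ∀ b, p' b ≠ (none, 0))
    (hρ : ∀ β b, p' b ∈ blk β → (#(P1 ∩ blk β) : ℝ) ≤ ρ) (hbig : 5 * ((j : ℝ) + 1) ^ 5 * ρ < #Q)
    {m : ℕ} (hm : m ≤ j) : ∃ p : Fin m → V F, (∀ a, p a ∈ Q) ∧ Gen p p' := by
  induction m with
  | zero =>
    refine ⟨Fin.elim0, fun a => a.elim0, fun a => a.elim0, fun a => a.elim0, fun x => x.1.elim0,
      fun v _ _ => ?_⟩
    exact (Finset.card_le_univ _).trans (by simp)
  | succ m ih =>
    obtain ⟨p, hp, hG⟩ := ih (by omega)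
    let β : Fin j ⊕ Fin j ⊕ (Fin j × Fin j) ⊕ (Fin m × Fin j) ⊕
        (Fin j × (Fin m × Fin j) × (Fin m × Fin j)) → Option F ⊕ F × F :=
      Sum.elim (fun b => Sum.inl (p' b).1) <|
      Sum.elim (fun b => if (p' b).1 ≠ none then Sum.inr ((0 : F), (p' b).2) else Sum.inl (p' b).1) <|
      Sum.elim (fun x => if (p' x.1).1 ≠ (p' x.2).1 then Sum.inr (join (p' x.1) (p' x.2))
        else Sum.inl (p' x.1).1) <|
      Sum.elim (fun x => Sum.inr (join (p x.1) (p' x.2))) fun y =>
        if (p' y.1).1 ≠ (Sel.mt (join (p y.2.1.1) (p' y.2.1.2)) (join (p y.2.2.1) (p' y.2.2.2))).1 then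
          Sum.inr (join (p' y.1) (Sel.mt (join (p y.2.1.1) (p' y.2.1.2)) (join (p y.2.2.1) (p' y.2.2.2))))
        else Sum.inl (p' y.1).1
    have hβ : ∀ i, (#(P1 ∩ blk (β i)) : ℝ) ≤ ρ := by
      rintro (b | b | x | x | y)
      · exact hρ _ b (by simp [β])
      · refine hρ _ b ?_
        simp only [β, Sum.elim_inl, Sum.elim_inr]
        split_ifs with h
        · obtain ⟨t, ht⟩ := Option.ne_none_iff_exists'.1 h
          simp [ht]
        · simp
      · refine hρ _ x.1 ?_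
        simp only [β, Sum.elim_inl, Sum.elim_inr]
        split_ifs with h
        · simpa using join_left h
        · simp
      · refine hρ _ x.2 ?_
        simpa [β] using join_right (hG.part x.1 x.2)
      · refine hρ _ y.1 ?_
        simp only [β, Sum.elim_inr]
        split_ifs with h
        · simpa using join_left h
        · simp
    have hcard : (Fintype.card (Fin j ⊕ Fin j ⊕ (Fin j × Fin j) ⊕ (Fin m × Fin j) ⊕
        (Fin j × (Fin m × Fin j) × (Fin m × Fin j))) : ℝ) ≤ 5 * ((j : ℝ) + 1) ^ 5 := by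
      simp only [Fintype.card_sum, Fintype.card_prod, Fintype.card_fin]
      push_cast
      have hmj : (m : ℝ) ≤ j := by exact_mod_cast (by omega : m ≤ j)
      have hm0 : (0 : ℝ) ≤ m := Nat.cast_nonneg _
      have hj0 : (0 : ℝ) ≤ j := Nat.cast_nonneg _
      have e1 : (m : ℝ) * j ≤ j * j := by gcongr
      have e2 : (j : ℝ) * (m * j * (m * j)) ≤ j * (j * j * (j * j)) := by gcongr
      have e3 : 0 ≤ (j : ℝ) ^ 2 := by positivity
      have e4 : 0 ≤ (j : ℝ) ^ 3 := by positivity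
      have e5 : 0 ≤ (j : ℝ) ^ 4 := by positivity
      have e6 : 0 ≤ (j : ℝ) ^ 5 := by positivity
      nlinarith
    obtain ⟨q, hq, hav⟩ := Sel.avoid P1 Q hQ ρ β hβ
      (lt_of_le_of_lt (mul_le_mul_of_nonneg_right hcard hρ0) hbig)
    refine ⟨Fin.cons q p, fun a => Fin.cases hq hp a, Sel.cons hG hinj hnz q (fun b => ?_)
      (fun b h => ?_) (fun b b' h => ?_) (fun a b => ?_) fun b x x' h => ?_⟩
    · simpa [β] using hav (Sum.inl b)
    · have := hav (Sum.inr (Sum.inl b))
      simp only [β, Sum.elim_inl, Sum.elim_inr, if_pos h] at this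
      exact this
    · have := hav (Sum.inr (Sum.inr (Sum.inl (b, b'))))
      simp only [β, Sum.elim_inl, Sum.elim_inr, if_pos h] at this
      exact this
    · exact hav (Sum.inr (Sum.inr (Sum.inr (Sum.inl (a, b)))))
    · have := hav (Sum.inr (Sum.inr (Sum.inr (Sum.inr (b, x, x')))))
      simp only [β, Sum.elim_inr, if_pos h] at this
      exact this

theorem select (P1 P2 : Finset (V F)) (S : Finset (F × F)) (j : ℕ) (ρ : ℝ) (hρ0 : 0 ≤ ρ)
    (hP2 : 2 * j ≤ #P2) (hρ : ∀ β, ∀ p' ∈ P2, p' ∈ blk β → (#(P1 ∩ blk β) : ℝ) ≤ ρ)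
    (hbig : 20 * ((j : ℝ) + 1) ^ 5 * ρ < #P1) (hnz : ∀ p' ∈ P2, p' ≠ (none, 0))
    (hS : (#{x ∈ P1 ×ˢ P2 | x.1.1 ≠ x.2.1 ∧ join x.1 x.2 ∈ S} : ℝ) ≤ #P1 * #P2 / 80) :
    ∃ p p' : Fin j → V F, (∀ a, p a ∈ P1) ∧ (∀ b, p' b ∈ P2) ∧ Gen p p' ∧
      (#{x : Fin j × Fin j | join (p x.1) (p' x.2) ∈ S} : ℝ) ≤ (j : ℝ) ^ 2 / 20 := by
  let f : V F → ℝ := fun p' => #{p ∈ P1 | p.1 ≠ p'.1 ∧ join p p' ∈ S}
  have hf : ∑ p' ∈ P2, f p' = #{x ∈ P1 ×ˢ P2 | x.1.1 ≠ x.2.1 ∧ join x.1 x.2 ∈ S} := by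
    simp only [f, Finset.card_filter, Nat.cast_sum, Finset.sum_product_right]
  have h1 := Sel.markov P2 f (fun _ => Nat.cast_nonneg _) (#P1 / 40) (by positivity)
    (by rw [hf]; linarith)
  have hj : Fintype.card (Fin j) ≤ #{a ∈ P2 | f a ≤ #P1 / 40} := by
    have : (2 * j : ℝ) ≤ #P2 := by exact_mod_cast hP2
    have h2 : (j : ℝ) ≤ #{a ∈ P2 | f a ≤ #P1 / 40} := by linarith
    rw [Fintype.card_fin]
    exact_mod_cast h2
  obtain ⟨e, he⟩ := Function.Embedding.exists_of_card_le_finset hj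
  have he' : ∀ b, e b ∈ P2 ∧ f (e b) ≤ #P1 / 40 := fun b =>
    Finset.mem_filter.1 (Finset.mem_coe.1 (he ⟨b, rfl⟩))
  let g : V F → ℝ := fun p => #{b : Fin j | p.1 ≠ (e b).1 ∧ join p (e b) ∈ S}
  have hg : ∑ p ∈ P1, g p = ∑ b, f (e b) := by
    simp only [f, g, Finset.card_filter, Nat.cast_sum]
    exact Finset.sum_comm
  have hg' : ∑ b, f (e b) ≤ j * (#P1 / 40) := by
    have := Finset.sum_le_sum (s := (univ : Finset (Fin j))) fun b _ => (he' b).2
    simpa using this
  have h2 := Sel.markov P1 g (fun _ => Nat.cast_nonneg _) (j / 20) (by positivity)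
    (by rw [hg]; linarith)
  have hpos : 0 ≤ ((j : ℝ) + 1) ^ 5 * ρ := by positivity
  obtain ⟨p, hp, hG⟩ := Sel.step P1 {a ∈ P1 | g a ≤ j / 20} (Finset.filter_subset _ _) ρ hρ0
    e.injective (fun b => hnz _ (he' b).1) (fun β b hb => hρ β _ (he' b).1 hb) (by linarith) le_rfl
  refine ⟨p, e, fun a => (Finset.mem_filter.1 (hp a)).1, fun b => (he' b).1, hG, ?_⟩
  have h3 : (#{x : Fin j × Fin j | join (p x.1) (e x.2) ∈ S} : ℝ) = ∑ a, g (p a) := by
    simp only [g, Finset.card_filter, Nat.cast_sum, Fintype.sum_prod_type]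
    refine Finset.sum_congr rfl fun a _ => Finset.sum_congr rfl fun b _ => ?_
    simp [hG.part a b]
  have h4 := Finset.sum_le_sum (s := (univ : Finset (Fin j))) fun a _ => (Finset.mem_filter.1 (hp a)).2
  rw [h3]
  refine h4.trans (le_of_eq ?_)
  simp
  ring

end Crest.Agent.R34
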