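import Crest.Agent.R34.Inc
import Crest.Agent.R34.Select
import Crest.Agent.R34.Overlap

/-!
# Row 34: rigidity of small covers

`q = card F`, `n = √q`.  If some block has `#(C \\ blk β) < q/10` use `near_block` and `#DD ≥ q/5 - K n ≥ q/10 + 1`.
Otherwise take a block `β` with maximal `x = #(C ∩ blk β)`.
Case `x ≥ K² n`: `select` with `P1 = C ∩ blk β`, `P2 = C \\ blk β` (`≥ q/10`), `ρ = 1` (`card_inter_blk_le`), `pairs_A`, `overlap`:
`3 q K n + q x / 2000 ≤ x (q/10) / 80` as `K ≥ 4000`.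
Case `x < K² n`: `P1 = P2 = C` (`#C ≥ q/10`), `ρ = K² n`, `pairs_B` with `M = n / K³`, `overlap` (`≤ q K² n`), `inc`:
`≤ 2 q² / K ≤ (q/10)² / 80` as `K ≥ 16000`.  Both contradict `SampP`.
-/

set_option autoImplicit false
open Classical Finset

namespace Crest.Agent.R34

theorem rigid : ∃ N : ℕ, 1 ≤ N ∧ ∀ (F : Type) [Field F] [Fintype F], HSub F → ∀ (K : ℕ),
    Par N (Fintype.card F) K → ∀ (h : Lab → F) (ω : F → F × Typ) (c : ℝ), 1 / 5 ≤ c → c ≤ 1 →
    RegP h c K ω → SampP h K ω → ∀ C : Finset (V F), #C ≤ Fintype.card F →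
    (∀ p ∈ C, ¬ rem h ω p) → (∀ μ ∈ SS h ω, (C ∩ ln μ).Nonempty) →
    ∃ β, ∀ p ∈ blk β, ¬ rem h ω p → p ∈ C := by
  obtain ⟨N0, hN0, Hinc⟩ := inc
  refine ⟨N0 + 16000, by omega, fun F _ _ hF K hP h ω c hc0 hc1 hreg hsamp C hC ht hcov => ?_⟩
  have Hi := Hinc F hF K (hP.mono (by omega) hN0) C hC
  obtain ⟨h1, h2, -⟩ := hP
  obtain ⟨q, hq⟩ : ∃ q : ℝ, q = ((Fintype.card F : ℕ) : ℝ) := ⟨_, rfl⟩
  obtain ⟨n, hn⟩ : ∃ n : ℝ, n = √q := ⟨_, rfl⟩
  rw [← hq, ← hn] at Hi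
  have hq0 : (0 : ℝ) ≤ q := by rw [hq]; exact Nat.cast_nonneg _
  have hn2 : n ^ 2 = q := by rw [hn]; exact Real.sq_sqrt hq0
  have hK : (16000 : ℝ) ≤ K := by exact_mod_cast (by omega : 16000 ≤ K)
  have hK1 : (1 : ℝ) ≤ K := by linarith
  have hK0 : (0 : ℝ) < K := by linarith
  have hn0 : 0 ≤ n := by rw [hn]; exact Real.sqrt_nonneg _
  have hKn : (K : ℝ) ^ 8 ≤ n := by
    rw [hn]
    apply Real.le_sqrt_of_sq_le
    rw [← pow_mul]
    refine le_trans (pow_le_pow_right₀ hK1 (by omega : 8 * 2 ≤ N0 + 16000)) ?_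
    rw [hq]; exact_mod_cast h2
  have hp5 : ((K : ℝ) + 1) ^ 5 ≤ 32 * K ^ 5 := by
    calc _ ≤ (2 * (K : ℝ)) ^ 5 := pow_le_pow_left₀ (by positivity) (by linarith) 5
      _ = _ := by ring
  have hK8 : 16000 * (K : ℝ) ^ 7 ≤ n := by
    refine le_trans ?_ hKn
    rw [pow_succ (K : ℝ) 7, mul_comm]
    exact mul_le_mul_of_nonneg_left hK (by positivity)
  have hK7 : (K : ℝ) ≤ K ^ 7 := by
    simpa using pow_le_pow_right₀ hK1 (by norm_num : 1 ≤ 7)
  have hK57 : (K : ℝ) ^ 5 ≤ K ^ 7 := pow_le_pow_right₀ hK1 (by norm_num)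
  have hnK : 16000 * (K : ℝ) ≤ n := by linarith
  have hn1 : 1 ≤ n := by linarith
  have hnpos : 0 < n := by linarith
  have hqn : 16000 * (K * n) ≤ q := by
    rw [← hn2, sq, ← mul_assoc]; exact mul_le_mul_of_nonneg_right hnK hn0
  have hKn1 : K ≤ K * n := le_mul_of_one_le_right hK0.le hn1
  have hnz : ∀ p ∈ C, p ≠ (none, 0) := fun p hp H => ht p hp (by rw [H]; simp)
  by_cases hnear : ∃ β, (#(C \ blk β) : ℝ) < q / 10
  · obtain ⟨β, hβ⟩ := hnear
    refine ⟨β, fun p hp htp => ?_⟩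
    by_contra hpC
    have h3 : (#(DD h ω p) : ℝ) ≤ #(C \ blk β) + 1 := by
      exact_mod_cast near_block C hcov β p hp htp hpC
    have h4 := (hreg p (fun H => htp (by rw [H]; simp))).1
    have h5 : q / 5 ≤ c * q := by nlinarith
    rw [← hq, ← hn] at h4
    linarith
  exfalso
  push Not at hnear
  obtain ⟨β, -, hβ⟩ := exists_max_image (univ : Finset (Option F ⊕ F × F))
    (fun β => #(C ∩ blk β)) ⟨Sum.inl none, mem_univ _⟩
  obtain ⟨x, hx⟩ : ∃ x : ℝ, x = ((#(C ∩ blk β) : ℕ) : ℝ) := ⟨_, rfl⟩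
  have hxβ : ∀ β', (#(C ∩ blk β') : ℝ) ≤ x := fun β' => by
    rw [hx]; exact_mod_cast hβ β' (mem_univ _)
  have hfin : ∀ (P1 P2 : Finset (V F)) (ρ : ℝ), P1 ⊆ C → P2 ⊆ C → 0 ≤ ρ → q / 10 ≤ #P2 →
      (∀ β, ∀ p' ∈ P2, p' ∈ blk β → (#(P1 ∩ blk β) : ℝ) ≤ ρ) →
      20 * ((K : ℝ) + 1) ^ 5 * ρ < #P1 →
      (#{x ∈ P1 ×ˢ P2 | x.1.1 ≠ x.2.1 ∧ join x.1 x.2 ∈ SS h ω} : ℝ) ≤ #P1 * #P2 / 80 → False := by
    intro P1 P2 ρ s1 s2 hρ0 hP2 hρ hbig hS
    have hP2' : 2 * K ≤ #P2 := by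
      have : (2 * K : ℝ) ≤ #P2 := by linarith
      exact_mod_cast this
    obtain ⟨p, p', hp, hp', hgen, hle⟩ := select P1 P2 (SS h ω) K ρ hρ0 hP2' hρ hbig
      (fun p' hp' => hnz p' (s2 hp')) hS
    exact absurd (hsamp p p' hgen (fun a => ht _ (s1 (hp a))) (fun b => ht _ (s2 (hp' b))))
      (not_lt.2 hle)
  have hK1' : 1 ≤ K := by omega
  by_cases hcase : (K : ℝ) ^ 2 * n ≤ x
  · have hov := overlap (by linarith) hc1 hK1' hreg C hC ht x (fun μ => hxβ (Sum.inr μ))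
    rw [← hq, ← hn] at hov
    have hx0 : 0 ≤ x := by rw [hx]; exact Nat.cast_nonneg _
    refine hfin (C ∩ blk β) (C \ blk β) 1 inter_subset_left sdiff_subset zero_le_one (hnear β)
      ?_ ?_ ?_
    · intro β' p' hp' hp'β
      have hne : β ≠ β' := fun H => (mem_sdiff.1 hp').2 (H ▸ hp'β)
      have : #(C ∩ blk β ∩ blk β') ≤ 1 := by
        refine le_trans (card_le_card ?_) (card_inter_blk_le hne)
        rw [inter_assoc]; exact inter_subset_right
      exact_mod_cast this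
    · have : n ≤ (K : ℝ) ^ 2 * n := le_mul_of_one_le_left hn0 (one_le_pow₀ hK1)
      have h7 : (0 : ℝ) < K ^ 7 := by positivity
      rw [← hx]
      linarith
    · refine le_trans (pairs_A _ C hcov β) (le_trans hov ?_)
      have h3 : 16000 * (K * n) ≤ x := by
        refine le_trans ?_ hcase
        rw [sq, mul_assoc]; exact mul_le_mul_of_nonneg_right hK (by positivity)
      have h4 : q * (16000 * (K * n)) ≤ q * x := mul_le_mul_of_nonneg_left h3 hq0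
      have h5 : x * (q / 10) ≤ x * #(C \ blk β) := mul_le_mul_of_nonneg_left (hnear β) hx0
      have h6 : 0 ≤ q * x := mul_nonneg hq0 hx0
      rw [← hx]
      linarith
  · push Not at hcase
    have hxK : ∀ β', (#(C ∩ blk β') : ℝ) ≤ K ^ 2 * n := fun β' => (hxβ β').trans hcase.le
    have hov := overlap (by linarith) hc1 hK1' hreg C hC ht _ (fun μ => hxK (Sum.inr μ))
    rw [← hq, ← hn] at hov
    have hCq : q / 10 ≤ #C := by
      refine (hnear β).trans ?_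
      exact_mod_cast card_le_card sdiff_subset
    have Hi' := Hi (fun μ => hxK (Sum.inr μ))
    refine hfin C C (K ^ 2 * n) subset_rfl subset_rfl (by positivity) hCq
      (fun β' _ _ _ => hxK β') ?_ ?_
    · have h3 : 20 * ((K : ℝ) + 1) ^ 5 * (K ^ 2 * n) ≤ 20 * (32 * K ^ 5) * (K ^ 2 * n) := by
        gcongr
      have h4 : 16000 * (K : ℝ) ^ 7 * n ≤ n * n := mul_le_mul_of_nonneg_right hK8 hn0
      have h5 : 0 < (K : ℝ) ^ 7 * n := by positivity
      have h6 : n * n = q := by rw [← hn2]; ring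
      have h7 : 20 * (32 * (K : ℝ) ^ 5) * (K ^ 2 * n) = 640 * (K ^ 7 * n) := by ring
      linarith
    · refine le_trans (pairs_B _ C hcov (n / K ^ 3) (by positivity)) ?_
      have h3 : 3 * q * K * n + q * (K ^ 2 * n) / 2000 ≤ q * (K ^ 2 * n) := by
        have h4 : q * (K * n) * 16000 ≤ q * (K * n) * K :=
          mul_le_mul_of_nonneg_left hK (by positivity)
        have h5 : 0 ≤ q * (K * n) := by positivity
        linarith
      have h4 : n / K ^ 3 * ∑ μ ∈ SS h ω, ((#(C ∩ ln μ) : ℝ) - 1) ≤ q ^ 2 / K := by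
        calc _ ≤ n / K ^ 3 * (q * (K ^ 2 * n)) :=
              mul_le_mul_of_nonneg_left (hov.trans h3) (by positivity)
          _ = q * n ^ 2 / K := by field_simp
          _ = _ := by rw [hn2, sq]
      have h5 : q ^ 2 / K ≤ q ^ 2 / 16000 := div_le_div_of_nonneg_left (by positivity) (by norm_num) hK
      have h6 : q / 10 * (q / 10) ≤ #C * #C := mul_le_mul hCq hCq (by positivity) (by positivity)
      have h7 : ∑ μ ∈ ({μ | n / K ^ 3 < (#(C ∩ ln μ) : ℝ)} : Finset (F × F)),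
          (#(C ∩ ln μ) : ℝ) ^ 2 ≤ q ^ 2 / K := Hi'
      linarith

end Crest.Agent.R34
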