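import Crest.Agent.R34.Defs

/-!
# Row 34: potential argument ("balls in bins" survival bound)

Plan. Prove by induction on the number of columns (e.g. `ι = Fin n` with `Fin.cons`, then transport), for all
`A : Finset Λ` and `φ ∈ [1/2,1]`:
`avg_ω φ ^ #{x ∈ A | ∀ t, x ∉ kill t (ω t)} ≤ (1 - (1-p)^n (1-φ)) ^ #A * ∏ t, (1 + 64 ε_t)`, `ε_t = #(sp t) / card α`.
One step (first column `t`, induction hypothesis for `A \\ kill t c` with `ψ = 1 - (1-p)^(n-1) (1-φ) ∈ [1/2,1]`), `u = #A`: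
for `c ∈ sp t`, `ψ ^ #(A \\ kill) ≤ 64 ψ^u`; for `c ∉ sp t`, `ψ ^ #(A \\ kill) ≤ ψ^u + (1-ψ) ψ^(u-1) #(kill t c ∩ A)`;
averaging gives `≤ ψ^u + (1-ψ) ψ^(u-1) p u + 64 ε ψ^u ≤ (1 + 64 ε) (ψ + p (1-ψ))^u`
(`(a+b)^u ≥ a^u + u a^(u-1) b`), and `ψ + p (1-ψ) = 1 - (1-p)^n (1-φ)`.  Finally `1 + x ≤ exp x`.
-/

set_option autoImplicit false
open Classical Finset

namespace Crest.Agent.R34

theorem pot_step {α Λ : Type} [Fintype α] [DecidableEq Λ] (k : α → Finset Λ) (sp : Finset α)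
    (p ψ : ℝ) (hp0 : 0 ≤ p) (hψ : 1 / 2 ≤ ψ) (hψ1 : ψ ≤ 1) (h6 : ∀ c, #(k c) ≤ 6)
    (h1 : ∀ c, c ∉ sp → #(k c) ≤ 1)
    (hp : ∀ x, (#{c | c ∉ sp ∧ x ∈ k c} : ℝ) ≤ p * Fintype.card α) (A : Finset Λ) :
    ∑ c, ψ ^ #(A \ k c) ≤ (ψ + p * (1 - ψ)) ^ #A * (Fintype.card α + 64 * #sp) := by
  have hψ0 : 0 < ψ := by linarith
  have hc : ∀ c, ψ ^ #(A \ k c) ≤ ψ ^ #A + (if c ∈ sp then 64 * ψ ^ #A else 0) +
      (1 - ψ) * ψ ^ (#A - 1) * ∑ x ∈ A, (if c ∉ sp ∧ x ∈ k c then (1 : ℝ) else 0) := by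
    intro c
    have hcard : #(A \ k c) + #(A ∩ k c) = #A := Finset.card_sdiff_add_card_inter A (k c)
    have hle : #(A ∩ k c) ≤ #(k c) := Finset.card_le_card Finset.inter_subset_right
    by_cases hc : c ∈ sp
    · have h2 : ψ ^ #(A \ k c) ≤ 64 * ψ ^ #A := by
        have h3 : ψ ^ (#(A \ k c) + 6) ≤ ψ ^ #A :=
          pow_le_pow_of_le_one hψ0.le hψ1 (by have := h6 c; omega)
        have h4 : (1 / 2 : ℝ) ^ 6 ≤ ψ ^ 6 := by gcongr
        rw [pow_add] at h3
        have h5 := mul_le_mul_of_nonneg_left h4 (pow_pos hψ0 #(A \ k c)).le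
        nlinarith
      simp only [hc, if_true, not_true_eq_false, false_and, if_false, Finset.sum_const_zero,
        mul_zero, add_zero]
      linarith [pow_pos hψ0 #A]
    · have h2 : ∑ x ∈ A, (if c ∉ sp ∧ x ∈ k c then (1 : ℝ) else 0) = #(A ∩ k c) := by
        simp [hc]
      rw [h2, if_neg hc, add_zero]
      have h3 := h1 c hc
      rcases Nat.eq_zero_or_pos #(A ∩ k c) with h0 | h0
      · rw [h0] at hcard ⊢
        rw [add_zero] at hcard
        simp [hcard]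
      · have h4 : #(A ∩ k c) = 1 := by omega
        rw [h4] at hcard ⊢
        rw [← hcard]
        simp only [Nat.add_sub_cancel, Nat.cast_one, mul_one, pow_succ]
        linarith
  have hsum : ∑ c, ∑ x ∈ A, (if c ∉ sp ∧ x ∈ k c then (1 : ℝ) else 0) ≤
      #A * (p * Fintype.card α) := by
    rw [Finset.sum_comm]
    calc _ ≤ ∑ _x ∈ A, p * Fintype.card α := by
          refine Finset.sum_le_sum fun x _ => ?_
          rw [Finset.sum_boole]
          exact hp x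
      _ = _ := by simp
  have hb := pow_add_mul_le_add_pow (a := ψ) (b := p * (1 - ψ)) hψ0.le
    (by nlinarith [mul_nonneg hp0 (sub_nonneg.2 hψ1)]) #A
  have hb0 : 0 ≤ (#A : ℝ) * ψ ^ (#A - 1) * (p * (1 - ψ)) := by
    have := sub_nonneg.2 hψ1
    positivity
  calc ∑ c, ψ ^ #(A \ k c) ≤ _ := Finset.sum_le_sum fun c _ => hc c
    _ = Fintype.card α * ψ ^ #A + #sp * (64 * ψ ^ #A) + (1 - ψ) * ψ ^ (#A - 1) *
        ∑ c, ∑ x ∈ A, (if c ∉ sp ∧ x ∈ k c then (1 : ℝ) else 0) := by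
        rw [Finset.sum_add_distrib, Finset.sum_add_distrib, ← Finset.mul_sum]
        simp
    _ ≤ Fintype.card α * ψ ^ #A + #sp * (64 * ψ ^ #A) + (1 - ψ) * ψ ^ (#A - 1) *
        (#A * (p * Fintype.card α)) := by
        have := sub_nonneg.2 hψ1
        gcongr
    _ = (ψ ^ #A + #A * ψ ^ (#A - 1) * (p * (1 - ψ))) * Fintype.card α + ψ ^ #A * (64 * #sp) := by
        ring
    _ ≤ (ψ + p * (1 - ψ)) ^ #A * Fintype.card α + (ψ + p * (1 - ψ)) ^ #A * (64 * #sp) := by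
        have h7 : ψ ^ #A ≤ (ψ + p * (1 - ψ)) ^ #A := by linarith
        gcongr
    _ = _ := by ring

theorem pot_fin {α Λ : Type} [Fintype α] [Nonempty α] [DecidableEq Λ] (p : ℝ) (hp0 : 0 ≤ p)
    (hp1 : p ≤ 1) (n : ℕ) : ∀ (kill : Fin n → α → Finset Λ) (sp : Fin n → Finset α),
    (∀ t c, #(kill t c) ≤ 6) → (∀ t c, c ∉ sp t → #(kill t c) ≤ 1) →
    (∀ t x, (#{c | c ∉ sp t ∧ x ∈ kill t c} : ℝ) ≤ p * Fintype.card α) → ∀ A : Finset Λ,
    ∑ ω : Fin n → α, (1 / 2 : ℝ) ^ #{x ∈ A | ∀ t, x ∉ kill t (ω t)} ≤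
      (1 - (1 - p) ^ n / 2) ^ #A * ∏ t, ((Fintype.card α : ℝ) + 64 * #(sp t)) := by
  induction n with
  | zero =>
    intro kill sp _ _ _ A
    have : (1 - (1 - p) ^ 0 / 2 : ℝ) = 1 / 2 := by norm_num
    rw [this]
    simp
  | succ n ih =>
    intro kill sp h6 h1 hp A
    rw [← (Fin.consEquiv fun _ : Fin (n + 1) => α).sum_comp, Fintype.sum_prod_type,
      Fin.prod_univ_succ]
    have hq0 : 0 ≤ (1 - p) ^ n := pow_nonneg (by linarith) _
    have hq1 : (1 - p) ^ n ≤ 1 := pow_le_one₀ (by linarith) (by linarith)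
    set ψ := 1 - (1 - p) ^ n / 2 with hψ
    have hstep := pot_step (kill 0) (sp 0) p ψ hp0 (by linarith) (by linarith) (h6 0) (h1 0)
      (hp 0) A
    have heq : ψ + p * (1 - ψ) = 1 - (1 - p) ^ (n + 1) / 2 := by
      rw [hψ]
      ring
    rw [heq] at hstep
    have hP : 0 ≤ ∏ t : Fin n, ((Fintype.card α : ℝ) + 64 * #(sp t.succ)) :=
      Finset.prod_nonneg fun t _ => by positivity
    calc _ ≤ ∑ c, ψ ^ #(A \ kill 0 c) * ∏ t : Fin n, ((Fintype.card α : ℝ) + 64 * #(sp t.succ)) := by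
          refine Finset.sum_le_sum fun c _ => ?_
          refine le_trans (le_of_eq ?_) (ih (fun t => kill t.succ) (fun t => sp t.succ)
            (fun t => h6 _) (fun t => h1 _) (fun t => hp _) (A \ kill 0 c))
          refine Finset.sum_congr rfl fun ω _ => ?_
          refine congrArg (fun m : ℕ => (1 / 2 : ℝ) ^ m) (congrArg Finset.card ?_)
          ext x
          rw [Finset.mem_filter, Finset.mem_filter, Finset.mem_sdiff, Fin.forall_fin_succ, and_assoc]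
          rfl
      _ = (∑ c, ψ ^ #(A \ kill 0 c)) * ∏ t : Fin n, ((Fintype.card α : ℝ) + 64 * #(sp t.succ)) := by
          rw [Finset.sum_mul]
      _ ≤ _ := by
          rw [← mul_assoc]
          exact mul_le_mul_of_nonneg_right hstep hP

theorem potential {ι α Λ : Type} [Fintype ι] [DecidableEq ι] [Fintype α] [Nonempty α] [Fintype Λ]
    [DecidableEq Λ] (kill : ι → α → Finset Λ) (sp : ι → Finset α) (p : ℝ) (hp0 : 0 ≤ p)
    (hp1 : p ≤ 1) (h6 : ∀ t c, #(kill t c) ≤ 6) (h1 : ∀ t c, c ∉ sp t → #(kill t c) ≤ 1)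
    (hp : ∀ t x, (#{c | c ∉ sp t ∧ x ∈ kill t c} : ℝ) ≤ p * Fintype.card α) :
    ∑ ω : ι → α, (1 / 2 : ℝ) ^ #{x | ∀ t, x ∉ kill t (ω t)} ≤
      (1 - (1 - p) ^ Fintype.card ι / 2) ^ Fintype.card Λ *
        Real.exp (64 * ∑ t, (#(sp t) : ℝ) / Fintype.card α) * Fintype.card (ι → α) := by
  have hpos : (0 : ℝ) < Fintype.card α := by exact_mod_cast Fintype.card_pos
  set e := Fintype.equivFin ι with he
  set E : (Fin (Fintype.card ι) → α) ≃ (ι → α) := Equiv.arrowCongr e.symm (Equiv.refl α) with hE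
  have hE' : ∀ ω, E ω = ω ∘ e := fun ω => by
    funext i
    simp [hE]
  have h := pot_fin p hp0 hp1 (Fintype.card ι) (fun t => kill (e.symm t)) (fun t => sp (e.symm t))
    (fun t => h6 _) (fun t => h1 _) (fun t => hp _) Finset.univ
  rw [e.symm.prod_comp fun t => (Fintype.card α : ℝ) + 64 * #(sp t), Finset.card_univ] at h
  rw [← E.sum_comp]
  have hq1 : (1 - p) ^ Fintype.card ι ≤ 1 := pow_le_one₀ (by linarith) (by linarith)
  have hb : 0 ≤ (1 - (1 - p) ^ Fintype.card ι / 2) ^ Fintype.card Λ := pow_nonneg (by linarith) _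
  refine le_trans (le_of_eq ?_) (h.trans ?_)
  · refine Finset.sum_congr rfl fun ω _ => ?_
    congr 2
    ext x
    simp only [hE', Finset.mem_filter, Finset.mem_univ, true_and, Function.comp]
    constructor
    · intro H t
      simpa using H (e.symm t)
    · intro H t
      simpa using H (e t)
  · rw [mul_assoc]
    gcongr
    rw [Finset.mul_sum, Real.exp_sum, Fintype.card_pi, Nat.cast_prod, ← Finset.prod_mul_distrib]
    refine Finset.prod_le_prod (fun t _ => by positivity) fun t _ => ?_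
    have h2 := Real.add_one_le_exp (64 * ((#(sp t) : ℝ) / Fintype.card α))
    calc (Fintype.card α : ℝ) + 64 * #(sp t)
        = (64 * ((#(sp t) : ℝ) / Fintype.card α) + 1) * Fintype.card α := by field_simp; ring
      _ ≤ _ := by gcongr

end Crest.Agent.R34
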