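import Crest.Agent.R34.Geo
import Crest.Agent.R34.Pot

/-!
# Row 34: samples in general position span many surviving lines

`q = card F`, `g = #G`, `r = K²`.  Fix `p p' : Fin K → V F` with `Gen p p'`, `ℓ x = join (p x.1) (p' x.2)`,
`P` = set of all `p a`, `p' b`.  Apply `potential` with `ι = F`, `α = G × Typ`, `Λ = Fin K × Fin K`, probability `1/g`,
`kill t c = {x | remc h c (ph (some t) (ℓ x)) ∧ (some t, ph (some t) (ℓ x)) ∉ P}` (≤ 3 heights, each on ≤ 2 lines: `Gen.two`),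
`sp t = {c | (∃ x ≠ x', ph (some t) (ℓ x) = c.1 = ph (some t) (ℓ x')) ∨ (act c.2 ∧ ∃ x k, ph (some t) (ℓ x) = h k)}`.
Outside `sp t` only the centre kills, and at most one line.  `∑_t #(sp t)/card α ≤ r²/g + 12 r / 100000`
(two different lines meet in ≤ 1 column, `line_ext`, `Gen.inj`; a non-horizontal line has height `h k` in one column).
If all of `P` is true, every surviving `x` has `ℓ x ∈ SS`.  So the bad event for `(p,p')` has probability
`≤ 2^(r/20) · 0.9^r · exp (64 (r²/g + 12 r/10^5)) ≤ exp ((0.035 - 0.1 + 0.015) r)`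
(`(1-1/g)^q ≥ 1/5`, `10^4 r ≤ g`), and the union bound runs over `(q² + q)^(2K) ≤ q^(6K) ≤ 2^(K²/100)` pairs (`N ≥ 600`).
-/

set_option autoImplicit false
open Classical Finset

namespace Crest.Agent.R34

theorem sa_fst {F : Type} (G : Finset F) (y : F) :
    #{c : G × Typ | y = c.1.1} ≤ Fintype.card Typ := by
  rw [← card_univ]
  refine card_le_card_of_injOn Prod.snd (fun _ _ => mem_coe.2 (mem_univ _)) fun c hc c' hc' H => ?_
  simp only [coe_filter, mem_univ, true_and, Set.mem_ofPred_eq] at hc hc'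
  exact Prod.ext (Subtype.ext (hc.symm.trans hc')) H

theorem sa_act {F : Type} (G : Finset F) :
    #{c : G × Typ | act c.2} * 100000 ≤ Fintype.card (G × Typ) := by
  have : #(({c : G × Typ | act c.2} : Finset _) ×ˢ (univ : Finset (Fin 100000))) ≤
      #(univ : Finset (G × Typ)) := by
    refine card_le_card_of_injOn (fun x => (x.1.1, x.1.2.1, x.1.2.2.1, x.2))
      (fun _ _ => mem_coe.2 (mem_univ _)) ?_
    rintro ⟨c1, r1⟩ h1 ⟨c2, r2⟩ h2 H
    simp only [coe_product, Set.mem_prod, mem_coe, mem_filter, mem_univ, true_and,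
      and_true] at h1 h2
    simp only [Prod.mk.injEq] at H
    exact Prod.ext (Prod.ext H.1 (Prod.ext H.2.1 (Prod.ext H.2.2.1 (h1.1.trans h2.1.symm)))) H.2.2.2
  rwa [card_product, card_univ, card_univ, Fintype.card_fin] at this

theorem sa_half : Real.exp (-(7 / 10)) ≤ 1 / 2 := by
  have h1 : Real.exp (-Real.log 2) = 1 / 2 := by
    rw [Real.exp_neg, Real.exp_log (by norm_num), one_div]
  rw [← h1]
  have := Real.log_two_lt_d9
  exact Real.exp_le_exp.2 (by linarith)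

theorem sa_single {F : Type} [Field F] [Fintype F] (h : Lab → F) {G : Finset F} {K : ℕ}
    (hg : 2 ≤ #G) (h5 : 1 / 5 ≤ (1 - 1 / (#G : ℝ)) ^ Fintype.card F)
    (hK : 10000 * (K : ℝ) ^ 2 ≤ #G) {p p' : Fin K → V F} (hgen : Gen p p') :
    (#{ω : F → G × Typ | (∀ a, ¬ rem h (cf ω) (p a)) ∧ (∀ b, ¬ rem h (cf ω) (p' b)) ∧
      (#{x : Fin K × Fin K | join (p x.1) (p' x.2) ∈ SS h (cf ω)} : ℝ) ≤ (K : ℝ) ^ 2 / 20} : ℝ) ≤
      Real.exp (-((K : ℝ) ^ 2 / 20)) * Fintype.card (F → G × Typ) := by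
  have : Nonempty G := (card_pos.1 (by omega)).to_subtype
  obtain ⟨ℓ, hℓ⟩ : ∃ ℓ : Fin K × Fin K → F × F, ∀ x, ℓ x = join (p x.1) (p' x.2) :=
    ⟨_, fun _ => rfl⟩
  have hinj : Function.Injective ℓ := fun x x' H => hgen.inj (by simpa only [hℓ] using H)
  have hsl : ∀ x, (ℓ x).1 ≠ 0 := fun x => by rw [hℓ]; exact hgen.slope _ _
  obtain ⟨P, hP⟩ : ∃ P : V F → Prop, ∀ v, P v ↔ (∃ a, v = p a) ∨ ∃ b, v = p' b :=
    ⟨_, fun _ => Iff.rfl⟩
  have htwo : ∀ t y, #{x | ph (some t) (ℓ x) = y ∧ ¬ P (some t, y)} ≤ 2 := by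
    intro t y
    by_cases H : P (some t, y)
    · simp [H]
    · have H' := H
      rw [hP] at H'
      push Not at H'
      refine le_trans (card_le_card fun x hx => ?_) (hgen.two (some t, y) H'.1 H'.2)
      simp only [mem_filter, mem_univ, true_and] at hx ⊢
      rw [← hℓ]; exact hx.1
  have hg0 : (2 : ℝ) ≤ #G := by exact_mod_cast hg
  have hg1 : (0 : ℝ) < #G := by linarith
  obtain ⟨y, hy⟩ : ∃ y : ℝ, y = Fintype.card Typ := ⟨_, rfl⟩
  have hy0 : 0 < y := by rw [hy]; exact_mod_cast Fintype.card_pos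
  have hcard : (Fintype.card (G × Typ) : ℝ) = #G * y := by
    rw [Fintype.card_prod G Typ, Fintype.card_coe, hy]; push_cast; rfl
  have key := potential (ι := F) (α := G × Typ) (Λ := Fin K × Fin K)
    (fun t c => {x | remc h (c.1.1, c.2) (ph (some t) (ℓ x)) ∧ ¬ P (some t, ph (some t) (ℓ x))})
    (fun t => {c | (∃ x x', x ≠ x' ∧ ph (some t) (ℓ x) = c.1.1 ∧ ph (some t) (ℓ x') = c.1.1) ∨
      (act c.2 ∧ ∃ x k, ph (some t) (ℓ x) = h k)}) (1 / #G) (by positivity)
    (by rw [div_le_one hg1]; linarith) ?_ ?_ ?_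
  rotate_left
  · intro t c
    have hsub : ({x | remc h (c.1.1, c.2) (ph (some t) (ℓ x)) ∧
        ¬ P (some t, ph (some t) (ℓ x))} : Finset _) ⊆
        ({x | ph (some t) (ℓ x) = c.1.1 ∧ ¬ P (some t, c.1.1)} : Finset _) ∪
        ({x | ph (some t) (ℓ x) = h c.2.1 ∧ ¬ P (some t, h c.2.1)} : Finset _) ∪
        ({x | ph (some t) (ℓ x) = h c.2.2.1 ∧ ¬ P (some t, h c.2.2.1)} : Finset _) := by
      intro x hx
      simp only [mem_filter, mem_univ, true_and, mem_union] at hx ⊢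
      obtain ⟨h1 | ⟨-, h1 | h1⟩, h2⟩ := hx
      · exact Or.inl (Or.inl ⟨h1, by rw [h1] at h2; exact h2⟩)
      · exact Or.inl (Or.inr ⟨h1, by rw [h1] at h2; exact h2⟩)
      · exact Or.inr ⟨h1, by rw [h1] at h2; exact h2⟩
    have h1 := (card_le_card hsub).trans ((card_union_le _ _).trans
      (Nat.add_le_add_right (card_union_le _ _) _))
    have := htwo t c.1.1
    have := htwo t (h c.2.1)
    have := htwo t (h c.2.2.1)
    omega
  · intro t c hc
    simp only [mem_filter, mem_univ, true_and, not_or] at hc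
    have hx : ∀ x, remc h (c.1.1, c.2) (ph (some t) (ℓ x)) → ph (some t) (ℓ x) = c.1.1 := by
      rintro x (h1 | ⟨h0, h1 | h1⟩)
      · exact h1
      · exact absurd ⟨h0, x, _, h1⟩ hc.2
      · exact absurd ⟨h0, x, _, h1⟩ hc.2
    refine card_le_one.2 fun x hx1 x' hx2 => ?_
    by_contra hne
    exact hc.1 ⟨x, x', hne, hx x (mem_filter.1 hx1).2.1, hx x' (mem_filter.1 hx2).2.1⟩
  · intro t x
    rw [hcard, ← mul_assoc, one_div_mul_cancel hg1.ne', one_mul, hy]
    refine Nat.cast_le.2 (le_trans (card_le_card fun c hc => ?_) (sa_fst G (ph (some t) (ℓ x))))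
    simp only [mem_filter, mem_univ, true_and, not_or] at hc ⊢
    obtain ⟨hc, h1 | ⟨h0, h1 | h1⟩, -⟩ := hc
    · exact h1
    · exact absurd ⟨h0, x, _, h1⟩ hc.2
    · exact absurd ⟨h0, x, _, h1⟩ hc.2
  -- the special events
  have hsp : ∑ t : F, (#{c : G × Typ | (∃ x x', x ≠ x' ∧ ph (some t) (ℓ x) = c.1.1 ∧
      ph (some t) (ℓ x') = c.1.1) ∨ (act c.2 ∧ ∃ x k, ph (some t) (ℓ x) = h k)} : ℝ) /
      Fintype.card (G × Typ) ≤ ((K : ℝ) ^ 2) ^ 2 / #G + 12 * (K : ℝ) ^ 2 / 100000 := by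
    have e1 : ∀ t : F, (#{c : G × Typ | (∃ x x', x ≠ x' ∧ ph (some t) (ℓ x) = c.1.1 ∧
        ph (some t) (ℓ x') = c.1.1) ∨ (act c.2 ∧ ∃ x k, ph (some t) (ℓ x) = h k)} : ℝ) /
        Fintype.card (G × Typ) ≤
        (#{z : (Fin K × Fin K) × (Fin K × Fin K) | z.1 ≠ z.2 ∧
          ph (some t) (ℓ z.1) = ph (some t) (ℓ z.2)} : ℝ) / #G +
        (#{z : (Fin K × Fin K) × Lab | ph (some t) (ℓ z.1) = h z.2} : ℝ) / 100000 := by
      intro t
      have hsub : ({c : G × Typ | (∃ x x', x ≠ x' ∧ ph (some t) (ℓ x) = c.1.1 ∧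
          ph (some t) (ℓ x') = c.1.1) ∨ (act c.2 ∧ ∃ x k, ph (some t) (ℓ x) = h k)} : Finset _) ⊆
          (({z : (Fin K × Fin K) × (Fin K × Fin K) | z.1 ≠ z.2 ∧
            ph (some t) (ℓ z.1) = ph (some t) (ℓ z.2)} : Finset _).biUnion
            fun z => {c : G × Typ | ph (some t) (ℓ z.1) = c.1.1}) ∪
          (({z : (Fin K × Fin K) × Lab | ph (some t) (ℓ z.1) = h z.2} : Finset _).biUnion
            fun _ => {c : G × Typ | act c.2}) := by
        intro c hc
        simp only [mem_filter, mem_univ, true_and, mem_union, mem_biUnion] at hc ⊢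
        rcases hc with ⟨x, x', h1, h2, h3⟩ | ⟨h0, x, k, h1⟩
        · exact Or.inl ⟨(x, x'), ⟨h1, h2.trans h3.symm⟩, h2⟩
        · exact Or.inr ⟨(x, k), h1, h0⟩
      have h1 := (card_le_card hsub).trans ((card_union_le _ _).trans (Nat.add_le_add
        (card_biUnion_le_card_mul _ _ _ fun z _ => sa_fst G _)
        (card_biUnion_le_card_mul _ _ _ fun _ _ => le_rfl)))
      have h2 := (Nat.cast_le (α := ℝ)).2 h1
      have h3 := (Nat.cast_le (α := ℝ)).2 (sa_act G)
      rw [Nat.cast_add, Nat.cast_mul, Nat.cast_mul, ← hy] at h2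
      rw [Nat.cast_mul, hcard] at h3
      rw [hcard, div_le_iff₀ (by positivity)]
      refine h2.trans ?_
      rw [add_mul]
      refine add_le_add (le_of_eq (by field_simp)) ?_
      rw [div_mul_eq_mul_div, mul_div_assoc]
      refine mul_le_mul_of_nonneg_left ?_ (Nat.cast_nonneg _)
      rw [le_div_iff₀ (by norm_num)]
      rw [Nat.cast_ofNat] at h3
      exact h3
    refine (sum_le_sum fun t _ => e1 t).trans ?_
    rw [sum_add_distrib, ← sum_div, ← sum_div]
    have e2 : ∑ t : F, #{z : (Fin K × Fin K) × (Fin K × Fin K) | z.1 ≠ z.2 ∧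
        ph (some t) (ℓ z.1) = ph (some t) (ℓ z.2)} ≤ (K ^ 2) ^ 2 := by
      simp only [card_filter]
      rw [sum_comm]
      refine (sum_le_card_nsmul _ _ 1 fun z _ => ?_).trans (by simp [sq])
      rw [← card_filter]
      refine card_le_one.2 fun s hs t ht => ?_
      by_contra hne
      simp only [mem_filter, mem_univ, true_and] at hs ht
      exact hs.1 (hinj (line_ext (by simpa using hne) hs.2 ht.2))
    have e3 : ∑ t : F, #{z : (Fin K × Fin K) × Lab | ph (some t) (ℓ z.1) = h z.2} ≤ 12 * K ^ 2 := by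
      simp only [card_filter]
      rw [sum_comm]
      refine (sum_le_card_nsmul _ _ 1 fun z _ => ?_).trans (by simp [sq, mul_comm])
      rw [← card_filter]
      refine card_le_one.2 fun s hs t ht => ?_
      simp only [mem_filter, mem_univ, true_and] at hs ht
      exact ph_some_inj (hsl _) (hs.trans ht.symm)
    refine add_le_add (div_le_div_of_nonneg_right ?_ hg1.le) (div_le_div_of_nonneg_right ?_ (by norm_num))
    · exact_mod_cast e2
    · exact_mod_cast e3
  obtain ⟨r, hr⟩ : ∃ r : ℝ, r = (K : ℝ) ^ 2 := ⟨_, rfl⟩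
  have hr0 : 0 ≤ r := hr ▸ sq_nonneg _
  rw [← hr] at hsp hK ⊢
  have hT : (0 : ℝ) ≤ Fintype.card (F → G × Typ) := Nat.cast_nonneg _
  have k1 : (1 - (1 - 1 / (#G : ℝ)) ^ Fintype.card F / 2) ^ Fintype.card (Fin K × Fin K) ≤
      Real.exp (-(r / 10)) := by
    have h1 : (1 - 1 / (#G : ℝ)) ^ Fintype.card F ≤ 1 :=
      pow_le_one₀ (by rw [sub_nonneg, div_le_one hg1]; linarith)
        (by have : 0 ≤ 1 / (#G : ℝ) := by positivity
            linarith)
    calc _ ≤ (Real.exp (-(1 / 10))) ^ Fintype.card (Fin K × Fin K) :=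
          pow_le_pow_left₀ (by linarith)
            (by have := Real.add_one_le_exp (-(1 / 10)); linarith) _
      _ = _ := by
          rw [← Real.exp_nat_mul, hr]; congr 1; simp; ring
  have k2 : r ^ 2 / #G ≤ r / 10000 := by
    rw [div_le_div_iff₀ hg1 (by norm_num)]
    have := mul_le_mul_of_nonneg_left hK hr0
    linarith
  have k3 := key.trans (mul_le_mul_of_nonneg_right (mul_le_mul k1
    (Real.exp_le_exp.2 (show _ ≤ 15 * r / 1000 by linarith)) (Real.exp_pos _).le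
    (Real.exp_pos _).le) hT)
  have k4 : ∀ ω : F → G × Typ, (∀ a, ¬ rem h (cf ω) (p a)) ∧ (∀ b, ¬ rem h (cf ω) (p' b)) ∧
      (#{x : Fin K × Fin K | join (p x.1) (p' x.2) ∈ SS h (cf ω)} : ℝ) ≤ r / 20 →
      Real.exp (-(35 * r / 1000)) ≤ (1 / 2 : ℝ) ^ #{x | ∀ t, x ∉ ({x | remc h ((ω t).1.1, (ω t).2)
        (ph (some t) (ℓ x)) ∧ ¬ P (some t, ph (some t) (ℓ x))} : Finset _)} := by
    rintro ω ⟨a1, a2, a3⟩
    have hU : #{x | ∀ t, x ∉ ({x | remc h ((ω t).1.1, (ω t).2)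
        (ph (some t) (ℓ x)) ∧ ¬ P (some t, ph (some t) (ℓ x))} : Finset _)} ≤
        #{x : Fin K × Fin K | join (p x.1) (p' x.2) ∈ SS h (cf ω)} := by
      refine card_le_card fun x hx => ?_
      simp only [mem_filter, mem_univ, true_and, not_and, not_not, SS] at hx ⊢
      rw [← hℓ]
      refine ⟨hsl x, fun t ht => ?_⟩
      rcases (hP _).1 (hx t ht) with ⟨a, e⟩ | ⟨b, e⟩
      · exact a1 a (by rw [← e]; exact ht)
      · exact a2 b (by rw [← e]; exact ht)
    have hU' := ((Nat.cast_le (α := ℝ)).2 hU).trans a3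
    refine le_trans ?_ (pow_le_pow_left₀ (Real.exp_pos _).le sa_half _)
    rw [← Real.exp_nat_mul]
    exact Real.exp_le_exp.2 (by linarith)
  refine le_of_mul_le_mul_right (le_trans ?_ (k3.trans (le_of_eq ?_)))
    (Real.exp_pos (-(35 * r / 1000)))
  · rw [← nsmul_eq_mul, ← sum_const]
    exact le_trans (sum_le_sum fun ω hω => k4 ω (mem_filter.1 hω).2)
      (sum_le_sum_of_subset_of_nonneg (subset_univ _) fun ω _ _ => by positivity)
  · rw [mul_right_comm (Real.exp (-(r / 20))), ← Real.exp_add, ← Real.exp_add]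
    congr 2; ring

theorem samp_prob : ∃ N : ℕ, 1 ≤ N ∧ ∀ (F : Type) [Field F] [Fintype F] (K : ℕ),
    Par N (Fintype.card F) K → ∀ (h : Lab → F) (G : Finset F), GOK h G →
    (#{ω : F → G × Typ | ¬ SampP h K (cf ω)} : ℝ) ≤ (Fintype.card (F → G × Typ) : ℝ) / 10 := by
  refine ⟨100000, by norm_num, fun F _ _ K hP h G hG => ?_⟩
  have hK : 100000 ≤ K := hP.1
  have hq3 := (hP.mono (N' := 3) (by norm_num) (by norm_num)).2.1
  have hq6 := (hP.mono (N' := 600) (by norm_num) (by norm_num)).2.2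
  have hK3 : 100000 * K ^ 2 ≤ Fintype.card F := by
    refine le_trans ?_ hq3
    rw [pow_succ K 2, mul_comm]; exact Nat.mul_le_mul_left _ hK
  have hK2 : 1 ≤ K ^ 2 := Nat.one_le_pow _ _ (by omega)
  have hbig := hG.big
  have hg2 : (2 : ℝ) ≤ #G := by exact_mod_cast (by omega : 2 ≤ #G)
  have h5 : 1 / 5 ≤ (1 - 1 / (#G : ℝ)) ^ Fintype.card F := by
    have h1 : Real.exp (-(1 / ((#G : ℝ) - 1))) ≤ 1 - 1 / (#G : ℝ) := by
      have h2 := Real.add_one_le_exp (1 / ((#G : ℝ) - 1))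
      have h3 : (0 : ℝ) < #G - 1 := by linarith
      rw [Real.exp_neg]
      refine (inv_anti₀ (by positivity) h2).trans (le_of_eq ?_)
      field_simp; ring
    refine le_trans ?_ (pow_le_pow_left₀ (Real.exp_pos _).le h1 _)
    rw [← Real.exp_nat_mul]
    have h2 : (1 / 5 : ℝ) ≤ Real.exp (-(3 / 2)) := by
      rw [Real.exp_neg, one_div]
      refine inv_anti₀ (Real.exp_pos _) (le_of_pow_le_pow_left₀ (n := 2) (by norm_num) (by norm_num) ?_)
      have e : Real.exp (3 / 2) ^ 2 = Real.exp 1 ^ 3 := by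
        rw [← Real.exp_nat_mul, ← Real.exp_nat_mul]; norm_num
      rw [e]
      exact (pow_le_pow_left₀ (Real.exp_pos _).le Real.exp_one_lt_d9.le 3).trans (by norm_num)
    refine h2.trans (Real.exp_le_exp.2 ?_)
    have h3 : (2 * Fintype.card F + 3 : ℝ) ≤ 3 * #G := by
      exact_mod_cast (by omega : 2 * Fintype.card F + 3 ≤ 3 * #G)
    have h4 : (Fintype.card F : ℝ) * (1 / ((#G : ℝ) - 1)) ≤ 3 / 2 := by
      rw [mul_one_div, div_le_iff₀ (by linarith)]; linarith
    linarith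
  have hK4 : 10000 * (K : ℝ) ^ 2 ≤ #G := by exact_mod_cast (by omega : 10000 * K ^ 2 ≤ #G)
  have hsub : ({ω : F → G × Typ | ¬ SampP h K (cf ω)} : Finset _) ⊆
      ({z : (Fin K → V F) × (Fin K → V F) | Gen z.1 z.2} : Finset _).biUnion fun z =>
        {ω : F → G × Typ | (∀ a, ¬ rem h (cf ω) (z.1 a)) ∧ (∀ b, ¬ rem h (cf ω) (z.2 b)) ∧
          (#{x : Fin K × Fin K | join (z.1 x.1) (z.2 x.2) ∈ SS h (cf ω)} : ℝ) ≤ (K : ℝ) ^ 2 / 20} := by
    intro ω hω
    simp only [SampP, mem_filter, mem_univ, true_and, not_forall, not_lt] at hω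
    obtain ⟨p, p', h1, h2, h3, h4⟩ := hω
    exact mem_biUnion.2 ⟨(p, p'), mem_filter.2 ⟨mem_univ _, h1⟩,
      mem_filter.2 ⟨mem_univ _, h2, h3, h4⟩⟩
  have h1 := (Nat.cast_le (α := ℝ)).2 ((card_le_card hsub).trans card_biUnion_le)
  rw [Nat.cast_sum] at h1
  refine h1.trans ((sum_le_sum fun z hz => sa_single h (by omega) h5 hK4
    (mem_filter.1 hz).2).trans ?_)
  rw [sum_const, nsmul_eq_mul]
  have hT : (0 : ℝ) ≤ Fintype.card (F → G × Typ) := Nat.cast_nonneg _
  have h2 : #{z : (Fin K → V F) × (Fin K → V F) | Gen z.1 z.2} ≤ Fintype.card F ^ (6 * K) := by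
    refine (card_le_univ _).trans ?_
    have h3 : Fintype.card (V F) ≤ Fintype.card F ^ 3 := by
      rw [Fintype.card_prod, Fintype.card_option, pow_succ, sq]
      exact Nat.mul_le_mul_right _ (by nlinarith)
    rw [Fintype.card_prod, Fintype.card_fun, Fintype.card_fin, ← pow_add]
    calc _ ≤ (Fintype.card F ^ 3) ^ (K + K) := Nat.pow_le_pow_left h3 _
      _ = _ := by rw [← pow_mul]; congr 1; ring
  have h3 : ((Fintype.card F : ℝ) ^ (6 * K)) ≤ Real.exp (7 * (K : ℝ) ^ 2 / 1000) := by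
    refine le_of_pow_le_pow_left₀ (n := 100) (by norm_num) (Real.exp_pos _).le ?_
    have h4 : (Fintype.card F : ℝ) ^ 600 ≤ 2 ^ K := by exact_mod_cast hq6
    have h6 : (2 : ℝ) ≤ Real.exp (7 / 10) := by
      have := sa_half
      rw [Real.exp_neg, one_div] at this
      exact (inv_le_inv₀ (Real.exp_pos _) (by norm_num)).1 this
    calc _ = ((Fintype.card F : ℝ) ^ 600) ^ K := by rw [← pow_mul, ← pow_mul]; congr 1; ring
      _ ≤ ((Real.exp (7 / 10)) ^ K) ^ K :=
          pow_le_pow_left₀ (by positivity) (h4.trans (pow_le_pow_left₀ (by norm_num) h6 _)) _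
      _ = _ := by
          rw [← Real.exp_nat_mul, ← Real.exp_nat_mul, ← Real.exp_nat_mul]; congr 1; push_cast; ring
  have h4 : (#{z : (Fin K → V F) × (Fin K → V F) | Gen z.1 z.2} : ℝ) ≤
      Real.exp (7 * (K : ℝ) ^ 2 / 1000) := le_trans (by exact_mod_cast h2) h3
  have h6 : Real.exp (7 * (K : ℝ) ^ 2 / 1000) * Real.exp (-((K : ℝ) ^ 2 / 20)) ≤ 1 / 10 := by
    rw [← Real.exp_add]
    have h7 : (100000 : ℝ) ≤ K := by exact_mod_cast hK
    have h8 : (1000 : ℝ) ≤ (K : ℝ) ^ 2 := by nlinarith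
    refine (Real.exp_le_exp.2 (show _ ≤ -9 by linarith)).trans ?_
    rw [Real.exp_neg, one_div]
    exact inv_anti₀ (by norm_num) (by have := Real.add_one_le_exp 9; linarith)
  calc _ ≤ Real.exp (7 * (K : ℝ) ^ 2 / 1000) * (Real.exp (-((K : ℝ) ^ 2 / 20)) *
        Fintype.card (F → G × Typ)) := mul_le_mul_of_nonneg_right h4 (by positivity)
    _ ≤ _ := by
        rw [← mul_assoc]
        have := mul_le_mul_of_nonneg_right h6 hT
        linarith

end Crest.Agent.R34
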