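import Crest.Agent.R34.Geo

/-!
# Row 34: choice of the gadget parameters (first moment)

`W = Fintype.piFinset Good`, `Good t = {w | good h ω t (ω t).1 w}`, `#(Good t) ≥ q/K > 0`.  If `four` fails for `(O,p)`
there is a 5-subset `I` of `T O = {t | ph (some t) O = (ω t).1}` (`#(T O) ≤ K`) with `some t ≠ p.1` and
`w t ∈ S t p = {w ∈ Good t | ∃ k, ph p.1 (gl h t (ω t).1 w k) = p.2}` for `t ∈ I`; `#(S t p) ≤ 12` (for each `k` the line is
determined by `gl_center` + `line_ext`, then `gl_param`).  The number of such `w ∈ W` is `≤ (12 K / q)^5 #W`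
(`Fintype.card_piFinset`), the number of `(O,p,I)` is `≤ q² · 2q² · K^5`, and `2 · 12^5 · K^10 < q`.
-/

set_option autoImplicit false
open Classical Finset

namespace Crest.Agent.R34

theorem S2.card_S {F : Type} [Field F] [Fintype F] {h : Lab → F} {t η : F} (hη : ∀ k, h k ≠ η) (p : V F) :
    #({w | some t ≠ p.1 ∧ ∃ k, ph p.1 (gl h t η w k) = p.2} : Finset F) ≤ 12 := by
  have hsub : ({w | some t ≠ p.1 ∧ ∃ k, ph p.1 (gl h t η w k) = p.2} : Finset F) ⊆
      (univ : Finset Lab).biUnion fun k => ({w | some t ≠ p.1 ∧ ph p.1 (gl h t η w k) = p.2} : Finset F) := by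
    intro w hw
    obtain ⟨h1, k, h2⟩ := (Finset.mem_filter.1 hw).2
    exact Finset.mem_biUnion.2 ⟨k, mem_univ _, Finset.mem_filter.2 ⟨mem_univ _, h1, h2⟩⟩
  refine (Finset.card_le_card hsub).trans ((Finset.card_biUnion_le_card_mul _ _ 1 fun k _ => ?_).trans
    (by simp))
  refine Finset.card_le_one.2 fun w hw w' hw' => ?_
  obtain ⟨h1, h2⟩ := (Finset.mem_filter.1 hw).2
  obtain ⟨-, h3⟩ := (Finset.mem_filter.1 hw').2
  have : gl h t η w k = gl h t η w' k :=
    line_ext h1 ((gl_center k).trans (gl_center k).symm) (h2.trans h3.symm)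
  exact gl_param (hη k) (congrArg Prod.fst this)

theorem S2.card_pi {F : Type} [Fintype F] (A B : F → Finset F) (I : Finset F) (c : ℝ)
    (h : ∀ t, (#(B t) : ℝ) ≤ c * #(A t)) :
    (#(Fintype.piFinset fun t => if t ∈ I then B t else A t) : ℝ) ≤ c ^ #I * #(Fintype.piFinset A) := by
  rw [Fintype.card_piFinset, Fintype.card_piFinset]
  push_cast
  have e : c ^ #I = ∏ t, if t ∈ I then c else 1 := by
    rw [Finset.prod_ite_mem, Finset.univ_inter, Finset.prod_const]
  rw [e, ← Finset.prod_mul_distrib]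
  refine Finset.prod_le_prod (fun _ _ => Nat.cast_nonneg _) fun t _ => ?_
  split_ifs
  · exact h t
  · simp

theorem stage2 : ∃ N : ℕ, 1 ≤ N ∧ ∀ (F : Type) [Field F] [Fintype F] (K : ℕ),
    Par N (Fintype.card F) K → ∀ (h : Lab → F) (G : Finset F) (ω : F → F × Typ), GOK h G →
    (∀ t, (ω t).1 ∈ G) → GoodP h G K ω → FewP K ω → ∃ w : F → F, St2 h ω w := by
  refine ⟨20, by norm_num, fun F _ _ K hP h G ω hG hm hgood hfew => ?_⟩
  obtain ⟨hK, hq, -⟩ := hP
  set q := Fintype.card F with hqdef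
  have hK' : (20 : ℝ) ≤ K := by exact_mod_cast hK
  have hq' : (K : ℝ) ^ 20 ≤ q := by exact_mod_cast hq
  have hq1 : (1 : ℝ) ≤ q := by exact_mod_cast Fintype.card_pos
  have hK0 : (0 : ℝ) < K := by linarith
  have hq0 : (0 : ℝ) < q := by linarith
  let A : F → Finset F := fun t => {w | good h ω t (ω t).1 w}
  let B : V F → F → Finset F := fun p t =>
    {w | some t ≠ p.1 ∧ ∃ k, ph p.1 (gl h t (ω t).1 w k) = p.2}
  let T : F × F → Finset F := fun O => {t | ph (some t) O = (ω t).1}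
  have hA : ∀ t, (q : ℝ) / K ≤ #(A t) := fun t => hgood t _ (hm t)
  have hB : ∀ p t, (#(B p t) : ℝ) ≤ 12 * K / q * #(A t) := by
    intro p t
    have h1 : (#(B p t) : ℝ) ≤ 12 := by exact_mod_cast S2.card_S (hG.ne _ (hm t)) p
    calc (#(B p t) : ℝ) ≤ 12 := h1
      _ = 12 * K / q * (q / K) := by field_simp
      _ ≤ _ := by gcongr; exact hA t
  have hW : (0 : ℝ) < #(Fintype.piFinset A) := by
    rw [Fintype.card_piFinset]
    push_cast
    exact Finset.prod_pos fun t _ => lt_of_lt_of_le (by positivity) (hA t)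
  by_contra hcon
  push Not at hcon
  have hsub : Fintype.piFinset A ⊆ (univ : Finset ((F × F) × V F)).biUnion fun x =>
      (powersetCard 5 (T x.1)).biUnion fun I =>
        Fintype.piFinset fun t => if t ∈ I then B x.2 t else A t := by
    intro w hw
    have hw' := Fintype.mem_piFinset.1 hw
    have h1 : ¬ ∀ (O : F × F) (p : V F), #{t | ph (some t) O = (ω t).1 ∧ some t ≠ p.1 ∧
        ∃ k, ph p.1 (gl h t (ω t).1 (w t) k) = p.2} ≤ 4 := fun h4 =>
      hcon w ⟨fun t => (Finset.mem_filter.1 (hw' t)).2, h4⟩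
    push Not at h1
    obtain ⟨O, p, h1⟩ := h1
    obtain ⟨I, hI, hI5⟩ := Finset.exists_subset_card_eq (n := 5) h1
    refine Finset.mem_biUnion.2 ⟨(O, p), mem_univ _, Finset.mem_biUnion.2 ⟨I,
      Finset.mem_powersetCard.2 ⟨fun t ht => ?_, hI5⟩, Fintype.mem_piFinset.2 fun t => ?_⟩⟩
    · exact Finset.mem_filter.2 ⟨mem_univ _, (Finset.mem_filter.1 (hI ht)).2.1⟩
    · split_ifs with ht
      · exact Finset.mem_filter.2 ⟨mem_univ _, (Finset.mem_filter.1 (hI ht)).2.2⟩
      · exact hw' t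
  have h2 : ∀ x : (F × F) × V F, (#((powersetCard 5 (T x.1)).biUnion fun I =>
      Fintype.piFinset fun t => if t ∈ I then B x.2 t else A t) : ℝ) ≤
      K ^ 5 * ((12 * K / q) ^ 5 * #(Fintype.piFinset A)) := by
    intro x
    have h3 : (#((powersetCard 5 (T x.1)).biUnion fun I =>
        Fintype.piFinset fun t => if t ∈ I then B x.2 t else A t) : ℝ) ≤
        ∑ I ∈ powersetCard 5 (T x.1),
          (#(Fintype.piFinset fun t => if t ∈ I then B x.2 t else A t) : ℝ) := by
      exact_mod_cast Finset.card_biUnion_le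
    have h4 : ∑ I ∈ powersetCard 5 (T x.1),
          (#(Fintype.piFinset fun t => if t ∈ I then B x.2 t else A t) : ℝ) ≤
        ∑ _I ∈ powersetCard 5 (T x.1), (12 * K / q) ^ 5 * (#(Fintype.piFinset A) : ℝ) := by
      refine Finset.sum_le_sum fun I hI => ?_
      have := S2.card_pi A (B x.2) I _ (hB x.2)
      rwa [(Finset.mem_powersetCard.1 hI).2] at this
    rw [Finset.sum_const, nsmul_eq_mul, Finset.card_powersetCard] at h4
    have h5 : ((#(T x.1)).choose 5 : ℝ) ≤ K ^ 5 := by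
      have : (#(T x.1)).choose 5 ≤ K ^ 5 :=
        (Nat.choose_le_pow _ _).trans (Nat.pow_le_pow_left (hfew x.1) 5)
      exact_mod_cast this
    refine h3.trans (h4.trans ?_)
    gcongr
  have h3 : (#(Fintype.piFinset A) : ℝ) ≤ ∑ x : (F × F) × V F, (#((powersetCard 5 (T x.1)).biUnion fun I =>
      Fintype.piFinset fun t => if t ∈ I then B x.2 t else A t) : ℝ) := by
    exact_mod_cast (Finset.card_le_card hsub).trans Finset.card_biUnion_le
  have h4 := h3.trans (Finset.sum_le_sum fun x _ => h2 x)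
  rw [Finset.sum_const, nsmul_eq_mul, Finset.card_univ] at h4
  simp only [Fintype.card_prod, Fintype.card_option, ← hqdef] at h4
  push_cast at h4
  have h5 : (q : ℝ) * q * ((q + 1) * q) * (K ^ 5 * (12 * K / q) ^ 5) < 1 := by
    have e : (q : ℝ) * q * ((q + 1) * q) * (K ^ 5 * (12 * K / q) ^ 5) =
        (q + 1) * 12 ^ 5 * K ^ 10 / q ^ 2 := by field_simp
    rw [e, div_lt_one (by positivity)]
    have h6 : (20 : ℝ) ^ 10 ≤ K ^ 10 := by gcongr
    have h7 : (2 * 12 ^ 5 : ℝ) * K ^ 10 < q := by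
      have : (K : ℝ) ^ 20 = K ^ 10 * K ^ 10 := by ring
      have h8 : (0 : ℝ) < K ^ 10 := by positivity
      nlinarith
    have h8 : (0 : ℝ) < K ^ 10 := by positivity
    nlinarith
  nlinarith

end Crest.Agent.R34
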