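import Crest.Agent.R34.Reg
import Crest.Agent.R34.GoodW
import Crest.Agent.R34.FewAct
import Crest.Agent.R34.Samp
import Crest.Agent.R34.Stage2
import Crest.Agent.R34.Rigid
import Crest.Agent.R34.Inter
import Crest.Agent.R34.CovA
import Crest.Agent.R34.CovC
import Crest.Agent.R34.Conv

/-! # Row 34: assembly -/

set_option autoImplicit false
open Classical Finset

namespace Crest.Agent.R34

theorem stage1 : ∃ N : ℕ, 1 ≤ N ∧ ∀ (F : Type) [Field F] [Fintype F] (K : ℕ),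
    Par N (Fintype.card F) K → ∀ (h : Lab → F) (G : Finset F), GOK h G →
    ∃ ω : F → F × Typ, St1 h G K ω := by
  obtain ⟨N0, h0, H0⟩ := c0_bounds
  obtain ⟨N1, h1, H1⟩ := reg_prob
  obtain ⟨N2, h2, H2⟩ := good_prob
  obtain ⟨N3, h3, H3⟩ := few_prob
  obtain ⟨N4, h4, H4⟩ := act_prob
  obtain ⟨N5, h5, H5⟩ := samp_prob
  refine ⟨N0 + N1 + N2 + N3 + N4 + N5 + 21001, by omega, fun F _ _ K hP h G hG => ?_⟩
  have A0 := H0 F K (hP.mono (by omega) h0) h G hG
  have A1 := H1 F K (hP.mono (by omega) h1) h G hG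
  have A2 := H2 F K (hP.mono (by omega) h2) h G hG
  have A3 := H3 F K (hP.mono (by omega) h3) h G hG
  have A4 := H4 F K (hP.mono (by omega) h4) h G hG
  have A5 := H5 F K (hP.mono (by omega) h5) h G hG
  have hq : 21001 ≤ Fintype.card F := by
    obtain ⟨a, b, -⟩ := hP.mono (N' := 1) (by omega) le_rfl
    have := hP.1
    rw [pow_one] at b; omega
  have hGne : G.Nonempty := by
    have := hG.big
    exact card_pos.1 (by omega)
  have : Nonempty G := hGne.to_subtype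
  have hT : (0 : ℝ) < Fintype.card (F → G × Typ) := by exact_mod_cast Fintype.card_pos
  by_contra hcon
  push Not at hcon
  have hsub : (univ : Finset (F → G × Typ)) ⊆
      ({ω : F → G × Typ | ¬ RegP h (c0 h G) K (cf ω)} : Finset _) ∪
      ({ω : F → G × Typ | ¬ GoodP h G K (cf ω)} : Finset _) ∪
      ({ω : F → G × Typ | ¬ FewP K (cf ω)} : Finset _) ∪
      ({ω : F → G × Typ | ¬ ActP (cf ω)} : Finset _) ∪
      ({ω : F → G × Typ | ¬ SampP h K (cf ω)} : Finset _) := by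
    intro ω _
    simp only [mem_union, mem_filter, mem_univ, true_and]
    by_contra hc
    push Not at hc
    obtain ⟨⟨⟨⟨c1, c2⟩, c3⟩, c4⟩, c5⟩ := hc
    exact hcon (cf ω) ⟨fun t => (ω t).1.2, ⟨_, A0.1, A0.2, c1⟩, c2, c3, c4, c5⟩
  have hc := card_le_card hsub
  have hc2 := hc.trans ((card_union_le _ _).trans (Nat.add_le_add_right ((card_union_le _ _).trans
    (Nat.add_le_add_right ((card_union_le _ _).trans
      (Nat.add_le_add_right (card_union_le _ _) _)) _)) _))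
  rw [card_univ] at hc2
  have hc3 := (Nat.cast_le (α := ℝ)).2 hc2
  push_cast at hc3
  linarith

theorem core : ∃ q₀ : ℕ, ∀ (F : Type) [Field F] [Fintype F], q₀ ≤ Fintype.card F → HSub F →
    ∃ 𝓔 : Finset (Option F → Option F), 𝓔.Nonempty ∧ (∀ e ∈ 𝓔, ∀ f ∈ 𝓔, ∃ i, e i = f i) ∧
      (∀ i c, ∃ e ∈ 𝓔, e i = c) ∧
      ∀ X : Finset (Option F × Option F), (∀ e ∈ 𝓔, ∃ i, (i, e i) ∈ X) →
        Fintype.card F + 1 ≤ #X := by
  obtain ⟨N1, h1, H1⟩ := stage1
  obtain ⟨N2, h2, H2⟩ := stage2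
  obtain ⟨N3, h3, H3⟩ := rigid
  obtain ⟨q₀, H0⟩ := exists_Par (N1 + N2 + N3 + 100)
  refine ⟨q₀ + 12, fun F _ _ hq hF => ?_⟩
  obtain ⟨K, hP⟩ := H0 _ (le_trans (Nat.le_add_right _ _) hq)
  obtain ⟨h, G, hG⟩ := exists_GOK F (by omega)
  obtain ⟨ω, hω⟩ := H1 F K (hP.mono (by omega) h1) h G hG
  obtain ⟨w, hw⟩ := H2 F K (hP.mono (by omega) h2) h G ω hG hω.mem hω.good hω.few
  obtain ⟨c, hc0, hc1, hreg⟩ := hω.reg
  have HR := H3 F hF K (hP.mono (by omega) h3) h ω c hc0 hc1 hreg hω.samp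
  have hact := hω.act
  -- numerical lower bound for the degrees
  have hD : ∀ p : V F, p ≠ (none, 0) → K + #{t | act (ω t).2} + 4 ≤ #(DD h ω p) := by
    intro p hp
    have h4 := (hreg p hp).1
    unfold ActP at hact
    obtain ⟨q, hq⟩ : ∃ q : ℝ, q = ((Fintype.card F : ℕ) : ℝ) := ⟨_, rfl⟩
    obtain ⟨n, hn⟩ : ∃ n : ℝ, n = √q := ⟨_, rfl⟩
    rw [← hq] at h4 hact
    rw [← hn] at h4
    have hq0 : (0 : ℝ) ≤ q := by rw [hq]; exact Nat.cast_nonneg _
    have hn2 : n ^ 2 = q := by rw [hn]; exact Real.sq_sqrt hq0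
    have hn0 : 0 ≤ n := by rw [hn]; exact Real.sqrt_nonneg _
    have hK : (100 : ℝ) ≤ K := by have := hP.1; exact_mod_cast (by omega : 100 ≤ K)
    have hKn : (K : ℝ) ^ 2 ≤ n := by
      rw [hn]
      apply Real.le_sqrt_of_sq_le
      rw [← pow_mul, hq]
      exact_mod_cast (hP.mono (N' := 4) (by omega) (by omega)).2.1
    have h5 : 100 * (K : ℝ) ≤ n := by nlinarith
    have h6 : 100 * (K * n) ≤ q := by
      rw [← hn2, sq, ← mul_assoc]; exact mul_le_mul_of_nonneg_right h5 hn0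
    have h7 : K ≤ K * n := le_mul_of_one_le_right (by linarith) (by linarith)
    have h8 : q / 5 ≤ c * q := by nlinarith
    have : ((K + #{t | act (ω t).2} + 4 : ℕ) : ℝ) ≤ #(DD h ω p) := by
      push_cast; linarith
    exact_mod_cast this
  refine ⟨EE h ω w, ⟨_, gE_mem_EE h ω w none (0, 0)⟩, EE_inter hG hω.mem hw.good,
    EE_all (fun p hp => card_pos.1 (by have := hD p hp; omega)), fun X hcov => ?_⟩
  by_contra hX
  have hX' : #X ≤ Fintype.card F := by omega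
  set C : Finset (V F) := {p | ¬ rem h ω p ∧ (p.1, some p.2) ∈ X} with hCdef
  have hmem : ∀ p, p ∈ C ↔ ¬ rem h ω p ∧ (p.1, some p.2) ∈ X := fun p => by simp [hCdef]
  have hC : #C ≤ Fintype.card F := by
    refine le_trans (card_le_card_of_injOn (fun p => (p.1, some p.2)) ?_ ?_) hX'
    · intro p hp; exact ((hmem p).1 hp).2
    · intro p _ p' _ H
      simp only [Prod.mk.injEq, Option.some.injEq] at H
      exact Prod.ext H.1 H.2
  obtain ⟨β, hβ⟩ := HR C hC (fun p hp => ((hmem p).1 hp).1) (by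
    intro μ hμ
    rw [mem_SS] at hμ
    obtain ⟨j, hj⟩ := hcov _ (e0_mem_EE (h := h) w (μ := μ) fun i H =>
      hμ i (by rw [H]; exact rem_cen h ω i))
    refine ⟨(j, ph j μ), mem_inter.2 ⟨(hmem _).2 ⟨hμ j, ?_⟩, by simp⟩⟩
    unfold e0 at hj
    rwa [enc_true (hμ j)] at hj)
  rcases β with i | O
  · exact cover_part hG hω.mem hw.good (fun p hp => by have := hD p hp; omega) X hX' hcov i
      fun y hy => ((hmem _).1 (hβ (i, y) (by simp) hy)).2
  · exact cover_line hG hω.mem hw hω.few le_rfl (fun p hp => by have := hD p hp; omega) X hX' hcov O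
      fun i hi => ((hmem _).1 (hβ (i, ph i O) (by simp) hi)).2

theorem main : ∃ q₀ : ℕ, ∀ (F : Type) [Field F] [Fintype F] (q : ℕ), Fintype.card F = q → q₀ ≤ q →
    ¬ IsSquare q →
    ∃ (N : ℕ) (part : Fin N → Fin (q + 1)) (E : Finset (Finset (Fin N))),
      E.Nonempty ∧
      (∀ e ∈ E, ∀ i : Fin (q + 1), (e.filter (fun v => part v = i)).card = 1) ∧
      (∀ e ∈ E, ∀ f ∈ E, (e ∩ f).Nonempty) ∧
      (∀ i : Fin (q + 1), (Finset.univ.filter (fun v => part v = i)).card = q + 1) ∧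
      (∀ v : Fin N, ∃ e ∈ E, v ∈ e) ∧
      (∀ S : Finset (Fin N), (∀ e ∈ E, (e ∩ S).Nonempty) → q + 1 ≤ S.card) := by
  obtain ⟨q₀, H⟩ := core
  refine ⟨q₀, fun F _ _ q hq h0 hsq => ?_⟩
  subst hq
  obtain ⟨𝓔, h1, h2, h3, h4⟩ := H F h0 (hsub_of_not_isSquare F hsq)
  exact conv _ (by simp) (by simp) 𝓔 h1 h2 h3 h4

end Crest.Agent.R34
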