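import Crest.Agent.R34.Geo
import Crest.Agent.R34.McD

/-!
# Row 34: regularity of the degrees

Write `q = card F`, `g = #G ≥ q - 21000` (`q ≥ K^N` is huge), sample space `F → G × Typ`.
* `pr h G y ≤ 1/g` if `y` is no `h k` (then `remc` forces `y = centre`); `pr h G (h k) ≤ 1/100000`
  (`h k ∉ G`, so the type is active, and active types have third component `0`); `0 ≤ pr ≤ 1`.
* `c0_bounds`: `c0 ≥ (1-1/g)^q (1-10^-5)^12 ≥ 1/5` (e.g. `1 - x ≥ exp (-x/(1-x))`, `q/(g-1) ≤ 1.1`).
* `#DD h (cf ω) p = ∑_{μ, μ.1 ≠ 0, μ ∋ p} ∏_t 1[some t = p.1 ∨ ¬ remc ..]`; by `Finset.prod_univ_sum` /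
  `Fintype.card_piFinset` the mean is `∑_μ ∏_{t, some t ≠ p.1} (1 - pr (ph (some t) μ))`; since
  `t ↦ ph (some t) μ` is a bijection (`ph_some_bij`) every product is `c0` for `p = (none, a)` (`q` lines), and is
  `P = ∏_{y' ≠ y} (1 - pr y')` for `p = (some t, y)` (`q - 1` lines), where `c0 ≤ P = c0 + pr y * P ≤ c0 + pr y`.
  So the mean is in `[c0 q - 1, c0 q + q pr y]`, `q/g ≤ 2`.
* changing one column changes `#DD` by at most 3 (a column `s ≠ p.1` removes ≤ 3 points, each on ≤ 1 line through
  `p` (`line_ext`); the column of `p` is irrelevant).  Apply `mcd_union` with `J = V F` (`q(q+1) ≤ q³`);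
  `2 ≤ K √q / 2`.
-/

set_option autoImplicit false
open Classical Finset

namespace Crest.Agent.R34

namespace Reg

variable {F : Type} [Field F] [Fintype F]

theorem big {N q K : ℕ} (H : Par N q K) (hN : 10 ≤ N) : 10 ^ 10 ≤ q ∧ 10 ≤ K := by
  have H' := H.mono hN (by norm_num)
  exact ⟨le_trans (Nat.pow_le_pow_left H'.1 10) H'.2.1, H'.1⟩

omit [Field F] in
theorem pr_nonneg (h : Lab → F) (G : Finset F) (y : F) : 0 ≤ pr h G y := by
  unfold pr; positivity

omit [Field F] in
theorem pr_le_one (h : Lab → F) (G : Finset F) (y : F) : pr h G y ≤ 1 := by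
  unfold pr
  apply div_le_one_of_le₀ _ (Nat.cast_nonneg _)
  exact_mod_cast card_le_univ _

omit [Field F] in
theorem pr_le_inv {h : Lab → F} {G : Finset F} (hg : 0 < #G) {y : F} (hy : ¬ ∃ k, y = h k) :
    pr h G y ≤ 1 / #G := by
  have h2 : #{c : G × Typ | remc h (c.1.1, c.2) y} ≤ #(univ : Finset Typ) := by
    refine card_le_card_of_injOn Prod.snd (fun _ _ => mem_coe.2 (mem_univ _)) fun c hc c' hc' hcc => ?_
    simp only [coe_filter, mem_univ, true_and, Set.mem_ofPred_eq, remc] at hc hc'
    have e1 : y = c.1.1 := hc.resolve_right fun H => H.2.elim (fun e => hy ⟨_, e⟩) (fun e => hy ⟨_, e⟩)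
    have e2 : y = c'.1.1 := hc'.resolve_right fun H => H.2.elim (fun e => hy ⟨_, e⟩) (fun e => hy ⟨_, e⟩)
    exact Prod.ext (Subtype.ext (e1.symm.trans e2)) hcc
  have hT : (0 : ℝ) < Fintype.card Typ := by exact_mod_cast Fintype.card_pos
  have hg' : (0 : ℝ) < #G := by exact_mod_cast hg
  unfold pr
  rw [Fintype.card_prod, Fintype.card_coe, Nat.cast_mul, div_le_div_iff₀ (by positivity) hg', one_mul,
    mul_comm]
  apply mul_le_mul_of_nonneg_left _ hg'.le
  exact_mod_cast h2

theorem pr_h {h : Lab → F} {G : Finset F} (hG : GOK h G) (hg : 0 < #G) (k : Lab) :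
    pr h G (h k) ≤ 1 / 100000 := by
  have h2 : #{c : G × Typ | remc h (c.1.1, c.2) (h k)} ≤ #(univ : Finset (G × Lab × Lab)) := by
    refine card_le_card_of_injOn (fun c => (c.1, c.2.1, c.2.2.1)) (fun _ _ => mem_coe.2 (mem_univ _))
      fun c hc c' hc' hcc => ?_
    simp only [coe_filter, mem_univ, true_and, Set.mem_ofPred_eq, remc] at hc hc'
    have e1 := (hc.resolve_left (hG.ne _ c.1.2 k)).1.1
    have e2 := (hc'.resolve_left (hG.ne _ c'.1.2 k)).1.1
    simp only [Prod.mk.injEq] at hcc
    exact Prod.ext hcc.1 (Prod.ext hcc.2.1 (Prod.ext hcc.2.2 (e1.trans e2.symm)))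
  have hg' : (0 : ℝ) < #G := by exact_mod_cast hg
  have h3 : (#{c : G × Typ | remc h (c.1.1, c.2) (h k)} : ℝ) ≤ #G * 144 := by
    simp only [card_univ, Fintype.card_prod, Fintype.card_coe, Fintype.card_fin] at h2
    exact_mod_cast h2
  unfold pr
  simp only [Fintype.card_prod, Fintype.card_coe, Fintype.card_fin]
  push_cast
  rw [div_le_div_iff₀ (by positivity) (by norm_num)]
  linarith

theorem dd_diff (h : Lab → F) (p : V F) (s : F) (ω ω' : F → F × Typ) (H : ∀ u, u ≠ s → ω u = ω' u) :
    (#(DD h ω p) : ℝ) ≤ #(DD h ω' p) + 3 := by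
  have hsub : DD h ω p ⊆ DD h ω' p ∪
      ({(ω' s).1, h (ω' s).2.1, h (ω' s).2.2.1} : Finset F).image fun y => join p (some s, y) := by
    intro μ hμ
    by_contra hc
    simp only [DD, mem_union, mem_filter, mem_univ, true_and, not_or] at hμ hc
    obtain ⟨g0, g1, g2⟩ := hμ
    refine hc.1 ⟨g0, g1, fun t ht => ?_⟩
    by_cases hts : t = s
    · subst hts
      intro hr
      apply hc.2
      refine mem_image.mpr ⟨ph (some t) μ, ?_, join_eq (p' := (some t, ph (some t) μ)) ht.symm g1 rfl⟩
      simp only [mem_insert, mem_singleton]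
      rcases hr with e | ⟨-, e | e⟩
      · exact Or.inl e
      · exact Or.inr (Or.inl e)
      · exact Or.inr (Or.inr e)
    · rw [← H t hts]; exact g2 t ht
  have h1 := (card_le_card hsub).trans ((card_union_le _ _).trans (Nat.add_le_add_left
    (card_image_le.trans card_le_three) _))
  exact_mod_cast h1

theorem mean {h : Lab → F} {G : Finset F} (hg : 0 < #G) (p : V F) :
    (∑ ω : F → G × Typ, (#(DD h (cf ω) p) : ℝ)) / Fintype.card (F → G × Typ) =
      ∑ μ ∈ ({μ | μ.1 ≠ 0 ∧ ph p.1 μ = p.2} : Finset (F × F)),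
        ∏ t, if some t = p.1 then 1 else 1 - pr h G (ph (some t) μ) := by
  haveI : Nonempty G := by
    obtain ⟨x, hx⟩ := card_pos.mp hg
    exact ⟨⟨x, hx⟩⟩
  have hA : (0 : ℝ) < Fintype.card (G × Typ) := by exact_mod_cast Fintype.card_pos
  have e1 : ∀ ω : F → G × Typ, (#(DD h (cf ω) p) : ℝ) =
      ∑ μ ∈ ({μ | μ.1 ≠ 0 ∧ ph p.1 μ = p.2} : Finset (F × F)),
        ∏ t, if (some t ≠ p.1 → ¬ remc h ((ω t).1.1, (ω t).2) (ph (some t) μ)) then (1 : ℝ) else 0 := by
    intro ω
    simp only [prod_boole, mem_univ, true_implies]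
    rw [sum_boole, filter_filter]
    simp only [and_assoc]
    rfl
  simp only [e1]
  rw [Finset.sum_comm, Finset.sum_div]
  apply sum_congr rfl
  intro μ _
  rw [← Fintype.piFinset_univ, ← prod_univ_sum (fun _ => univ) (fun t (c : G × Typ) =>
    if (some t ≠ p.1 → ¬ remc h (c.1.1, c.2) (ph (some t) μ)) then (1 : ℝ) else 0), Fintype.card_fun,
    Nat.cast_pow, ← card_univ (α := F), ← prod_const, ← prod_div_distrib]
  apply prod_congr rfl
  intro t _
  rw [sum_boole]
  split_ifs with ht
  · simp [ht, (card_pos.mp hg).ne_empty]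
  · simp only [ne_eq, ht, not_false_eq_true, true_implies]
    rw [filter_not, card_sdiff_of_subset (filter_subset _ _), Nat.cast_sub (card_filter_le _ _), card_univ,
      sub_div, div_self hA.ne', pr]

theorem mean_bounds {h : Lab → F} {G : Finset F} (hg : 0 < #G) (hc : 0 ≤ c0 h G ∧ c0 h G ≤ 1) (p : V F)
    (hp : p ≠ (none, 0)) :
    c0 h G * Fintype.card F - 1 ≤ (∑ ω : F → G × Typ, (#(DD h (cf ω) p) : ℝ)) / Fintype.card (F → G × Typ) ∧
    (∑ ω : F → G × Typ, (#(DD h (cf ω) p) : ℝ)) / Fintype.card (F → G × Typ) ≤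
      c0 h G * Fintype.card F + if p.1 = none then 0 else Fintype.card F * pr h G p.2 := by
  rw [mean hg]
  obtain ⟨_ | t₀, y⟩ := p
  · have hy : y ≠ 0 := fun e => hp (by rw [e])
    rw [sum_congr rfl (g := fun _ => c0 h G)]
    · have : #({μ | μ.1 ≠ 0 ∧ ph none μ = y} : Finset (F × F)) = Fintype.card F := by
        rw [← card_univ, ← card_image_of_injective univ (f := fun b : F => (y, b))
          (fun a b e => congrArg Prod.snd e)]
        congr 1
        ext μ
        simp only [ph_none, mem_filter, mem_univ, true_and, mem_image]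
        exact ⟨fun H => ⟨μ.2, by rw [← H.2]⟩, fun ⟨b, H⟩ => by rw [← H]; exact ⟨hy, rfl⟩⟩
      rw [sum_const, this, nsmul_eq_mul]
      simp only [if_true]
      constructor <;> linarith
    · intro μ hμ
      simp only [reduceCtorEq, if_false]
      exact (ph_some_bij (mem_filter.mp hμ).2.1).prod_comp fun y => 1 - pr h G y
  · set P : ℝ := ∏ y' ∈ univ.erase y, (1 - pr h G y') with hP
    have hP0 : 0 ≤ P := prod_nonneg fun y' _ => sub_nonneg.mpr (pr_le_one h G y')
    have hP1 : P ≤ 1 := prod_le_one (fun y' _ => sub_nonneg.mpr (pr_le_one h G y'))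
      fun y' _ => sub_le_self _ (pr_nonneg h G y')
    have hPc : c0 h G = (1 - pr h G y) * P := by
      rw [c0, hP, mul_prod_erase _ (fun y' => 1 - pr h G y') (mem_univ y)]
    rw [sum_congr rfl (g := fun _ => P)]
    · have : #({μ | μ.1 ≠ 0 ∧ ph (some t₀) μ = y} : Finset (F × F)) = Fintype.card F - 1 := by
        rw [← card_univ, ← card_erase_of_mem (mem_univ (0 : F)),
          ← card_image_of_injective (univ.erase 0) (f := fun a : F => (a, y - a * t₀))
          (fun a b e => congrArg Prod.fst e)]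
        congr 1
        ext μ
        simp only [ph_some, mem_filter, mem_univ, true_and, mem_image, mem_erase, and_true]
        exact ⟨fun H => ⟨μ.1, H.1, by rw [← H.2]; simp⟩, fun ⟨b, hb, H⟩ => by rw [← H]; exact ⟨hb, by simp⟩⟩
      rw [sum_const, this, nsmul_eq_mul, Nat.cast_sub Fintype.card_pos]
      simp only [reduceCtorEq, if_false]
      have h0 := pr_nonneg h G y
      have hq : (1 : ℝ) ≤ Fintype.card F := by exact_mod_cast Fintype.card_pos
      have h1 : c0 h G ≤ P := by rw [hPc]; nlinarith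
      have h2 : P ≤ c0 h G + pr h G y := by rw [hPc]; nlinarith
      push_cast
      constructor <;> nlinarith
    · intro μ hμ
      obtain ⟨-, h1, h2⟩ := mem_filter.mp hμ
      have e : ∀ t, (if some t = some t₀ then (1 : ℝ) else 1 - pr h G (ph (some t) μ)) =
          (fun y' => if y' = y then 1 else 1 - pr h G y') (ph (some t) μ) := by
        intro t
        simp only
        congr 1
        apply propext
        constructor
        · intro e; rw [e]; exact h2
        · intro e; rw [ph_some_inj h1 (e.trans h2.symm)]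
      simp only [e]
      rw [(ph_some_bij h1).prod_comp fun y' => if y' = y then (1 : ℝ) else 1 - pr h G y',
        ← mul_prod_erase _ _ (mem_univ y), if_pos rfl, one_mul]
      exact prod_congr rfl fun y' hy' => if_neg (ne_of_mem_erase hy')

theorem c0_bds {h : Lab → F} {G : Finset F} (hG : GOK h G) (hq : 10 ^ 10 ≤ Fintype.card F) :
    1 / 5 ≤ c0 h G ∧ c0 h G ≤ 1 := by
  have hb := hG.big
  have hg : 0 < #G := by omega
  have hg' : (0 : ℝ) < #G := by exact_mod_cast hg
  have hg2 : (100000 : ℝ) ≤ #G := by exact_mod_cast (by omega : 100000 ≤ #G)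
  have hq2 : (100 : ℝ) * Fintype.card F ≤ 101 * #G := by
    exact_mod_cast (by omega : 100 * Fintype.card F ≤ 101 * #G)
  refine ⟨?_, prod_le_one (fun y' _ => sub_nonneg.mpr (pr_le_one h G y'))
    fun y' _ => sub_le_self _ (pr_nonneg h G y')⟩
  have h1 : ∀ y, pr h G y ≤ 1 / 100000 := by
    intro y
    by_cases hy : ∃ k, y = h k
    · obtain ⟨k, rfl⟩ := hy
      exact pr_h hG hg k
    · exact (pr_le_inv hg hy).trans (one_div_le_one_div_of_le (by norm_num) hg2)
  have h2 : ∀ y, Real.exp (-(11 / 10 * pr h G y)) ≤ 1 - pr h G y := by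
    intro y
    have a := h1 y
    have b := pr_nonneg h G y
    have c := Real.add_one_le_exp (11 / 10 * pr h G y)
    rw [Real.exp_neg, inv_le_iff_one_le_mul₀ (Real.exp_pos _)]
    nlinarith
  have h3 : ∑ y, pr h G y ≤ 101 / 100 + 12 / 100000 := by
    calc ∑ y, pr h G y ≤ ∑ y : F, (1 / (#G : ℝ) + if y ∈ univ.image h then 1 / 100000 else 0) := by
          apply sum_le_sum
          intro y _
          split_ifs with hy
          · have := h1 y
            have : 0 ≤ 1 / (#G : ℝ) := by positivity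
            linarith
          · rw [add_zero]
            exact pr_le_inv hg fun ⟨k, e⟩ => hy (mem_image.mpr ⟨k, mem_univ _, e.symm⟩)
      _ ≤ _ := by
          rw [sum_add_distrib, sum_const, card_univ, nsmul_eq_mul, ← sum_filter, sum_const, nsmul_eq_mul,
            filter_mem_eq_inter, univ_inter]
          have a : (#(univ.image h) : ℝ) ≤ 12 := by
            have := card_image_le (s := univ) (f := h)
            simp only [card_univ, Fintype.card_prod, Fintype.card_fin] at this
            exact_mod_cast this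
          have b : (Fintype.card F : ℝ) * (1 / #G) ≤ 101 / 100 := by
            rw [mul_one_div, div_le_iff₀ hg']; linarith
          linarith
  calc (1 / 5 : ℝ) ≤ Real.exp (-(6 / 5)) := by
        have a := Real.exp_one_lt_d9
        have b := Real.add_one_le_exp (-(1 / 5))
        have c : Real.exp (-(6 / 5)) * Real.exp 1 = Real.exp (-(1 / 5)) := by
          rw [← Real.exp_add]; norm_num
        have d := Real.exp_pos (-(6 / 5))
        nlinarith
    _ ≤ Real.exp (∑ y, -(11 / 10 * pr h G y)) := by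
        rw [Real.exp_le_exp, sum_neg_distrib, ← mul_sum]
        linarith
    _ ≤ _ := by
        rw [Real.exp_sum]
        exact prod_le_prod (fun y _ => (Real.exp_pos _).le) fun y _ => h2 y

end Reg


theorem c0_bounds : ∃ N : ℕ, 1 ≤ N ∧ ∀ (F : Type) [Field F] [Fintype F] (K : ℕ),
    Par N (Fintype.card F) K → ∀ (h : Lab → F) (G : Finset F), GOK h G →
    1 / 5 ≤ c0 h G ∧ c0 h G ≤ 1 := by
  exact ⟨10, by norm_num, fun F _ _ K H h G hG => Reg.c0_bds hG (Reg.big H le_rfl).1⟩

theorem reg_prob : ∃ N : ℕ, 1 ≤ N ∧ ∀ (F : Type) [Field F] [Fintype F] (K : ℕ),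
    Par N (Fintype.card F) K → ∀ (h : Lab → F) (G : Finset F), GOK h G →
    (#{ω : F → G × Typ | ¬ RegP h (c0 h G) K (cf ω)} : ℝ) ≤
      (Fintype.card (F → G × Typ) : ℝ) / 10 := by
  obtain ⟨N, hN, hM⟩ := mcd_union
  refine ⟨max N 10, le_max_of_le_left hN, fun F _ _ K H h G hG => ?_⟩
  obtain ⟨hq, hK⟩ := Reg.big H (le_max_right _ _)
  have hb := hG.big
  have hg : 0 < #G := by omega
  haveI : Nonempty G := by
    obtain ⟨x, hx⟩ := card_pos.mp hg
    exact ⟨⟨x, hx⟩⟩
  have hc := Reg.c0_bds hG hq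
  have hJ : Fintype.card (V F) ≤ Fintype.card F ^ 3 := by
    rw [Fintype.card_prod, Fintype.card_option]
    have : Fintype.card F + 1 ≤ Fintype.card F * Fintype.card F := by nlinarith
    calc _ ≤ Fintype.card F * Fintype.card F * Fintype.card F := Nat.mul_le_mul_right _ this
      _ = _ := by ring
  have h1 := hM F (G × Typ) (V F) K (H.mono (le_max_left _ _) hN) hJ
    (fun p ω => (#(DD h (cf ω) p) : ℝ)) (fun p ω s a => by
      have e : ∀ u, u ≠ s → cf (Function.update ω s a) u = cf ω u := fun u hu => by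
        simp only [cf, Function.update_of_ne hu]
      have a1 := Reg.dd_diff h p s _ _ e
      have a2 := Reg.dd_diff h p s _ _ fun u hu => (e u hu).symm
      rw [abs_le]
      constructor <;> linarith)
  refine le_trans (Nat.cast_le.mpr (card_le_card fun ω hω => ?_)) h1
  by_contra hc'
  simp only [mem_filter, mem_univ, true_and, not_exists, not_lt] at hω hc'
  apply hω
  intro p hp
  have b1 := abs_le.mp (hc' p)
  have b2 := Reg.mean_bounds hg ⟨by linarith [hc.1], hc.2⟩ p hp
  have hq1 : (1 : ℝ) ≤ √(Fintype.card F) := by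
    rw [Real.one_le_sqrt]; exact_mod_cast Fintype.card_pos
  have hK' : (10 : ℝ) ≤ K := by exact_mod_cast hK
  have b3 : (10 : ℝ) ≤ K * √(Fintype.card F) := by nlinarith
  refine ⟨by linarith [b1.1, b2.1], ?_⟩
  have b4 : (if p.1 = none then 0 else (Fintype.card F : ℝ) * pr h G p.2) ≤
      2 + if p.1 ≠ none ∧ ∃ k, p.2 = h k then (Fintype.card F : ℝ) / 100000 else 0 := by
    have hq0 : (0 : ℝ) ≤ Fintype.card F := Nat.cast_nonneg _
    by_cases h1 : p.1 = none
    · simp [h1]
    · rw [if_neg h1]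
      by_cases h2 : ∃ k, p.2 = h k
      · rw [if_pos ⟨h1, h2⟩]
        obtain ⟨k, e⟩ := h2
        have := mul_le_mul_of_nonneg_left (Reg.pr_h hG hg k) hq0
        rw [e]; linarith
      · rw [if_neg fun H => h2 H.2, add_zero]
        refine (mul_le_mul_of_nonneg_left (Reg.pr_le_inv hg h2) hq0).trans ?_
        rw [mul_one_div, div_le_iff₀ (by exact_mod_cast hg)]
        exact_mod_cast (by omega : Fintype.card F ≤ 2 * #G)
  linarith [b1.2, b2.2]

end Crest.Agent.R34
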